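import Vale.Agent.Mem.PartF

/-!
# P309, PART E: slab
-/

namespace Vale.Agent.Mem

open Finset MeasureTheory
open scoped InnerProductSpace

namespace EE

/-- Volume packing in a finite dimensional space. -/
theorem card_pack {F : Type*} [NormedAddCommGroup F] [NormedSpace ℝ F] [FiniteDimensional ℝ F]
    (s : Finset F) (R ρ : ℝ) (hρ : 0 < ρ) (hR : 0 ≤ R) (hs : ∀ c ∈ s, ‖c‖ ≤ R)
    (h : ∀ c ∈ s, ∀ c' ∈ s, c ≠ c' → 2 * ρ ≤ ‖c - c'‖) :
    (s.card : ℝ) ≤ ((R + ρ) / ρ) ^ Module.finrank ℝ F := by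
  borelize F
  let μ : Measure F := Measure.addHaar
  have hT : 0 < R + ρ := by linarith
  set A := ⋃ c ∈ s, Metric.ball (c : F) ρ with hA
  have D : Set.Pairwise (s : Set F) (Function.onFun Disjoint fun c => Metric.ball (c : F) ρ) := by
    rintro c hc c' hc' hcc
    apply Metric.ball_disjoint_ball
    rw [dist_eq_norm]
    linarith [h c hc c' hc' hcc]
  have A_subset : A ⊆ Metric.ball (0 : F) (R + ρ) := by
    refine Set.iUnion₂_subset fun x hx => ?_
    apply Metric.ball_subset_ball'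
    rw [dist_zero_right]
    linarith [hs x hx]
  have I : (s.card : ENNReal) * ENNReal.ofReal (ρ ^ Module.finrank ℝ F) * μ (Metric.ball 0 1) ≤
      ENNReal.ofReal ((R + ρ) ^ Module.finrank ℝ F) * μ (Metric.ball 0 1) :=
    calc (s.card : ENNReal) * ENNReal.ofReal (ρ ^ Module.finrank ℝ F) * μ (Metric.ball 0 1) =
          μ A := by
          rw [hA, measure_biUnion_finset D fun c _ => measurableSet_ball]
          simp only [μ.addHaar_ball_of_pos _ hρ]
          simp only [Finset.sum_const, nsmul_eq_mul, mul_assoc]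
      _ ≤ μ (Metric.ball (0 : F) (R + ρ)) := measure_mono A_subset
      _ = _ := by simp only [μ.addHaar_ball_of_pos _ hT]
  have J : (s.card : ENNReal) * ENNReal.ofReal (ρ ^ Module.finrank ℝ F) ≤
      ENNReal.ofReal ((R + ρ) ^ Module.finrank ℝ F) :=
    (ENNReal.mul_le_mul_iff_left (Metric.measure_ball_pos _ _ zero_lt_one).ne'
      measure_ball_lt_top.ne).1 I
  have K := ENNReal.toReal_le_of_le_ofReal (pow_nonneg hT.le _) J
  rw [ENNReal.toReal_mul, ENNReal.toReal_natCast,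
    ENNReal.toReal_ofReal (pow_nonneg hρ.le _)] at K
  rw [div_pow, le_div_iff₀ (pow_pos hρ _)]
  exact K

variable {S : Type} [Fintype S] {d : ℕ}

/-- Mass of a slab. -/
theorem mass_le (p : S → E d) (om : S → ℝ) (hom : ∀ s, 0 ≤ om s) (r τ1 Q : ℝ)
    (hτ1 : 0 < τ1) (hQ : 0 ≤ Q) (hp : ∀ s, om s ≠ 0 → ‖p s‖ ≤ r) (a v : ℕ)
    (hav : a ≤ v)
    (hF : ∀ s, om s ≠ 0 → ∀ ρ, τ1 ≤ ρ →
      ∑ s', (if ‖p s' - p s‖ ≤ ρ then om s' else 0) ≤ Q * (ρ / r) ^ v)
    (V : Submodule ℝ (E d)) (hV : Module.finrank ℝ V ≤ a) (ρ : ℝ) (hρ : τ1 ≤ ρ) (hρr : ρ ≤ r) :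
    ∑ s, (if Metric.infDist (p s) (V : Set (E d)) ≤ ρ then om s else 0) ≤
      3 ^ a * 4 ^ v * Q * (ρ / r) ^ (v - a) := by
  classical
  have hρ0 : 0 < ρ := lt_of_lt_of_le hτ1 hρ
  have hr0 : 0 < r := lt_of_lt_of_le hρ0 hρr
  set A : Finset S := univ.filter fun s => om s ≠ 0 ∧ Metric.infDist (p s) (V : Set (E d)) ≤ ρ
    with hA
  obtain ⟨C, hC, h1, h2⟩ := F.exists_sep p (4 * ρ) (by positivity) A
  have hCA : ∀ c ∈ C, om c ≠ 0 ∧ Metric.infDist (p c) (V : Set (E d)) ≤ ρ := fun c hc =>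
    (Finset.mem_filter.1 (hC hc)).2
  -- nearest points
  have hVc : IsClosed (V : Set (E d)) := Submodule.closed_of_finiteDimensional V
  have hVn : (V : Set (E d)).Nonempty := ⟨0, V.zero_mem⟩
  choose q hqV hq using fun x : E d => hVc.exists_infDist_eq_dist hVn x
  -- packing
  have hcard : (C.card : ℝ) ≤ (3 * r / ρ) ^ a := by
    let f : S → V := fun s => ⟨q (p s), hqV (p s)⟩
    have hfar : ∀ c ∈ C, ∀ c' ∈ C, c ≠ c' → 2 * ρ ≤ ‖f c - f c'‖ := by
      intro c hc c' hc' hne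
      have h3 := h2 c hc c' hc' hne
      have h4 : ‖p c - q (p c)‖ ≤ ρ := by
        rw [← dist_eq_norm, ← hq]; exact (hCA c hc).2
      have h5 : ‖p c' - q (p c')‖ ≤ ρ := by
        rw [← dist_eq_norm, ← hq]; exact (hCA c' hc').2
      have h6 : ‖f c - f c'‖ = ‖q (p c) - q (p c')‖ := rfl
      rw [h6]
      have h7 : p c - p c' = (p c - q (p c)) + (q (p c) - q (p c')) - (p c' - q (p c')) := by abel
      have h8 : ‖p c - p c'‖ ≤ ‖p c - q (p c)‖ + ‖q (p c) - q (p c')‖ + ‖p c' - q (p c')‖ := by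
        rw [h7]
        exact (norm_sub_le _ _).trans (add_le_add (norm_add_le _ _) le_rfl)
      linarith
    have hinj : Set.InjOn f C := by
      intro c hc c' hc' h
      by_contra hne
      have h3 := hfar c hc c' hc' hne
      rw [h, sub_self, norm_zero] at h3
      linarith
    have hpk := card_pack (C.image f) (2 * r) ρ hρ0 (by positivity) (by
      intro y hy
      obtain ⟨c, hc, rfl⟩ := Finset.mem_image.1 hy
      have h3 : ‖f c‖ = ‖q (p c)‖ := rfl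
      rw [h3]
      have h4 : ‖p c - q (p c)‖ ≤ ρ := by
        rw [← dist_eq_norm, ← hq]; exact (hCA c hc).2
      have h5 := hp c (hCA c hc).1
      have h6 : ‖q (p c)‖ ≤ ‖p c‖ + ‖p c - q (p c)‖ := by
        have : q (p c) = p c - (p c - q (p c)) := by abel
        conv_lhs => rw [this]
        exact norm_sub_le _ _
      linarith) (by
      intro y hy y' hy' hne
      obtain ⟨c, hc, rfl⟩ := Finset.mem_image.1 hy
      obtain ⟨c', hc', rfl⟩ := Finset.mem_image.1 hy'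
      exact hfar c hc c' hc' (fun h => hne (by rw [h])))
    rw [Finset.card_image_of_injOn hinj] at hpk
    refine hpk.trans ?_
    have h1 : 1 ≤ (2 * r + ρ) / ρ := by
      rw [le_div_iff₀ hρ0]; linarith
    calc ((2 * r + ρ) / ρ) ^ Module.finrank ℝ V ≤ ((2 * r + ρ) / ρ) ^ a :=
          pow_le_pow_right₀ h1 hV
      _ ≤ (3 * r / ρ) ^ a := by
          refine pow_le_pow_left₀ (by positivity) ?_ a
          exact div_le_div_of_nonneg_right (by linarith) hρ0.le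
  -- mass
  have hpt : ∀ s, (if Metric.infDist (p s) (V : Set (E d)) ≤ ρ then om s else 0) ≤
      ∑ c ∈ C, (if ‖p s - p c‖ ≤ 4 * ρ then om s else 0) := by
    intro s
    have h0 : ∀ c ∈ C, (0 : ℝ) ≤ (if ‖p s - p c‖ ≤ 4 * ρ then om s else 0) := by
      intro c _
      split_ifs
      · exact hom s
      · exact le_rfl
    by_cases hs : om s ≠ 0 ∧ Metric.infDist (p s) (V : Set (E d)) ≤ ρ
    · rw [if_pos hs.2]
      obtain ⟨c, hc, hcs⟩ := h1 s (Finset.mem_filter.2 ⟨Finset.mem_univ _, hs⟩)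
      calc om s = (if ‖p s - p c‖ ≤ 4 * ρ then om s else 0) := by rw [if_pos hcs]
        _ ≤ _ := Finset.single_le_sum h0 hc
    · refine le_trans (le_of_eq ?_) (Finset.sum_nonneg h0)
      split_ifs with h3
      · by_contra h4
        exact hs ⟨h4, h3⟩
      · rfl
  calc ∑ s, (if Metric.infDist (p s) (V : Set (E d)) ≤ ρ then om s else 0)
      ≤ ∑ s, ∑ c ∈ C, (if ‖p s - p c‖ ≤ 4 * ρ then om s else 0) :=
        Finset.sum_le_sum fun s _ => hpt s
    _ = ∑ c ∈ C, ∑ s, (if ‖p s - p c‖ ≤ 4 * ρ then om s else 0) := Finset.sum_comm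
    _ ≤ ∑ c ∈ C, Q * (4 * ρ / r) ^ v :=
        Finset.sum_le_sum fun c hc => hF c (hCA c hc).1 (4 * ρ) (by linarith)
    _ = C.card * (Q * (4 * ρ / r) ^ v) := by rw [Finset.sum_const, nsmul_eq_mul]
    _ ≤ (3 * r / ρ) ^ a * (Q * (4 * ρ / r) ^ v) :=
        mul_le_mul_of_nonneg_right hcard (by positivity)
    _ = 3 ^ a * 4 ^ v * Q * (ρ / r) ^ (v - a) := by
        obtain ⟨b, rfl⟩ := Nat.exists_eq_add_of_le hav
        rw [Nat.add_sub_cancel_left, mul_div_assoc, mul_div_assoc, mul_pow 3, mul_pow 4,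
          pow_add (ρ / r)]
        have h3 : (r / ρ) ^ a * (ρ / r) ^ a = 1 := by
          rw [← mul_pow, div_mul_div_cancel₀ hρ0.ne', div_self hr0.ne', one_pow]
        calc 3 ^ a * (r / ρ) ^ a * (Q * (4 ^ (a + b) * ((ρ / r) ^ a * (ρ / r) ^ b)))
            = 3 ^ a * 4 ^ (a + b) * Q * (ρ / r) ^ b * ((r / ρ) ^ a * (ρ / r) ^ a) := by ring
          _ = _ := by rw [h3, mul_one]

/-- Pointwise dyadic bound. -/
theorem g_le_sum {τ1 t : ℝ} (hτ1 : 0 < τ1) (w I : ℕ) (h : t ≤ 2 ^ I * τ1) :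
    g τ1 t ^ w ≤ ∑ i ∈ range (I + 1), (2 / 2 ^ i) ^ w * (if t ≤ 2 ^ i * τ1 then 1 else 0) := by
  have h0 : ∀ i ∈ range (I + 1), (0 : ℝ) ≤ (2 / 2 ^ i) ^ w * (if t ≤ 2 ^ i * τ1 then 1 else 0) := by
    intro i _
    split_ifs <;> positivity
  have key : ∃ i ∈ range (I + 1), t ≤ 2 ^ i * τ1 ∧ g τ1 t ≤ 2 / 2 ^ i := by
    induction I with
    | zero =>
      refine ⟨0, by simp, h, ?_⟩
      rw [pow_zero, one_mul] at h
      unfold g
      rw [if_pos h]
      norm_num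
    | succ I ih =>
      by_cases h1 : t ≤ 2 ^ I * τ1
      · obtain ⟨i, hi, h2⟩ := ih h1 (fun i hi => by split_ifs <;> positivity)
        exact ⟨i, Finset.mem_range.2 ((Finset.mem_range.1 hi).trans (by omega)), h2⟩
      · refine ⟨I + 1, Finset.mem_range.2 (by omega), h, ?_⟩
        push Not at h1
        have h2 : τ1 < t := by
          refine lt_of_le_of_lt ?_ h1
          have : (1 : ℝ) ≤ 2 ^ I := one_le_pow₀ (by norm_num)
          nlinarith
        unfold g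
        rw [if_neg (not_le.2 h2), div_le_div_iff₀ (hτ1.trans h2) (by positivity), pow_succ]
        nlinarith
  obtain ⟨i, hi, h1, h2⟩ := key
  have hg : 0 ≤ g τ1 t := by
    unfold g
    split_ifs with h3
    · exact zero_le_one
    · exact div_nonneg hτ1.le (hτ1.le.trans (not_le.1 h3).le)
  calc g τ1 t ^ w ≤ (2 / 2 ^ i) ^ w := pow_le_pow_left₀ hg h2 w
    _ = (2 / 2 ^ i) ^ w * (if t ≤ 2 ^ i * τ1 then 1 else 0) := by rw [if_pos h1, mul_one]
    _ ≤ _ := Finset.single_le_sum h0 hi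

theorem geom_two (b I : ℕ) (hb : 1 ≤ b) : ∑ i ∈ range (I + 1), ((2 : ℝ) ^ b) ^ i ≤
    2 * (2 ^ b) ^ I := by
  have h2 : (2 : ℝ) ≤ 2 ^ b := by
    calc (2 : ℝ) = 2 ^ 1 := (pow_one _).symm
      _ ≤ 2 ^ b := pow_le_pow_right₀ (by norm_num) hb
  induction I with
  | zero => simp
  | succ I ih =>
    rw [Finset.sum_range_succ, pow_succ]
    have h3 : (0 : ℝ) ≤ (2 ^ b) ^ I := by positivity
    nlinarith

end EE

/-- PART E. -/
theorem slab {S : Type} [Fintype S] {d : ℕ} (p : S → E d) (om : S → ℝ) (hom : ∀ s, 0 ≤ om s)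
    (r τ1 Q : ℝ)
    (hτ1 : 0 < τ1) (hr : τ1 ≤ r) (hQ : 0 ≤ Q) (hp : ∀ s, om s ≠ 0 → ‖p s‖ ≤ r) (a w v : ℕ)
    (hav : a + w < v)
    (hF : ∀ s, om s ≠ 0 → ∀ ρ, τ1 ≤ ρ →
      ∑ s', (if ‖p s' - p s‖ ≤ ρ then om s' else 0) ≤ Q * (ρ / r) ^ v)
    (V : Submodule ℝ (E d)) (hV : Module.finrank ℝ V ≤ a) :
    ∑ s, om s * g τ1 (Metric.infDist (p s) (V : Set (E d))) ^ w ≤
      64 ^ v * Q * (τ1 / r) ^ w := by
  classical
  have hr0 : 0 < r := lt_of_lt_of_le hτ1 hr
  set D : S → ℝ := fun s => Metric.infDist (p s) (V : Set (E d)) with hD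
  have hDr : ∀ s, om s ≠ 0 → D s ≤ r := by
    intro s hs
    have := Metric.infDist_le_dist_of_mem (x := p s) (s := (V : Set (E d))) (y := 0) V.zero_mem
    rw [dist_zero_right] at this
    exact this.trans (hp s hs)
  -- the last level
  obtain ⟨I, hI1, hI2⟩ : ∃ I : ℕ, r ≤ 2 ^ I * τ1 ∧ 2 ^ I * τ1 ≤ 2 * r := by
    obtain ⟨n, hn1, hn2⟩ := exists_nat_pow_near (x := r / τ1) (y := 2)
      ((one_le_div hτ1).2 hr) (by norm_num)
    refine ⟨n + 1, ?_, ?_⟩
    · rw [div_lt_iff₀ hτ1] at hn2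
      exact hn2.le
    · rw [le_div_iff₀ hτ1] at hn1
      rw [pow_succ]
      linarith
  obtain ⟨b, hb, hvb⟩ : ∃ b, 1 ≤ b ∧ v = a + w + b := ⟨v - (a + w), by omega, by omega⟩
  -- mass at the level `i`
  have hmass : ∀ i : ℕ, ∑ s, (if D s ≤ 2 ^ i * τ1 then om s else 0) ≤
      3 ^ a * 4 ^ v * Q * (2 ^ i * τ1 / r) ^ (v - a) := by
    intro i
    have h1i : (1 : ℝ) ≤ 2 ^ i := one_le_pow₀ (by norm_num)
    rcases le_total (2 ^ i * τ1) r with h | h
    · exact EE.mass_le p om hom r τ1 Q hτ1 hQ hp a v (by omega) hF V hV (2 ^ i * τ1)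
        (by nlinarith) h
    · have h1 := EE.mass_le p om hom r τ1 Q hτ1 hQ hp a v (by omega) hF V hV r hr le_rfl
      have h2 : ∑ s, (if D s ≤ 2 ^ i * τ1 then om s else 0) ≤ ∑ s, (if D s ≤ r then om s else 0) := by
        refine Finset.sum_le_sum fun s _ => ?_
        by_cases hs : om s = 0
        · simp [hs]
        · rw [if_pos (hDr s hs)]
          split_ifs
          · exact le_rfl
          · exact hom s
      refine h2.trans (h1.trans ?_)
      refine mul_le_mul_of_nonneg_left ?_ (by positivity)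
      rw [div_self hr0.ne', one_pow]
      exact one_le_pow₀ ((one_le_div hr0).2 h)
  calc ∑ s, om s * g τ1 (D s) ^ w
      ≤ ∑ s, om s * ∑ i ∈ range (I + 1), (2 / 2 ^ i) ^ w * (if D s ≤ 2 ^ i * τ1 then 1 else 0) := by
        refine Finset.sum_le_sum fun s _ => ?_
        by_cases hs : om s = 0
        · rw [hs, zero_mul, zero_mul]
        · exact mul_le_mul_of_nonneg_left
            (EE.g_le_sum hτ1 w I ((hDr s hs).trans hI1)) (hom s)
    _ = ∑ i ∈ range (I + 1), (2 / 2 ^ i) ^ w * ∑ s, (if D s ≤ 2 ^ i * τ1 then om s else 0) := by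
        simp only [Finset.mul_sum]
        rw [Finset.sum_comm]
        refine Finset.sum_congr rfl fun i _ => Finset.sum_congr rfl fun s _ => ?_
        split_ifs <;> ring
    _ ≤ ∑ i ∈ range (I + 1), (2 / 2 ^ i) ^ w *
          (3 ^ a * 4 ^ v * Q * (2 ^ i * τ1 / r) ^ (v - a)) :=
        Finset.sum_le_sum fun i _ => mul_le_mul_of_nonneg_left (hmass i) (by positivity)
    _ = 2 ^ w * 3 ^ a * 4 ^ v * Q * (τ1 / r) ^ (w + b) * ∑ i ∈ range (I + 1), ((2 : ℝ) ^ b) ^ i := by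
        rw [Finset.mul_sum]
        refine Finset.sum_congr rfl fun i _ => ?_
        have h1 : v - a = w + b := by omega
        rw [h1, mul_div_assoc, mul_pow, div_pow 2 (2 ^ i), pow_add (2 ^ i : ℝ) w b]
        have h2 : ((2 : ℝ) ^ i) ^ b = (2 ^ b) ^ i := by rw [← pow_mul, ← pow_mul, mul_comm]
        rw [h2]
        field_simp
    _ ≤ 2 ^ w * 3 ^ a * 4 ^ v * Q * (τ1 / r) ^ (w + b) * (2 * (2 ^ b) ^ I) :=
        mul_le_mul_of_nonneg_left (EE.geom_two b I hb) (by positivity)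
    _ ≤ 2 ^ w * 3 ^ a * 4 ^ v * Q * (τ1 / r) ^ (w + b) * (2 * (2 * (r / τ1)) ^ b) := by
        refine mul_le_mul_of_nonneg_left ?_ (by positivity)
        refine mul_le_mul_of_nonneg_left ?_ (by norm_num)
        rw [← pow_mul, mul_comm b I, pow_mul]
        refine pow_le_pow_left₀ (by positivity) ?_ b
        rw [mul_div_assoc', le_div_iff₀ hτ1]
        exact hI2
    _ = 2 * (2 ^ w * 3 ^ a * 2 ^ b) * 4 ^ v * Q * (τ1 / r) ^ w := by
        rw [pow_add (τ1 / r), mul_pow 2 (r / τ1)]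
        have h3 : (τ1 / r) ^ b * (r / τ1) ^ b = 1 := by
          rw [← mul_pow, div_mul_div_cancel₀ hr0.ne', div_self hτ1.ne', one_pow]
        calc 2 ^ w * 3 ^ a * 4 ^ v * Q * ((τ1 / r) ^ w * (τ1 / r) ^ b) *
              (2 * (2 ^ b * (r / τ1) ^ b))
            = 2 * (2 ^ w * 3 ^ a * 2 ^ b) * 4 ^ v * Q * (τ1 / r) ^ w *
              ((τ1 / r) ^ b * (r / τ1) ^ b) := by ring
          _ = _ := by rw [h3, mul_one]
    _ ≤ 64 ^ v * Q * (τ1 / r) ^ w := by
        refine mul_le_mul_of_nonneg_right (mul_le_mul_of_nonneg_right ?_ hQ) (by positivity)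
        have h1 : (2 : ℝ) ^ w * 3 ^ a * 2 ^ b ≤ 3 ^ v := by
          rw [hvb, pow_add, pow_add]
          have h2 : (2 : ℝ) ^ w ≤ 3 ^ w := pow_le_pow_left₀ (by norm_num) (by norm_num) w
          have h3 : (2 : ℝ) ^ b ≤ 3 ^ b := pow_le_pow_left₀ (by norm_num) (by norm_num) b
          calc (2 : ℝ) ^ w * 3 ^ a * 2 ^ b ≤ 3 ^ w * 3 ^ a * 3 ^ b := by gcongr
            _ = _ := by ring
        have h4 : (2 : ℝ) ≤ 2 ^ v := by
          calc (2 : ℝ) = 2 ^ 1 := (pow_one _).symm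
            _ ≤ 2 ^ v := pow_le_pow_right₀ (by norm_num) (by omega)
        calc (2 : ℝ) * (2 ^ w * 3 ^ a * 2 ^ b) * 4 ^ v ≤ 2 ^ v * 3 ^ v * 4 ^ v := by gcongr
          _ = 24 ^ v := by rw [← mul_pow, ← mul_pow]; norm_num
          _ ≤ 64 ^ v := pow_le_pow_left₀ (by norm_num) (by norm_num) v

end Vale.Agent.Mem
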