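import Vale.Agent.Mem.Defs2
import Vale.Agent.Mem.PartE

/-!
# P309: average size of the cells
-/

namespace Vale.Agent.Mem

open Finset
open scoped InnerProductSpace

namespace I2

section rows
variable {S X : Type} [Fintype S] [Fintype X]

omit [Fintype X] in
theorem prw_nonneg {gam : X → ℝ} (hgam : ∀ x, 0 ≤ gam x) {w : ℕ} (x : Fin w → X) :
    0 ≤ prw gam x := Finset.prod_nonneg fun i _ => hgam (x i)

theorem prw_prod (gam : X → ℝ) (w : ℕ) (φ : X → ℝ) :
    ∑ x : Fin w → X, prw gam x * ∏ i, φ (x i) = (∑ x, gam x * φ x) ^ w := by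
  have h : ∀ x : Fin w → X, prw gam x * ∏ i, φ (x i) = ∏ i, (gam (x i) * φ (x i)) := by
    intro x
    rw [prw, Finset.prod_mul_distrib]
  rw [Finset.sum_congr rfl fun x _ => h x, ← Fintype.piFinset_univ,
    ← Finset.prod_univ_sum (fun _ : Fin w => (Finset.univ : Finset X))
      (fun _ x => gam x * φ x)]
  simp

theorem prw_sum {gam : X → ℝ} (hg1 : ∑ x, gam x = 1) (w : ℕ) :
    ∑ x : Fin w → X, prw gam x = 1 := by
  have h := prw_prod gam w (fun _ => 1)
  simp only [Finset.prod_const_one, mul_one] at h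
  rw [h, hg1, one_pow]

omit [Fintype S] in
theorem prw_sep {gam : X → ℝ} (hgam : ∀ x, 0 ≤ gam x) (Y : X → S → ℤ) (w : ℕ) (s s' : S)
    {b : ℝ} (hb : ∑ x, gam x * (if Y x s' = Y x s then 1 else 0) ≤ b) :
    ∑ x : Fin w → X, prw gam x * (if plab Y x s' = plab Y x s then 1 else 0) ≤ b ^ w := by
  have h : ∀ x : Fin w → X, (if plab Y x s' = plab Y x s then (1 : ℝ) else 0) =
      ∏ i, (if Y (x i) s' = Y (x i) s then (1 : ℝ) else 0) := by
    intro x
    rw [Finset.prod_boole]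
    have : (plab Y x s' = plab Y x s) ↔ ∀ i ∈ (Finset.univ : Finset (Fin w)),
        Y (x i) s' = Y (x i) s := by
      simp [plab, funext_iff]
    by_cases h1 : plab Y x s' = plab Y x s
    · rw [if_pos h1, if_pos (this.1 h1)]
    · rw [if_neg h1, if_neg fun h2 => h1 (this.2 h2)]
  have h2 : ∑ x : Fin w → X, prw gam x * (if plab Y x s' = plab Y x s then (1 : ℝ) else 0) =
      (∑ x, gam x * (if Y x s' = Y x s then 1 else 0)) ^ w := by
    rw [← prw_prod]
    exact Finset.sum_congr rfl fun x _ => by rw [h x]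
  rw [h2]
  refine pow_le_pow_left₀ (Finset.sum_nonneg fun x _ => mul_nonneg (hgam x) ?_) hb w
  split_ifs <;> norm_num

end rows

theorem g_nonneg {τ t : ℝ} (hτ : 0 ≤ τ) : 0 ≤ g τ t := by
  unfold g
  split_ifs with h
  · norm_num
  · exact div_nonneg hτ (by linarith)

section model
variable {S X : Type} [Fintype S] [Fintype X] {CL C1 : ℝ} {d n : ℕ} {τ : ℝ} {vs : S → E d}
  {vx : X → E d} {lam : S → ℝ} {gam gam' : X → ℝ} {Y : X → S → ℤ}

theorem sep1 (M : Model CL C1 d n τ vs vx lam gam gam' Y) (s s' : S) :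
    ∑ x, gam x * (if Y x s' = Y x s then 1 else 0) ≤ g (C1 * τ) ‖vs s' - vs s‖ := by
  have h1 := M.gam_small 1 M.hn (fun _ => vs s' - vs s) (fun _ => by
    calc ‖vs s' - vs s‖ ≤ ‖vs s'‖ + ‖vs s‖ := norm_sub_le _ _
      _ ≤ 2 := by linarith [M.vs_le s, M.vs_le s'])
  have h2 : Metric.infDist (vs s' - vs s) (Submodule.span ℝ
      ((fun _ : Fin 1 => vs s' - vs s) '' {i | i < 0}) : Set (E d)) = ‖vs s' - vs s‖ := by
    have : {i : Fin 1 | i < 0} = ∅ := by
      ext i; simp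
    rw [this, Set.image_empty, Submodule.span_empty, Submodule.bot_coe, Metric.infDist_singleton,
      dist_zero_right]
  rw [Fin.prod_univ_one, h2] at h1
  refine le_trans (Finset.sum_le_sum fun x _ => mul_le_mul_of_nonneg_left ?_
    (M.gam_nonneg x)) h1
  by_cases h : Y x s' = Y x s
  · rw [if_pos h, if_pos fun _ => M.lab_eq x s' s h]
  · rw [if_neg h]; split_ifs <;> norm_num

theorem sep2 (M : Model CL C1 d n τ vs vx lam gam gam' Y) (s s' : S) :
    ∑ x, gam' x * (if Y x s' = Y x s then 1 else 0) ≤ g (C1 * τ) ‖vs s' - vs s‖ := by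
  have h1 : ∑ x, gam' x * (if Y x s' = Y x s then (1 : ℝ) else 0) ≤ 1 := by
    refine (Finset.sum_le_sum fun x _ => ?_).trans_eq M.gam'_sum
    have := M.gam'_nonneg x
    split_ifs <;> simp [this]
  unfold g
  split_ifs with h
  · exact h1
  · rw [not_le] at h
    have hτ := M.hτ
    have hC : 0 < C1 * τ := by have := M.hC1; positivity
    have hp : 0 < ‖vs s' - vs s‖ := hC.trans h
    have h2 := M.gam'_small τ (vs s' - vs s) le_rfl (norm_pos_iff.1 hp) (by
      calc ‖vs s' - vs s‖ ≤ ‖vs s'‖ + ‖vs s‖ := norm_sub_le _ _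
        _ ≤ 4 := by linarith [M.vs_le s, M.vs_le s'])
    refine le_trans (Finset.sum_le_sum fun x _ => mul_le_mul_of_nonneg_left ?_
      (M.gam'_nonneg x)) h2
    by_cases h : Y x s' = Y x s
    · rw [if_pos h, if_pos (M.lab_eq x s' s h)]
    · rw [if_neg h]; split_ifs <;> norm_num

/-- average size of a part of a cell -/
theorem cell_avg_gen (M : Model CL C1 d n τ vs vx lam gam gam' Y) (s : S) (f : S → ℝ) (r : ℝ)
    (hf0 : ∀ s', 0 ≤ f s') (hf1 : ∀ s', f s' ≤ 1) (hf : ∀ s', f s' ≠ 0 → ‖vs s' - vs s‖ ≤ r)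
    (hr : C1 * τ ≤ r) :
    ∑ h : Fin (5 * n) → X, prw gam' h * ∑ x : Fin n → X, prw gam x *
      cell lam (plab Y) (plab Y) f x h s ≤
        64 ^ (15 * n) * (r * CL) ^ (15 * n) * (C1 * τ / r) ^ (6 * n) := by
  have hτ := M.hτ
  have hC : 0 < C1 * τ := by have := M.hC1; positivity
  have hr0 : 0 < r := hC.trans_le hr
  have hC1 : 0 < C1 := by linarith [M.hC1]
  have hCL : 0 < CL := by linarith [M.hCL]
  have h1 : ∑ h : Fin (5 * n) → X, prw gam' h * ∑ x : Fin n → X, prw gam x *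
      cell lam (plab Y) (plab Y) f x h s =
      ∑ s', (lam s' * f s') * ((∑ x : Fin n → X, prw gam x *
          (if plab Y x s' = plab Y x s then 1 else 0)) *
        ∑ h : Fin (5 * n) → X, prw gam' h * (if plab Y h s' = plab Y h s then 1 else 0)) := by
    unfold cell
    simp only [Finset.mul_sum, Finset.sum_mul]
    rw [Finset.sum_comm]
    have : ∀ x : Fin n → X, ∑ h : Fin (5 * n) → X, ∑ s', prw gam' h * (prw gam x *
        (if plab Y x s' = plab Y x s ∧ plab Y h s' = plab Y h s then lam s' * f s' else 0)) =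
        ∑ s', ∑ h : Fin (5 * n) → X, prw gam' h * (prw gam x *
        (if plab Y x s' = plab Y x s ∧ plab Y h s' = plab Y h s then lam s' * f s' else 0)) :=
      fun x => Finset.sum_comm
    rw [Finset.sum_congr rfl fun x _ => this x, Finset.sum_comm]
    refine Finset.sum_congr rfl fun s' _ => ?_
    rw [Finset.sum_comm]
    refine Finset.sum_congr rfl fun h _ => Finset.sum_congr rfl fun x _ => ?_
    by_cases hx : plab Y x s' = plab Y x s <;> by_cases hh : plab Y h s' = plab Y h s <;>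
      simp [hx, hh]; ring
  rw [h1]
  have h2 : ∀ s', (lam s' * f s') * ((∑ x : Fin n → X, prw gam x *
          (if plab Y x s' = plab Y x s then 1 else 0)) *
        ∑ h : Fin (5 * n) → X, prw gam' h * (if plab Y h s' = plab Y h s then 1 else 0)) ≤
      (lam s' * f s') * g (C1 * τ) (Metric.infDist (vs s' - vs s)
        ((⊥ : Submodule ℝ (E d)) : Set (E d))) ^ (6 * n) := by
    intro s'
    refine mul_le_mul_of_nonneg_left ?_ (mul_nonneg (M.lam_pos s').le (hf0 s'))
    rw [Submodule.bot_coe, Metric.infDist_singleton, dist_zero_right]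
    have h3 := prw_sep M.gam_nonneg Y n s s' (sep1 M s s')
    have h4 := prw_sep M.gam'_nonneg Y (5 * n) s s' (sep2 M s s')
    have h5 : g (C1 * τ) ‖vs s' - vs s‖ ^ (6 * n) =
        g (C1 * τ) ‖vs s' - vs s‖ ^ n * g (C1 * τ) ‖vs s' - vs s‖ ^ (5 * n) := by
      rw [← pow_add]; congr 1; ring
    rw [h5]
    refine mul_le_mul h3 h4 (Finset.sum_nonneg fun h _ => mul_nonneg
      (prw_nonneg M.gam'_nonneg h) ?_) (pow_nonneg (g_nonneg hC.le) _)
    split_ifs <;> norm_num
  refine (Finset.sum_le_sum fun s' _ => h2 s').trans ?_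
  refine slab (fun s' => vs s' - vs s) (fun s' => lam s' * f s')
    (fun s' => mul_nonneg (M.lam_pos s').le (hf0 s')) r (C1 * τ)
    ((r * CL) ^ (15 * n)) hC hr (by positivity) (fun s' hs' => ?_) 0 (6 * n) (15 * n)
    (by have := M.hn; omega) (fun s1 _ ρ hρ => ?_) ⊥ (by simp)
  · exact hf s' (right_ne_zero_of_mul hs')
  · have h4 := M.lam_ball (vs s1) ρ (by nlinarith [M.hC1])
    refine le_trans (Finset.sum_le_sum fun s' _ => ?_) (h4.trans (le_of_eq ?_))
    · rw [sub_sub_sub_cancel_right]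
      split_ifs
      · calc lam s' * f s' ≤ lam s' * 1 := mul_le_mul_of_nonneg_left (hf1 s') (M.lam_pos s').le
          _ = lam s' := mul_one _
      · exact le_rfl
    · rw [← mul_pow]; congr 1; field_simp

/-- average size of a cell -/
theorem cell_avg (M : Model CL C1 d n τ vs vx lam gam gam' Y) (hr : C1 * τ ≤ 2) (s : S) :
    ∑ h : Fin (5 * n) → X, prw gam' h * ∑ x : Fin n → X, prw gam x *
      cell lam (plab Y) (plab Y) (fun _ => 1) x h s ≤
        ((128 * CL) ^ 15 * C1 ^ 6) ^ n * τ ^ (6 * n) := by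
  have hτ := M.hτ
  have hC : 0 < C1 * τ := by have := M.hC1; positivity
  have hC1 : 0 < C1 := by linarith [M.hC1]
  have hCL : 0 < CL := by linarith [M.hCL]
  have h3 := cell_avg_gen M s (fun _ => 1) 2 (fun _ => zero_le_one) (fun _ => le_rfl)
    (fun s' _ => by
      calc ‖vs s' - vs s‖ ≤ ‖vs s'‖ + ‖vs s‖ := norm_sub_le _ _
        _ ≤ 2 := by linarith [M.vs_le s, M.vs_le s']) hr
  refine h3.trans ?_
  rw [mul_pow _ (C1 ^ 6) n, ← pow_mul, ← pow_mul]
  have h5 : (128 * CL) ^ (15 * n) = 64 ^ (15 * n) * (2 * CL) ^ (15 * n) := by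
    rw [← mul_pow]; congr 1; ring
  have h6 : (C1 * τ / 2) ^ (6 * n) ≤ (C1 * τ) ^ (6 * n) :=
    pow_le_pow_left₀ (by positivity) (by linarith) _
  calc 64 ^ (15 * n) * (2 * CL) ^ (15 * n) * (C1 * τ / 2) ^ (6 * n) ≤
        64 ^ (15 * n) * (2 * CL) ^ (15 * n) * (C1 * τ) ^ (6 * n) := by gcongr
    _ = (128 * CL) ^ (15 * n) * C1 ^ (6 * n) * τ ^ (6 * n) := by rw [h5, mul_pow C1 τ]; ring

/-- average size of the part of a cell in a ball of radius `2 ε` -/
theorem cell_avg_ball (M : Model CL C1 d n τ vs vx lam gam gam' Y) (s : S) (f : S → ℝ) (ε : ℝ)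
    (hf0 : ∀ s', 0 ≤ f s') (hf1 : ∀ s', f s' ≤ 1) (hf : ∀ s', f s' ≠ 0 → ‖vs s' - vs s‖ ≤ 2 * ε)
    (hε : 0 < ε) (hr : C1 * τ ≤ ε) :
    ∑ h : Fin (5 * n) → X, prw gam' h * ∑ x : Fin n → X, prw gam x *
      cell lam (plab Y) (plab Y) f x h s ≤
        ((128 * CL) ^ 15 * C1 ^ 6) ^ n * ε ^ (9 * n) * τ ^ (6 * n) := by
  have hτ := M.hτ
  have hC : 0 < C1 * τ := by have := M.hC1; positivity
  have hC1 : 0 < C1 := by linarith [M.hC1]
  have hCL : 0 < CL := by linarith [M.hCL]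
  have h3 := cell_avg_gen M s f (2 * ε) hf0 hf1 hf (by linarith)
  refine h3.trans ?_
  rw [mul_pow _ (C1 ^ 6) n, ← pow_mul, ← pow_mul]
  have h5 : (128 * CL) ^ (15 * n) * ε ^ (15 * n) = 64 ^ (15 * n) * (2 * ε * CL) ^ (15 * n) := by
    rw [← mul_pow, ← mul_pow]; congr 1; ring
  have h6 : (C1 * τ / (2 * ε)) ^ (6 * n) ≤ (C1 * τ / ε) ^ (6 * n) := by
    refine pow_le_pow_left₀ (by positivity) ?_ _
    gcongr
    linarith
  have h7 : ε ^ (15 * n) = ε ^ (9 * n) * ε ^ (6 * n) := by rw [← pow_add]; congr 1; ring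
  calc 64 ^ (15 * n) * (2 * ε * CL) ^ (15 * n) * (C1 * τ / (2 * ε)) ^ (6 * n) ≤
        64 ^ (15 * n) * (2 * ε * CL) ^ (15 * n) * (C1 * τ / ε) ^ (6 * n) := by gcongr
    _ = (128 * CL) ^ (15 * n) * C1 ^ (6 * n) * ε ^ (9 * n) * τ ^ (6 * n) := by
        rw [← h5, h7, div_pow, mul_pow C1 τ]
        have : ε ^ (6 * n) ≠ 0 := by positivity
        field_simp

end model

end I2

end Vale.Agent.Mem
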