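import Mathlib

/-!
# P309: definitions for the finite model
-/

namespace Vale.Agent.Mem

open Finset
open scoped InnerProductSpace

/-- `ℝ ^ d` -/
abbrev E (d : ℕ) : Type := EuclideanSpace ℝ (Fin d)

/-- cut-off kernel `min (1, τ / t)` -/
noncomputable def g (τ t : ℝ) : ℝ := if t ≤ τ then 1 else τ / t

section abstract

variable {S W H Z L L' : Type} [Fintype S] [Fintype W] [Fintype H] [Fintype Z]
  [DecidableEq L] [DecidableEq L']

/-- `f`-mass (with respect to `lam`) of the set of all `s'` which have the same label as `s`, in the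
experiment `x` and in the auxiliary experiment `h` -/
noncomputable def cell (lam : S → ℝ) (lab : W → S → L) (labh : H → S → L') (f : S → ℝ)
    (x : W) (h : H) (s : S) : ℝ :=
  ∑ s', if lab x s' = lab x s ∧ labh h s' = labh h s then lam s' * f s' else 0

/-- The potential: mutual information of the state and the signal given the labels of a fresh
experiment `x` and of an auxiliary experiment `h`. -/
noncomputable def pot (lam : S → ℝ) (gam : W → ℝ) (eta : H → ℝ) (lab : W → S → L)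
    (labh : H → S → L') (u : Z → S → ℝ) : ℝ :=
  ∑ h, eta h * ∑ x, gam x * ∑ s, lam s * ∑ z, u z s *
    Real.log (u z s * cell lam lab labh (fun _ => 1) x h s / cell lam lab labh (u z) x h s)

/-- probability of the new state `z'`, given the signal `s` and the samples `x` of the window -/
noncomputable def qn (lab : W → S → L) (κ : Z → W → L → Z → ℝ) (u : Z → S → ℝ) (x : W) (z' : Z)
    (s : S) : ℝ := ∑ z, u z s * κ z x (lab x s) z'

/-- probability of the new state `z'`, given the signal `s` -/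
noncomputable def un (gam : W → ℝ) (lab : W → S → L) (κ : Z → W → L → Z → ℝ) (u : Z → S → ℝ)
    (z' : Z) (s : S) : ℝ := ∑ x, gam x * qn lab κ u x z' s

end abstract

section rows

variable {S X : Type} [Fintype S] [Fintype X]

/-- product weight of a tuple of rows -/
noncomputable def prw (gam : X → ℝ) {w : ℕ} (x : Fin w → X) : ℝ := ∏ i, gam (x i)

/-- labels of a tuple of rows -/
def plab (Y : X → S → ℤ) {w : ℕ} (x : Fin w → X) (s : S) : Fin w → ℤ := fun i => Y (x i) s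

/-- `P`-mass of the closed ball of radius `r` around the position of `s` -/
noncomputable def bm {d : ℕ} (vs : S → E d) (P : S → ℝ) (s : S) (r : ℝ) : ℝ :=
  ∑ s', if ‖vs s' - vs s‖ ≤ r then P s' else 0

/-- dyadic radii `2, 1, 1/2, …` -/
noncomputable def rad (j : ℕ) : ℝ := 2 / 2 ^ j

/-- `Θ (s) = max_{j ≤ K} P (B (s, r_j)) / r_j ^ m` -/
noncomputable def theta {d : ℕ} (vs : S → E d) (P : S → ℝ) (K m : ℕ) (s : S) : ℝ :=
  (Finset.range (K + 1)).sup' ⟨0, by simp⟩ (fun j => bm vs P s (rad j) / rad j ^ m)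

/-- the finite model: `S` = quantised signals, `X` = quantised rows, `Y` = labels of the rounded
inner products (rounding scale `τ`), `gam` = law of a row, `gam'` = law of an auxiliary row. -/
structure Model (CL C1 : ℝ) (d n : ℕ) (τ : ℝ) (vs : S → E d) (vx : X → E d) (lam : S → ℝ)
    (gam gam' : X → ℝ) (Y : X → S → ℤ) : Prop where
  hCL : 1 ≤ CL
  hC1 : 1 ≤ C1
  hn : 1 ≤ n
  hd : 16 * n ≤ d
  hd' : d ≤ 32 * n
  hτ : 0 < τ
  hτ1 : τ ≤ 1
  vs_le : ∀ s, ‖vs s‖ ≤ 1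
  lam_pos : ∀ s, 0 < lam s
  lam_sum : ∑ s, lam s = 1
  lam_ball : ∀ (c : E d) (ρ : ℝ), τ ≤ ρ →
    ∑ s, (if ‖vs s - c‖ ≤ ρ then lam s else 0) ≤ (CL * ρ) ^ (15 * n)
  gam_nonneg : ∀ x, 0 ≤ gam x
  gam_sum : ∑ x, gam x = 1
  gam'_nonneg : ∀ x, 0 ≤ gam' x
  gam'_sum : ∑ x, gam' x = 1
  gam_small : ∀ p : ℕ, p ≤ n → ∀ u : Fin p → E d, (∀ j, ‖u j‖ ≤ 2) →
    ∑ x, gam x * (if ∀ j, |⟪vx x, u j⟫_ℝ| ≤ τ then 1 else 0) ≤
      ∏ j, g (C1 * τ) (Metric.infDist (u j) (Submodule.span ℝ (u '' {i | i < j}) : Set (E d)))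
  gam_abs : ∀ u : E d, ∑ x, gam x * |⟪vx x, u⟫_ℝ| ≤ C1 * ‖u‖
  gam'_abs : ∀ u : E d, ∑ x, gam' x * |⟪vx x, u⟫_ℝ| ≤ C1 * ‖u‖
  gam'_small : ∀ (σ : ℝ) (u : E d), τ ≤ σ → u ≠ 0 → ‖u‖ ≤ 4 →
    ∑ x, gam' x * (if |⟪vx x, u⟫_ℝ| ≤ σ then 1 else 0) ≤ C1 * σ / ‖u‖
  gam'_norm : ∀ x, gam' x ≠ 0 → ‖vx x‖ ^ 2 ≤ 8 * d
  lab_eq : ∀ x s s', Y x s = Y x s' → |⟪vx x, vs s - vs s'⟫_ℝ| ≤ τ
  lab_near : ∀ x s s', |((Y x s : ℝ) - Y x s')| ≤ |⟪vx x, vs s - vs s'⟫_ℝ| / τ + 1

end rows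

end Vale.Agent.Mem
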