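import Vale.Agent.Mem.Defs

/-!
# P309: further definitions (deterministic chain, uniform measure on the sphere, learners)
-/

namespace Vale.Agent.Mem

open Finset MeasureTheory ProbabilityTheory
open scoped InnerProductSpace

/-- occupation probabilities of a deterministic chain of learners (`W` = samples of one window) -/
noncomputable def ud {S W Z L : Type} [Fintype W] [Fintype Z] (gam : W → ℝ) (lab : W → S → L)
    (F : ℕ → Z → W → L → Z) (z0 : Z) : ℕ → Z → S → ℝ
  | 0 => fun z _ => open Classical in if z = z0 then 1 else 0
  | i + 1 => fun z' s => ∑ x, gam x * ∑ z, ud gam lab F z0 i z s *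
      (open Classical in if F i z x (lab x s) = z' then 1 else 0)

/-- `μ` is the uniform probability measure on the unit sphere of `ℝ ^ d`: the (unique) probability
measure on `ℝ ^ d` which is carried by the unit sphere and invariant under all linear isometries -/
structure IsUniformSphere (d : ℕ) (μ : Measure (E d)) : Prop where
  prob : IsProbabilityMeasure μ
  supp : μ (Metric.sphere 0 1)ᶜ = 0
  inv : ∀ e : E d ≃ₗᵢ[ℝ] E d, μ.map e = μ

/-- run of a deterministic learner: state after the samples `x 0, …, x (T-1)` -/
noncomputable def run {d : ℕ} {Z : Type} (F : ℕ → Z → E d → ℝ → Z) (z0 : Z) :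
    (T : ℕ) → (Fin T → E d) → E d → Z
  | 0, _, _ => z0
  | T + 1, x, s => F T (run F z0 T (Fin.init x) s) (x (Fin.last T)) ⟪x (Fin.last T), s⟫_ℝ

end Vale.Agent.Mem
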