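import Vale.Agent.Mem.Defs2

/-!
# P309: the uniform measure on the sphere exists (law of a normalised standard Gaussian vector)
-/

namespace Vale.Agent.Mem

open MeasureTheory ProbabilityTheory
open scoped InnerProductSpace

theorem stdGaussian_zero (d : ℕ) (hd : 1 ≤ d) : stdGaussian (E d) {0} = 0 := by
  have hmeas : Measurable (fun x : Fin d → ℝ => ∑ i, x i • (EuclideanSpace.basisFun (Fin d) ℝ) i) := by
    fun_prop
  rw [stdGaussian_eq_map_pi_orthonormalBasis (EuclideanSpace.basisFun (Fin d) ℝ),
    Measure.map_apply hmeas (measurableSet_singleton 0)]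
  have i0 : Fin d := ⟨0, hd⟩
  refine measure_mono_null (t := (fun x : Fin d → ℝ => x i0) ⁻¹' {0}) ?_ ?_
  · intro x hx
    simp only [Set.mem_preimage, Set.mem_singleton_iff] at hx ⊢
    have h1 : (∑ i, x i • (EuclideanSpace.basisFun (Fin d) ℝ) i) i0 = 0 := by rw [hx]; rfl
    simpa [Finset.sum_apply, Pi.single_apply] using h1
  · have h := (measurePreserving_eval (fun _ : Fin d => gaussianReal 0 1) i0).measure_preimage
      (measurableSet_singleton (0 : ℝ)).nullMeasurableSet
    rw [h]
    have : NullSingletonClass (gaussianReal 0 1) := nullSingletonClass_gaussianReal one_ne_zero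
    exact measure_singleton 0

theorem exists_isUniformSphere (d : ℕ) (hd : 1 ≤ d) : ∃ μ : Measure (E d), IsUniformSphere d μ := by
  have hm : Measurable fun x : E d => ‖x‖⁻¹ • x := by fun_prop
  refine ⟨(stdGaussian (E d)).map fun x => ‖x‖⁻¹ • x, ?_, ?_, ?_⟩
  · exact Measure.isProbabilityMeasure_map hm.aemeasurable
  · rw [Measure.map_apply hm Metric.isClosed_sphere.measurableSet.compl]
    refine measure_mono_null (t := {0}) ?_ (stdGaussian_zero d hd)
    intro x hx
    simp only [Set.mem_preimage, Set.mem_compl_iff, mem_sphere_iff_norm, sub_zero] at hx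
    by_contra h
    apply hx
    have h0 : ‖x‖ ≠ 0 := norm_ne_zero_iff.2 h
    rw [norm_smul, norm_inv, norm_norm, inv_mul_cancel₀ h0]
  · intro e
    have he : Measurable (e : E d → E d) := e.continuous.measurable
    rw [Measure.map_map he hm]
    have : (e : E d → E d) ∘ (fun x : E d => ‖x‖⁻¹ • x) = (fun x : E d => ‖x‖⁻¹ • x) ∘ e := by
      ext1 x
      simp
    rw [this, ← Measure.map_map hm he, stdGaussian_map e]

end Vale.Agent.Mem
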