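import Vale.Agent.Mem.Defs

/-!
# P309: abstract part of the increment of the potential in one window
-/

namespace Vale.Agent.Mem.I2

open Finset

section Ex

variable {S W H Z : Type} [Fintype S] [Fintype W] [Fintype H] [Fintype Z]

/-- expectation -/
noncomputable def Ex (lam : S → ℝ) (gam : W → ℝ) (eta : H → ℝ) (F : H → W → S → Z → ℝ) : ℝ :=
  ∑ h, eta h * ∑ x, gam x * ∑ s, lam s * ∑ z, F h x s z

variable {lam : S → ℝ} {gam : W → ℝ} {eta : H → ℝ}

theorem Ex_mono (hlam : ∀ s, 0 ≤ lam s) (hgam : ∀ x, 0 ≤ gam x) (heta : ∀ h, 0 ≤ eta h)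
    {F G : H → W → S → Z → ℝ} (h : ∀ h x s z, F h x s z ≤ G h x s z) :
    Ex lam gam eta F ≤ Ex lam gam eta G := by
  unfold Ex
  exact Finset.sum_le_sum fun a _ => mul_le_mul_of_nonneg_left (Finset.sum_le_sum fun x _ =>
    mul_le_mul_of_nonneg_left (Finset.sum_le_sum fun s _ => mul_le_mul_of_nonneg_left
      (Finset.sum_le_sum fun z _ => h a x s z) (hlam s)) (hgam x)) (heta a)

theorem Ex_add (F G : H → W → S → Z → ℝ) :
    Ex lam gam eta (fun h x s z => F h x s z + G h x s z) =
      Ex lam gam eta F + Ex lam gam eta G := by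
  unfold Ex
  simp only [Finset.sum_add_distrib, mul_add]

theorem Ex_sub (F G : H → W → S → Z → ℝ) :
    Ex lam gam eta (fun h x s z => F h x s z - G h x s z) =
      Ex lam gam eta F - Ex lam gam eta G := by
  unfold Ex
  simp only [Finset.sum_sub_distrib, mul_sub]

theorem Ex_congr {F G : H → W → S → Z → ℝ} (h : ∀ h x s z, F h x s z = G h x s z) :
    Ex lam gam eta F = Ex lam gam eta G := by
  have : F = G := by
    funext a x s z; exact h a x s z
  rw [this]

theorem Ex_const_mul (c : ℝ) (F : H → W → S → Z → ℝ) :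
    Ex lam gam eta (fun h x s z => c * F h x s z) = c * Ex lam gam eta F := by
  unfold Ex
  simp only [Finset.mul_sum]
  refine Finset.sum_congr rfl fun a _ => Finset.sum_congr rfl fun x _ =>
    Finset.sum_congr rfl fun s _ => Finset.sum_congr rfl fun z _ => ?_
  ring

/-- averaging over `h` inside -/
theorem Ex_comm_h (F : H → W → S → Z → ℝ) :
    Ex lam gam eta F = ∑ x, gam x * ∑ s, lam s * ∑ z, ∑ h, eta h * F h x s z := by
  unfold Ex
  simp only [Finset.mul_sum]
  rw [Finset.sum_comm]
  refine Finset.sum_congr rfl fun x _ => ?_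
  rw [Finset.sum_comm]
  refine Finset.sum_congr rfl fun s _ => ?_
  rw [Finset.sum_comm]
  refine Finset.sum_congr rfl fun z _ => ?_
  refine Finset.sum_congr rfl fun a _ => ?_
  ring

/-- averaging over `x` inside -/
theorem Ex_comm_x (F : H → W → S → Z → ℝ) :
    Ex lam gam eta F = ∑ h, eta h * ∑ s, lam s * ∑ z, ∑ x, gam x * F h x s z := by
  unfold Ex
  simp only [Finset.mul_sum]
  refine Finset.sum_congr rfl fun h _ => ?_
  rw [Finset.sum_comm]
  refine Finset.sum_congr rfl fun s _ => ?_
  rw [Finset.sum_comm]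
  refine Finset.sum_congr rfl fun z _ => ?_
  refine Finset.sum_congr rfl fun a _ => ?_
  ring

/-- sum over `z` outside -/
theorem Ex_comm_z (F : H → W → S → Z → ℝ) :
    Ex lam gam eta F = ∑ z, ∑ h, eta h * ∑ x, gam x * ∑ s, lam s * F h x s z := by
  unfold Ex
  simp only [Finset.mul_sum]
  rw [Finset.sum_comm' (t' := univ) (s' := fun _ => univ) (by simp)]
  rw [Finset.sum_comm]
  have h1 : ∀ h, ∑ x, ∑ s, ∑ z, eta h * (gam x * (lam s * F h x s z)) =
      ∑ z, ∑ x, ∑ s, eta h * (gam x * (lam s * F h x s z)) := by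
    intro h
    have h2 : ∀ x, ∑ s, ∑ z, eta h * (gam x * (lam s * F h x s z)) =
        ∑ z, ∑ s, eta h * (gam x * (lam s * F h x s z)) := fun x => Finset.sum_comm
    rw [Finset.sum_congr rfl fun x _ => h2 x]
    exact Finset.sum_comm
  rw [Finset.sum_congr rfl fun h _ => h1 h]
  exact Finset.sum_comm

/-- replacing the conditional law of the new state by its average over `x` -/
theorem Ex_indep {q : W → Z → S → ℝ} {u' : Z → S → ℝ} (hq : ∀ z s, u' z s = ∑ x, gam x * q x z s)
    (hg1 : ∑ x, gam x = 1) (c : H → S → Z → ℝ) :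
    Ex lam gam eta (fun h x s z => q x z s * c h s z) =
      Ex lam gam eta (fun h _ s z => u' z s * c h s z) := by
  rw [Ex_comm_x, Ex_comm_x]
  refine Finset.sum_congr rfl fun h _ => ?_
  congr 1
  refine Finset.sum_congr rfl fun s _ => ?_
  congr 1
  refine Finset.sum_congr rfl fun z _ => ?_
  rw [← Finset.sum_mul, hg1, one_mul, hq, Finset.sum_mul]
  refine Finset.sum_congr rfl fun x _ => ?_
  ring

/-- a function not depending on `z` -/
theorem Ex_sum_one {q : W → Z → S → ℝ} (hq1 : ∀ x s, ∑ z, q x z s = 1) (f : H → W → S → ℝ) :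
    Ex lam gam eta (fun h x s z => q x z s * f h x s) =
      ∑ h, eta h * ∑ x, gam x * ∑ s, lam s * f h x s := by
  unfold Ex
  refine Finset.sum_congr rfl fun h _ => ?_
  congr 1
  refine Finset.sum_congr rfl fun x _ => ?_
  congr 1
  refine Finset.sum_congr rfl fun s _ => ?_
  rw [← Finset.sum_mul, hq1, one_mul]

end Ex

/-- Jensen for `log (1 + G)` -/
theorem jensen_log {H : Type} [Fintype H] (eta : H → ℝ) (heta : ∀ h, 0 ≤ eta h)
    (he1 : ∑ h, eta h = 1) (G : H → ℝ) (hG : ∀ h, 0 ≤ G h) :
    ∑ h, eta h * Real.log (1 + G h) ≤ Real.log (1 + ∑ h, eta h * G h) := by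
  set m := 1 + ∑ h, eta h * G h with hm
  have hm0 : 0 < m := by
    have : 0 ≤ ∑ h, eta h * G h := Finset.sum_nonneg fun h _ => mul_nonneg (heta h) (hG h)
    linarith
  have h1 : ∀ h, Real.log (1 + G h) ≤ Real.log m + ((1 + G h) / m - 1) := by
    intro h
    have h2 : 0 < 1 + G h := by linarith [hG h]
    have h3 := Real.log_le_sub_one_of_pos (div_pos h2 hm0)
    rw [Real.log_div h2.ne' hm0.ne'] at h3
    linarith
  calc ∑ h, eta h * Real.log (1 + G h) ≤ ∑ h, eta h * (Real.log m + ((1 + G h) / m - 1)) :=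
        Finset.sum_le_sum fun h _ => mul_le_mul_of_nonneg_left (h1 h) (heta h)
    _ = (∑ h, eta h) * (Real.log m - 1) + (∑ h, eta h + ∑ h, eta h * G h) / m := by
        rw [← Finset.sum_add_distrib, Finset.sum_mul, Finset.sum_div, ← Finset.sum_add_distrib]
        refine Finset.sum_congr rfl fun h _ => ?_
        field_simp
        ring
    _ = Real.log m := by
        rw [he1, ← hm, div_self hm0.ne']; ring

section abs

variable {S W H Z L L' : Type} [Fintype S] [Fintype W] [Fintype H] [Fintype Z]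
  [DecidableEq L] [DecidableEq L']

omit [Fintype W] [Fintype H] in
theorem cell_smul (lam : S → ℝ) (lab : W → S → L) (labh : H → S → L') (f : S → ℝ) (c : ℝ)
    (x : W) (h : H) (s : S) :
    cell (fun s => lam s * f s / c) lab labh (fun _ => 1) x h s =
      cell lam lab labh f x h s / c := by
  unfold cell
  rw [Finset.sum_div]
  refine Finset.sum_congr rfl fun s' _ => ?_
  split_ifs <;> simp

omit [Fintype W] [Fintype H] in
theorem cell_pos (lam : S → ℝ) (lab : W → S → L) (labh : H → S → L') (f : S → ℝ)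
    (hlam : ∀ s, 0 < lam s) (hf : ∀ s, 0 < f s) (x : W) (h : H) (s : S) :
    0 < cell lam lab labh f x h s := by
  unfold cell
  refine Finset.sum_pos' (fun s' _ => ?_) ⟨s, Finset.mem_univ s, ?_⟩
  · split_ifs
    · exact (mul_pos (hlam s') (hf s')).le
    · exact le_rfl
  · rw [if_pos ⟨rfl, rfl⟩]
    exact mul_pos (hlam s) (hf s)

/-- the abstract form of the estimate of the increment -/
theorem abs_bound (lam : S → ℝ) (gam : W → ℝ) (eta : H → ℝ) (lab : W → S → L)
    (labh : H → S → L') (hlam : ∀ s, 0 < lam s) (hlam1 : ∑ s, lam s = 1) (hgam : ∀ x, 0 ≤ gam x)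
    (hg1 : ∑ x, gam x = 1) (heta : ∀ h, 0 ≤ eta h) (he1 : ∑ h, eta h = 1)
    (q : W → Z → S → ℝ) (hq : ∀ x z s, 0 < q x z s) (hq1 : ∀ x s, ∑ z, q x z s = 1)
    (u' : Z → S → ℝ) (hu' : ∀ z s, u' z s = ∑ x, gam x * q x z s) (hu0 : ∀ z s, 0 < u' z s)
    (hu1 : ∀ s, ∑ z, u' z s = 1)
    (Pz : Z → ℝ) (hPz : ∀ z, Pz z = ∑ s, lam s * u' z s) (hPz0 : ∀ z, 0 < Pz z)
    (lt c0 L1 dv eb Rb t : ℝ) (Th : Z → S → ℝ)
    (hcell : ∀ z, ∑ s, (lam s * u' z s / Pz z) * Th z s + lt - c0 ≤
      ∑ h, eta h * ∑ x, gam x * ∑ s, (lam s * u' z s / Pz z) *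
        Real.log (cell (fun s => lam s * u' z s / Pz z) lab labh (fun _ => 1) x h s))
    (G : Z → S → W → H → ℝ) (hG : ∀ z s x h, 0 ≤ G z s x h)
    (Eb : Z → S → H → ℝ) (hEb0 : ∀ z s h, 0 ≤ Eb z s h) (hEb1 : ∀ z s h, Eb z s h ≤ 1)
    (R : H → W → S → ℝ) (hR : ∀ h x s, 0 ≤ R h x s)
    (hpt : ∀ h x s z,
      Real.log (cell (fun s => lam s * u' z s / Pz z) lab labh (fun _ => 1) x h s) ≤
        Th z s + lt + Real.log (1 + G z s x h) + Eb z s h * (L1 + Real.log (1 + R h x s)))
    (hdv : ∑ x, gam x * ∑ s, lam s * ∑ z, q x z s * Real.log (1 + ∑ h, eta h * G z s x h) ≤ dv)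
    (heb : ∀ z s, ∑ h, eta h * Eb z s h ≤ eb)
    (hRb : ∀ s, ∑ h, eta h * ∑ x, gam x * R h x s ≤ Rb) (ht : 1 ≤ t) (hL1 : 0 ≤ L1) :
    ∑ h, eta h * ∑ x, gam x * ∑ s, lam s * ∑ z,
        (q x z s - u' z s) * Real.log (cell lam lab labh (u' z) x h s) ≤
      c0 + dv + (L1 + Real.log t) * eb + (1 + Rb) / t := by
  have hlam0 : ∀ s, 0 ≤ lam s := fun s => (hlam s).le
  set cP : H → W → S → Z → ℝ := fun h x s z =>
    cell (fun s => lam s * u' z s / Pz z) lab labh (fun _ => 1) x h s with hcP
  have hcP' : ∀ h x s z, Real.log (cell lam lab labh (u' z) x h s) =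
      Real.log (Pz z) + Real.log (cP h x s z) := by
    intro h x s z
    rw [hcP]
    simp only
    rw [cell_smul, Real.log_div (cell_pos lam lab labh (u' z) hlam (hu0 z) x h s).ne'
      (hPz0 z).ne']
    ring
  have hlhs : ∑ h, eta h * ∑ x, gam x * ∑ s, lam s * ∑ z,
        (q x z s - u' z s) * Real.log (cell lam lab labh (u' z) x h s) =
      Ex lam gam eta (fun h x s z => q x z s * Real.log (cP h x s z)) -
        Ex lam gam eta (fun h x s z => u' z s * Real.log (cP h x s z)) := by
    have h1 : Ex lam gam eta (fun h x s z =>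
        (q x z s - u' z s) * Real.log (cell lam lab labh (u' z) x h s)) =
        Ex lam gam eta (fun h x s z => (q x z s * Real.log (cP h x s z) -
          u' z s * Real.log (cP h x s z)) + (q x z s * Real.log (Pz z) -
          u' z s * Real.log (Pz z))) := by
      refine Ex_congr fun h x s z => ?_
      rw [hcP']; ring
    change Ex lam gam eta (fun h x s z =>
        (q x z s - u' z s) * Real.log (cell lam lab labh (u' z) x h s)) = _
    rw [h1, Ex_add, Ex_sub, Ex_sub, Ex_indep hu' hg1 (fun _ _ z => Real.log (Pz z)), sub_self,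
      add_zero]
  -- the second term
  have h2 : Ex lam gam eta (fun _ _ s z => u' z s * Th z s) + lt - c0 ≤
      Ex lam gam eta (fun h x s z => u' z s * Real.log (cP h x s z)) := by
    have hPs : ∑ z, Pz z = 1 := by
      calc ∑ z, Pz z = ∑ z, ∑ s, lam s * u' z s := Finset.sum_congr rfl fun z _ => hPz z
        _ = ∑ s, ∑ z, lam s * u' z s := Finset.sum_comm
        _ = ∑ s, lam s := Finset.sum_congr rfl fun s _ => by rw [← Finset.mul_sum, hu1, mul_one]
        _ = 1 := hlam1
    have hA : Ex lam gam eta (fun _ _ s z => u' z s * Th z s) =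
        ∑ z, Pz z * ∑ s, (lam s * u' z s / Pz z) * Th z s := by
      rw [Ex_comm_z]
      refine Finset.sum_congr rfl fun z _ => ?_
      simp only [← Finset.sum_mul]
      rw [hg1, he1, one_mul, one_mul, Finset.mul_sum]
      refine Finset.sum_congr rfl fun s _ => ?_
      have := (hPz0 z).ne'
      field_simp
    have hB : Ex lam gam eta (fun h x s z => u' z s * Real.log (cP h x s z)) =
        ∑ z, Pz z * ∑ h, eta h * ∑ x, gam x * ∑ s, (lam s * u' z s / Pz z) *
          Real.log (cP h x s z) := by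
      rw [Ex_comm_z]
      refine Finset.sum_congr rfl fun z _ => ?_
      rw [Finset.mul_sum]
      refine Finset.sum_congr rfl fun h _ => ?_
      rw [mul_left_comm]
      congr 1
      rw [Finset.mul_sum]
      refine Finset.sum_congr rfl fun x _ => ?_
      rw [mul_left_comm]
      congr 1
      rw [Finset.mul_sum]
      refine Finset.sum_congr rfl fun s _ => ?_
      have := (hPz0 z).ne'
      field_simp
    have hC : ∑ z, Pz z * (∑ s, (lam s * u' z s / Pz z) * Th z s + lt - c0) =
        ∑ z, Pz z * ∑ s, (lam s * u' z s / Pz z) * Th z s + lt - c0 := by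
      have : ∀ z, Pz z * (∑ s, (lam s * u' z s / Pz z) * Th z s + lt - c0) =
          Pz z * ∑ s, (lam s * u' z s / Pz z) * Th z s + Pz z * (lt - c0) := fun z => by ring
      rw [Finset.sum_congr rfl fun z _ => this z, Finset.sum_add_distrib, ← Finset.sum_mul, hPs]
      ring
    rw [hA, hB, ← hC]
    exact Finset.sum_le_sum fun z _ => mul_le_mul_of_nonneg_left (hcell z) (hPz0 z).le
  -- the first term
  have h3 : Ex lam gam eta (fun h x s z => q x z s * Real.log (cP h x s z)) ≤
      Ex lam gam eta (fun h x s z => q x z s * Th z s + (q x z s * lt +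
        (q x z s * Real.log (1 + G z s x h) + ((L1 + Real.log t) * (q x z s * Eb z s h) +
          q x z s * ((1 + R h x s) / t))))) := by
    refine Ex_mono hlam0 hgam heta fun h x s z => ?_
    have ht0 : 0 < t := by linarith
    have h4 : Real.log (1 + R h x s) ≤ Real.log t + (1 + R h x s) / t := by
      have h5 : 0 < 1 + R h x s := by linarith [hR h x s]
      have h6 := Real.log_le_sub_one_of_pos (div_pos h5 ht0)
      rw [Real.log_div h5.ne' ht0.ne'] at h6
      linarith
    have h7 := hpt h x s z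
    have h8 : Eb z s h * ((1 + R h x s) / t) ≤ (1 + R h x s) / t := by
      have : 0 ≤ (1 + R h x s) / t := div_nonneg (by linarith [hR h x s]) ht0.le
      calc Eb z s h * ((1 + R h x s) / t) ≤ 1 * ((1 + R h x s) / t) :=
            mul_le_mul_of_nonneg_right (hEb1 z s h) this
        _ = _ := one_mul _
    have h9 : Eb z s h * (L1 + Real.log (1 + R h x s)) ≤
        Eb z s h * (L1 + Real.log t) + (1 + R h x s) / t := by
      have := mul_le_mul_of_nonneg_left h4 (hEb0 z s h)
      nlinarith
    have h10 : Real.log (cP h x s z) ≤ Th z s + (lt + (Real.log (1 + G z s x h) +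
        (Eb z s h * (L1 + Real.log t) + (1 + R h x s) / t))) := by linarith
    have := mul_le_mul_of_nonneg_left h10 (hq x z s).le
    refine this.trans (le_of_eq ?_)
    ring
  have h4 : Ex lam gam eta (fun h x s z => q x z s * Th z s) =
      Ex lam gam eta (fun _ _ s z => u' z s * Th z s) := Ex_indep hu' hg1 (fun _ s z => Th z s)
  have h5 : Ex lam gam eta (fun h x s z => q x z s * lt) = lt := by
    rw [Ex_sum_one hq1 (fun _ _ _ => lt)]
    simp only [← Finset.sum_mul]
    rw [hlam1, hg1, he1]; ring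
  have h6 : Ex lam gam eta (fun h x s z => q x z s * Real.log (1 + G z s x h)) ≤ dv := by
    refine le_trans ?_ hdv
    rw [Ex_comm_h]
    refine Finset.sum_le_sum fun x _ => mul_le_mul_of_nonneg_left (Finset.sum_le_sum fun s _ =>
      mul_le_mul_of_nonneg_left (Finset.sum_le_sum fun z _ => ?_) (hlam0 s)) (hgam x)
    have h7 := mul_le_mul_of_nonneg_left
      (jensen_log eta heta he1 (fun h => G z s x h) (fun h => hG z s x h)) (hq x z s).le
    refine le_trans (le_of_eq ?_) h7
    rw [Finset.mul_sum]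
    refine Finset.sum_congr rfl fun h _ => ?_
    ring
  have h7 : Ex lam gam eta (fun h x s z => (L1 + Real.log t) * (q x z s * Eb z s h)) ≤
      (L1 + Real.log t) * eb := by
    rw [Ex_const_mul]
    refine mul_le_mul_of_nonneg_left ?_ (add_nonneg hL1 (Real.log_nonneg ht))
    rw [Ex_indep hu' hg1 (fun h s z => Eb z s h), Ex_comm_h]
    have h8 : ∑ s, lam s * ∑ z, ∑ h, eta h * (u' z s * Eb z s h) ≤ eb := by
      have h9 : ∀ s, ∑ z, ∑ h, eta h * (u' z s * Eb z s h) ≤ eb := by
        intro s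
        calc ∑ z, ∑ h, eta h * (u' z s * Eb z s h) = ∑ z, u' z s * ∑ h, eta h * Eb z s h := by
              refine Finset.sum_congr rfl fun z _ => ?_
              rw [Finset.mul_sum]
              refine Finset.sum_congr rfl fun h _ => ?_
              ring
          _ ≤ ∑ z, u' z s * eb :=
              Finset.sum_le_sum fun z _ => mul_le_mul_of_nonneg_left (heb z s) (hu0 z s).le
          _ = eb := by rw [← Finset.sum_mul, hu1, one_mul]
      calc ∑ s, lam s * ∑ z, ∑ h, eta h * (u' z s * Eb z s h) ≤ ∑ s, lam s * eb :=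
            Finset.sum_le_sum fun s _ => mul_le_mul_of_nonneg_left (h9 s) (hlam0 s)
        _ = eb := by rw [← Finset.sum_mul, hlam1, one_mul]
    calc ∑ x, gam x * ∑ s, lam s * ∑ z, ∑ h, eta h * (u' z s * Eb z s h) ≤ ∑ x, gam x * eb :=
          Finset.sum_le_sum fun x _ => mul_le_mul_of_nonneg_left h8 (hgam x)
      _ = eb := by rw [← Finset.sum_mul, hg1, one_mul]
  have h8 : Ex lam gam eta (fun h x s z => q x z s * ((1 + R h x s) / t)) ≤ (1 + Rb) / t := by
    have ht0 : 0 < t := by linarith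
    rw [Ex_sum_one hq1 (fun h x s => (1 + R h x s) / t)]
    have h9 : ∑ h, eta h * ∑ x, gam x * ∑ s, lam s * ((1 + R h x s) / t) =
        (1 + ∑ s, lam s * ∑ h, eta h * ∑ x, gam x * R h x s) / t := by
      have h10 : ∑ s, lam s * ∑ h, eta h * ∑ x, gam x * R h x s =
          ∑ h, eta h * ∑ x, gam x * ∑ s, lam s * R h x s := by
        simp only [Finset.mul_sum]
        rw [Finset.sum_comm]
        refine Finset.sum_congr rfl fun h _ => ?_
        rw [Finset.sum_comm]
        refine Finset.sum_congr rfl fun x _ => Finset.sum_congr rfl fun s _ => ?_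
        ring
      have h11 : ∑ h, eta h * ∑ x, gam x * ∑ s, lam s = (1 : ℝ) := by
        rw [hlam1]; simp only [mul_one]; rw [hg1]; simp only [mul_one]; rw [he1]
      rw [h10]
      conv_rhs => rw [← h11]
      rw [← Finset.sum_add_distrib, Finset.sum_div]
      refine Finset.sum_congr rfl fun h _ => ?_
      rw [← mul_add, ← Finset.sum_add_distrib, mul_div_assoc, Finset.sum_div]
      congr 1
      refine Finset.sum_congr rfl fun x _ => ?_
      rw [← mul_add, ← Finset.sum_add_distrib, mul_div_assoc, Finset.sum_div]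
      congr 1
      refine Finset.sum_congr rfl fun s _ => ?_
      ring
    rw [h9]
    have h12 : ∑ s, lam s * ∑ h, eta h * ∑ x, gam x * R h x s ≤ Rb := by
      calc ∑ s, lam s * ∑ h, eta h * ∑ x, gam x * R h x s ≤ ∑ s, lam s * Rb :=
            Finset.sum_le_sum fun s _ => mul_le_mul_of_nonneg_left (hRb s) (hlam0 s)
        _ = Rb := by rw [← Finset.sum_mul, hlam1, one_mul]
    gcongr
  rw [Ex_add, Ex_add, Ex_add, Ex_add, h4, h5] at h3
  rw [hlhs]
  linarith

end abs

end Vale.Agent.Mem.I2
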