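import Vale.Agent.Mem.Defs2

/-!
# P309: learners with bounded memory for noiseless Gaussian linear regression
-/

namespace Vale.Agent.Mem

open Finset MeasureTheory ProbabilityTheory
open scoped InnerProductSpace

/-- A learner for signals in `ℝ ^ d` with the set `Z` of persistent states. Its randomness is a point
`ω` of a probability space `Ω`, which is independent of the signal and of the rows; every rule may
depend on all of `ω` (so private randomness in every step, and also shared randomness, are allowed).
* `init` is the initial state;
* `next t ω z x y` is the new state after reading the pair `(x, y)` of index `t` in state `z`;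
* `stop t ω z x y` is the decision to stop after this pair;
* `out k ω z` is the estimate, a unit vector, if the learner ends in state `z` after `k` pairs. -/
structure Learner (d : ℕ) (Ω Z : Type) [MeasurableSpace Ω] where
  init : Ω → Z
  next : ℕ → Ω → Z → E d → ℝ → Z
  stop : ℕ → Ω → Z → E d → ℝ → Bool
  out : ℕ → Ω → Z → E d
  norm_out : ∀ k ω z, ‖out k ω z‖ = 1
  meas_init : ∀ z, MeasurableSet {ω | init ω = z}
  meas_next : ∀ t z z', MeasurableSet {a : Ω × E d × ℝ | next t a.1 z a.2.1 a.2.2 = z'}
  meas_stop : ∀ t z, MeasurableSet {a : Ω × E d × ℝ | stop t a.1 z a.2.1 a.2.2 = true}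
  meas_out : ∀ k z, Measurable fun ω => out k ω z

namespace Learner

variable {d : ℕ} {Ω Z : Type} [MeasurableSpace Ω]

/-- The run of the learner with horizon `T` on the rows `x 0, …, x (T-1)` with exact labels
`⟪x t, s⟫`: number of pairs used, final state, and whether the learner has stopped by itself. -/
noncomputable def run (L : Learner d Ω Z) (ω : Ω) (s : E d) :
    (T : ℕ) → (Fin T → E d) → ℕ × Z × Bool
  | 0, _ => (0, L.init ω, false)
  | T + 1, x =>
    if (L.run ω s T (Fin.init x)).2.2 then L.run ω s T (Fin.init x)
    else (T + 1,
      L.next T ω (L.run ω s T (Fin.init x)).2.1 (x (Fin.last T)) ⟪x (Fin.last T), s⟫_ℝ,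
      L.stop T ω (L.run ω s T (Fin.init x)).2.1 (x (Fin.last T)) ⟪x (Fin.last T), s⟫_ℝ)

/-- the estimate of the learner with horizon `T` -/
noncomputable def estimate (L : Learner d Ω Z) (T : ℕ) (ω : Ω) (x : Fin T → E d) (s : E d) : E d :=
  L.out (L.run ω s T x).1 ω (L.run ω s T x).2.1

/-- The learner succeeds at accuracy `ε` with horizon `T`: the angle between the estimate and the
signal is at most `ε` with probability at least `2 / 3`, for independent standard Gaussian rows, a
signal of law `μ` and randomness of law `P`. -/
def Succeeds (L : Learner d Ω Z) (P : Measure Ω) (μ : Measure (E d)) (T : ℕ) (ε : ℝ) : Prop :=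
  ENNReal.ofReal (2 / 3) ≤
    (P.prod ((Measure.pi fun _ : Fin T => stdGaussian (E d)).prod μ))
      {a | Real.arccos ⟪L.estimate T a.1 a.2.1 a.2.2, a.2.2⟫_ℝ ≤ ε}

end Learner

end Vale.Agent.Mem
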