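import Vale.Agent.Mem.Learner

/-!
# P309: reduction of a learner to a deterministic one without stopping
-/

namespace Vale.Agent.Mem

open Finset MeasureTheory ProbabilityTheory
open scoped InnerProductSpace

namespace Learner

variable {d : ℕ} {Ω Z : Type} [MeasurableSpace Ω]

section meas

variable [Fintype Z]

/-- a function into a countable discrete space, glued along a countable discrete parameter -/
theorem measurable_glue {A B C : Type*} [MeasurableSpace A] [MeasurableSpace B] [Countable B]
    [MeasurableSingletonClass B] [MeasurableSpace C] (f : B → A → C) (hf : ∀ b, Measurable (f b))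
    (g : A → B) (hg : Measurable g) : Measurable fun a => f (g a) a := by
  have : Measurable (fun p : B × A => f p.1 p.2) := measurable_from_prod_countable_right hf
  exact this.comp (hg.prodMk measurable_id)

theorem measurable_run (L : Learner d Ω Z) (T : ℕ) :
    letI : MeasurableSpace Z := ⊤
    Measurable fun a : Ω × (Fin T → E d) × E d => L.run a.1 a.2.2 T a.2.1 := by
  letI : MeasurableSpace Z := ⊤
  haveI : DiscreteMeasurableSpace Z := ⟨fun _ => trivial⟩
  induction T with
  | zero =>
    have h0 : Measurable fun a : Ω × (Fin 0 → E d) × E d => L.init a.1 := by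
      refine measurable_to_countable' fun z => ?_
      exact measurable_fst (L.meas_init z)
    exact measurable_const.prodMk (h0.prodMk measurable_const)
  | succ T ih =>
    have hinit : Measurable fun a : Ω × (Fin (T + 1) → E d) × E d =>
        ((a.1, (Fin.init a.2.1 : Fin T → E d), a.2.2) : Ω × (Fin T → E d) × E d) := by
      refine measurable_fst.prodMk (Measurable.prodMk ?_ (measurable_snd.comp measurable_snd))
      exact measurable_pi_lambda _ fun i =>
        (measurable_pi_apply _).comp (measurable_fst.comp measurable_snd)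
    have hprev := ih.comp hinit
    have hlast : Measurable fun a : Ω × (Fin (T + 1) → E d) × E d => a.2.1 (Fin.last T) :=
      (measurable_pi_apply _).comp (measurable_fst.comp measurable_snd)
    have hs : Measurable fun a : Ω × (Fin (T + 1) → E d) × E d => a.2.2 :=
      measurable_snd.comp measurable_snd
    have hpair : Measurable fun a : Ω × (Fin (T + 1) → E d) × E d =>
        ((a.1, a.2.1 (Fin.last T), ⟪a.2.1 (Fin.last T), a.2.2⟫_ℝ) : Ω × E d × ℝ) :=
      measurable_fst.prodMk (hlast.prodMk (hlast.inner hs))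
    have hnext : Measurable fun a : Ω × (Fin (T + 1) → E d) × E d =>
        L.next T a.1 (L.run a.1 a.2.2 T (Fin.init a.2.1)).2.1 (a.2.1 (Fin.last T))
          ⟪a.2.1 (Fin.last T), a.2.2⟫_ℝ := by
      refine measurable_glue (B := Z) (fun z (a : Ω × (Fin (T + 1) → E d) × E d) =>
        L.next T a.1 z (a.2.1 (Fin.last T)) ⟪a.2.1 (Fin.last T), a.2.2⟫_ℝ) (fun z => ?_)
        (fun a => (L.run a.1 a.2.2 T (Fin.init a.2.1)).2.1)
        (measurable_fst.comp (measurable_snd.comp hprev))
      exact measurable_to_countable' fun z' => hpair (L.meas_next T z z')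
    have hstop : Measurable fun a : Ω × (Fin (T + 1) → E d) × E d =>
        L.stop T a.1 (L.run a.1 a.2.2 T (Fin.init a.2.1)).2.1 (a.2.1 (Fin.last T))
          ⟪a.2.1 (Fin.last T), a.2.2⟫_ℝ := by
      refine measurable_glue (B := Z) (fun z (a : Ω × (Fin (T + 1) → E d) × E d) =>
        L.stop T a.1 z (a.2.1 (Fin.last T)) ⟪a.2.1 (Fin.last T), a.2.2⟫_ℝ) (fun z => ?_)
        (fun a => (L.run a.1 a.2.2 T (Fin.init a.2.1)).2.1)
        (measurable_fst.comp (measurable_snd.comp hprev))
      refine measurable_to_bool ?_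
      exact hpair (L.meas_stop T z)
    have hb : MeasurableSet {a : Ω × (Fin (T + 1) → E d) × E d |
        (L.run a.1 a.2.2 T (Fin.init a.2.1)).2.2 = true} :=
      (measurable_snd.comp (measurable_snd.comp hprev)) (measurableSet_singleton true)
    exact Measurable.ite hb hprev (measurable_const.prodMk (hnext.prodMk hstop))

theorem measurable_estimate (L : Learner d Ω Z) (T : ℕ) :
    Measurable fun a : Ω × (Fin T → E d) × E d => L.estimate T a.1 a.2.1 a.2.2 := by
  letI : MeasurableSpace Z := ⊤
  haveI : DiscreteMeasurableSpace Z := ⟨fun _ => trivial⟩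
  have h := L.measurable_run T
  refine measurable_glue (B := ℕ × Z) (fun b (a : Ω × (Fin T → E d) × E d) => L.out b.1 a.1 b.2)
    (fun b => (L.meas_out b.1 b.2).comp measurable_fst)
    (fun a => ((L.run a.1 a.2.2 T a.2.1).1, (L.run a.1 a.2.2 T a.2.1).2.1)) ?_
  exact (measurable_fst.comp h).prodMk (measurable_fst.comp (measurable_snd.comp h))

theorem measurableSet_success (L : Learner d Ω Z) (T : ℕ) (ε : ℝ) :
    MeasurableSet {a : Ω × (Fin T → E d) × E d |
      Real.arccos ⟪L.estimate T a.1 a.2.1 a.2.2, a.2.2⟫_ℝ ≤ ε} := by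
  refine measurableSet_le (Real.continuous_arccos.measurable.comp ?_) measurable_const
  exact (L.measurable_estimate T).inner (measurable_snd.comp measurable_snd)

/-- some point of the randomness space is as good as the average -/
theorem exists_omega (L : Learner d Ω Z) (P : Measure Ω) [IsProbabilityMeasure P]
    (μ : Measure (E d)) [IsProbabilityMeasure μ] (T : ℕ) (ε : ℝ) (h : L.Succeeds P μ T ε) :
    ∃ ω : Ω, ENNReal.ofReal (2 / 3) ≤ ((Measure.pi fun _ : Fin T => stdGaussian (E d)).prod μ)
      {a | Real.arccos ⟪L.estimate T ω a.1 a.2, a.2⟫_ℝ ≤ ε} := by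
  unfold Succeeds at h
  rw [Measure.prod_apply (L.measurableSet_success T ε)] at h
  by_contra hcon
  push Not at hcon
  have h1 : ∫⁻ ω, ((Measure.pi fun _ : Fin T => stdGaussian (E d)).prod μ)
      (Prod.mk ω ⁻¹' {a : Ω × (Fin T → E d) × E d |
        Real.arccos ⟪L.estimate T a.1 a.2.1 a.2.2, a.2.2⟫_ℝ ≤ ε}) ∂P < ENNReal.ofReal (2 / 3) := by
    have hm : Measurable fun ω => ((Measure.pi fun _ : Fin T => stdGaussian (E d)).prod μ)
      (Prod.mk ω ⁻¹' {a : Ω × (Fin T → E d) × E d |
        Real.arccos ⟪L.estimate T a.1 a.2.1 a.2.2, a.2.2⟫_ℝ ≤ ε}) :=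
      measurable_measure_prodMk_left (L.measurableSet_success T ε)
    have h2 := lintegral_strict_mono (μ := P) (f := fun ω =>
      ((Measure.pi fun _ : Fin T => stdGaussian (E d)).prod μ)
      (Prod.mk ω ⁻¹' {a : Ω × (Fin T → E d) × E d |
        Real.arccos ⟪L.estimate T a.1 a.2.1 a.2.2, a.2.2⟫_ℝ ≤ ε}))
      (g := fun _ => ENNReal.ofReal (2 / 3)) (IsProbabilityMeasure.ne_zero P)
      measurable_const.aemeasurable ?_ (Filter.Eventually.of_forall fun ω => hcon ω)
    · simpa using h2
    · exact ((lintegral_mono fun ω => (hcon ω).le).trans_lt (by simp)).ne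
  exact absurd h (not_le.2 h1)

end meas

end Learner

end Vale.Agent.Mem
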