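import Vale.Agent.Mem.MainA

/-!
# P309: deterministic padded learner
-/

namespace Vale.Agent.Mem

open Finset MeasureTheory ProbabilityTheory
open scoped InnerProductSpace

namespace Learner

variable {d : ℕ} {Ω Z : Type} [MeasurableSpace Ω]

/-- transition of the padded deterministic learner -/
noncomputable def pad (L : Learner d Ω Z) (ω : Ω) (T : ℕ) (t : ℕ) (q : Fin (T + 1) × Z × Bool)
    (x : E d) (y : ℝ) : Fin (T + 1) × Z × Bool :=
  if h : q.2.2 = true ∨ T ≤ t then q
  else (⟨t + 1, by have := not_or.1 h; omega⟩, L.next t ω q.2.1 x y, L.stop t ω q.2.1 x y)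

/-- initial state of the padded learner -/
def pad0 (L : Learner d Ω Z) (ω : Ω) (T : ℕ) : Fin (T + 1) × Z × Bool := (0, L.init ω, false)

theorem run_pad (L : Learner d Ω Z) (ω : Ω) (T : ℕ) (s : E d) (t : ℕ) (ht : t ≤ T)
    (x : Fin t → E d) :
    (((Mem.run (L.pad ω T) (L.pad0 ω T) t x s).1 : ℕ),
      (Mem.run (L.pad ω T) (L.pad0 ω T) t x s).2) = L.run ω s t x := by
  induction t with
  | zero => rfl
  | succ t ih =>
    have ih' := ih (by omega) (Fin.init x)
    unfold Mem.run Learner.run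
    set q := Mem.run (L.pad ω T) (L.pad0 ω T) t (Fin.init x) s with hq
    rw [← ih']
    by_cases hb : q.2.2 = true
    · rw [if_pos hb]
      unfold pad
      rw [dif_pos (Or.inl hb)]
    · rw [if_neg hb]
      unfold pad
      rw [dif_neg (by push Not; exact ⟨hb, by omega⟩)]

theorem run_pad_succ (L : Learner d Ω Z) (ω : Ω) (T : ℕ) (s : E d) (t : ℕ) (ht : T ≤ t)
    (x : Fin (t + 1) → E d) :
    Mem.run (L.pad ω T) (L.pad0 ω T) (t + 1) x s =
      Mem.run (L.pad ω T) (L.pad0 ω T) t (Fin.init x) s := by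
  conv_lhs => unfold Mem.run
  unfold pad
  rw [dif_pos (Or.inr ht)]

theorem measurePreserving_init (ν : Measure (E d)) [IsProbabilityMeasure ν] (t : ℕ) :
    MeasurePreserving (Fin.init : (Fin (t + 1) → E d) → (Fin t → E d))
      (Measure.pi fun _ => ν) (Measure.pi fun _ => ν) := by
  have h1 := measurePreserving_piFinSuccAbove (fun _ : Fin (t + 1) => ν) (Fin.last t)
  have h2 : MeasurePreserving (Prod.snd : E d × (Fin t → E d) → (Fin t → E d))
      (ν.prod (Measure.pi fun _ : Fin t => ν)) (Measure.pi fun _ : Fin t => ν) :=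
    measurePreserving_snd
  have h3 := h2.comp h1
  convert h3 using 1
  ext x i
  simp [MeasurableEquiv.piFinSuccAbove, Fin.init, Fin.removeNth]

theorem measure_pad (L : Learner d Ω Z) (ω : Ω) (T : ℕ) (μ : Measure (E d))
    [IsProbabilityMeasure μ] (ε : ℝ) (o : Fin (T + 1) × Z × Bool → E d) (t : ℕ) (ht : T ≤ t)
    (hm : MeasurableSet {a : (Fin T → E d) × E d |
      ‖a.2 - o (Mem.run (L.pad ω T) (L.pad0 ω T) T a.1 a.2)‖ ≤ ε}) :
    MeasurableSet {a : (Fin t → E d) × E d |
      ‖a.2 - o (Mem.run (L.pad ω T) (L.pad0 ω T) t a.1 a.2)‖ ≤ ε} ∧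
    ((Measure.pi fun _ : Fin t => stdGaussian (E d)).prod μ)
      {a | ‖a.2 - o (Mem.run (L.pad ω T) (L.pad0 ω T) t a.1 a.2)‖ ≤ ε} =
    ((Measure.pi fun _ : Fin T => stdGaussian (E d)).prod μ)
      {a | ‖a.2 - o (Mem.run (L.pad ω T) (L.pad0 ω T) T a.1 a.2)‖ ≤ ε} := by
  induction t, ht using Nat.le_induction with
  | base => exact ⟨hm, rfl⟩
  | succ t ht ih =>
    have hmp : MeasurePreserving
        (Prod.map (Fin.init : (Fin (t + 1) → E d) → (Fin t → E d)) (id : E d → E d))
        ((Measure.pi fun _ : Fin (t + 1) => stdGaussian (E d)).prod μ)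
        ((Measure.pi fun _ : Fin t => stdGaussian (E d)).prod μ) :=
      (measurePreserving_init _ t).prod (MeasurePreserving.id μ)
    have hset : {a : (Fin (t + 1) → E d) × E d |
        ‖a.2 - o (Mem.run (L.pad ω T) (L.pad0 ω T) (t + 1) a.1 a.2)‖ ≤ ε} =
        (Prod.map (Fin.init : (Fin (t + 1) → E d) → (Fin t → E d)) (id : E d → E d)) ⁻¹'
        {a | ‖a.2 - o (Mem.run (L.pad ω T) (L.pad0 ω T) t a.1 a.2)‖ ≤ ε} := by
      ext a
      simp only [Set.mem_setOf_eq, Set.mem_preimage, Prod.map_fst, Prod.map_snd, id]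
      rw [L.run_pad_succ ω T a.2 t ht]
    rw [hset]
    exact ⟨hmp.measurable ih.1, (hmp.measure_preimage ih.1.nullMeasurableSet).trans ih.2⟩

theorem norm_sub_le_of_arccos {a b : E d} (ha : ‖a‖ = 1) (hb : ‖b‖ = 1) {ε : ℝ}
    (h : Real.arccos ⟪a, b⟫_ℝ ≤ ε) : ‖b - a‖ ≤ ε := by
  have h0 : 0 ≤ Real.arccos ⟪a, b⟫_ℝ := Real.arccos_nonneg _
  have hin : |⟪a, b⟫_ℝ| ≤ 1 := by
    have := abs_real_inner_le_norm a b
    rwa [ha, hb, one_mul] at this
  have hcos : Real.cos (Real.arccos ⟪a, b⟫_ℝ) = ⟪a, b⟫_ℝ :=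
    Real.cos_arccos (by linarith [(abs_le.1 hin).1]) (abs_le.1 hin).2
  have h1 := Real.one_sub_sq_div_two_le_cos (x := Real.arccos ⟪a, b⟫_ℝ)
  rw [hcos] at h1
  have h2 : ‖b - a‖ ^ 2 = 2 - 2 * ⟪a, b⟫_ℝ := by
    rw [norm_sub_sq_real, ha, hb, real_inner_comm]; ring
  have h3 : ‖b - a‖ ^ 2 ≤ (Real.arccos ⟪a, b⟫_ℝ) ^ 2 := by rw [h2]; linarith
  have h4 := abs_le_of_sq_le_sq' h3 h0
  linarith [h4.2]

/-- A successful learner gives a deterministic learner without stopping, with `2 (T + 1)` times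
as many states, which succeeds on every longer sequence of samples. -/
theorem reduce [Fintype Z] (L : Learner d Ω Z) (P : Measure Ω) [IsProbabilityMeasure P]
    (μ : Measure (E d)) (hμ : IsUniformSphere d μ) (T : ℕ) (ε : ℝ) (h : L.Succeeds P μ T ε) :
    ∃ (F : ℕ → Fin (T + 1) × Z × Bool → E d → ℝ → Fin (T + 1) × Z × Bool)
      (z0 : Fin (T + 1) × Z × Bool) (o : Fin (T + 1) × Z × Bool → E d),
      (∀ t z z', MeasurableSet {a : E d × ℝ | F t z a.1 a.2 = z'}) ∧
      ∀ T', T ≤ T' → 2 / 3 ≤ ((Measure.pi fun _ : Fin T' => stdGaussian (E d)).prod μ).real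
        {a | ‖a.2 - o (Mem.run F z0 T' a.1 a.2)‖ ≤ ε} := by
  haveI := hμ.prob
  obtain ⟨ω, hω⟩ := L.exists_omega P μ T ε h
  refine ⟨L.pad ω T, L.pad0 ω T, fun q => L.out q.1 ω q.2.1, ?_, ?_⟩
  · intro t q q'
    unfold pad
    by_cases hq : q.2.2 = true ∨ T ≤ t
    · simp only [dif_pos hq]
      exact MeasurableSet.const _
    · simp only [dif_neg hq]
      have h1 : MeasurableSet {a : E d × ℝ | L.next t ω q.2.1 a.1 a.2 = q'.2.1} :=
        measurable_prodMk_left (x := ω) (L.meas_next t q.2.1 q'.2.1)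
      have h2 : MeasurableSet {a : E d × ℝ | L.stop t ω q.2.1 a.1 a.2 = q'.2.2} := by
        have h3 : MeasurableSet {a : E d × ℝ | L.stop t ω q.2.1 a.1 a.2 = true} :=
          measurable_prodMk_left (x := ω) (L.meas_stop t q.2.1)
        rcases hb : q'.2.2 with _ | _
        · have : {a : E d × ℝ | L.stop t ω q.2.1 a.1 a.2 = false} =
            {a : E d × ℝ | L.stop t ω q.2.1 a.1 a.2 = true}ᶜ := by
            ext a; simp
          rw [this]; exact h3.compl
        · exact h3
      have h4 : MeasurableSet {a : E d × ℝ |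
          (⟨t + 1, by have := not_or.1 hq; omega⟩ : Fin (T + 1)) = q'.1} := MeasurableSet.const _
      have : {a : E d × ℝ | ((⟨t + 1, by have := not_or.1 hq; omega⟩,
          L.next t ω q.2.1 a.1 a.2, L.stop t ω q.2.1 a.1 a.2) : Fin (T + 1) × Z × Bool) = q'} =
          {a : E d × ℝ | (⟨t + 1, by have := not_or.1 hq; omega⟩ : Fin (T + 1)) = q'.1} ∩
          ({a : E d × ℝ | L.next t ω q.2.1 a.1 a.2 = q'.2.1} ∩
          {a : E d × ℝ | L.stop t ω q.2.1 a.1 a.2 = q'.2.2}) := by
        ext a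
        simp only [Set.mem_setOf_eq, Set.mem_inter_iff, Prod.ext_iff]
      rw [this]
      exact h4.inter (h1.inter h2)
  · intro T' hT'
    set o : Fin (T + 1) × Z × Bool → E d := fun q => L.out q.1 ω q.2.1 with ho
    have hrun : ∀ (x : Fin T → E d) (s : E d),
        o (Mem.run (L.pad ω T) (L.pad0 ω T) T x s) = L.estimate T ω x s := by
      intro x s
      have := L.run_pad ω T s T le_rfl x
      unfold estimate
      rw [← this]
    have hm : MeasurableSet {a : (Fin T → E d) × E d |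
        ‖a.2 - o (Mem.run (L.pad ω T) (L.pad0 ω T) T a.1 a.2)‖ ≤ ε} := by
      simp only [hrun]
      have h1 : Measurable fun a : (Fin T → E d) × E d => L.estimate T ω a.1 a.2 :=
        (L.measurable_estimate T).comp measurable_prodMk_left
      exact measurableSet_le (measurable_snd.sub h1).norm measurable_const
    rw [measureReal_def, (L.measure_pad ω T μ ε o T' hT' hm).2]
    have hle : ENNReal.ofReal (2 / 3) ≤
        ((Measure.pi fun _ : Fin T => stdGaussian (E d)).prod μ)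
        {a | ‖a.2 - o (Mem.run (L.pad ω T) (L.pad0 ω T) T a.1 a.2)‖ ≤ ε} := by
      refine hω.trans ?_
      have hnull : ((Measure.pi fun _ : Fin T => stdGaussian (E d)).prod μ)
          {a | ‖a.2‖ ≠ 1} = 0 := by
        have : {a : (Fin T → E d) × E d | ‖a.2‖ ≠ 1} =
            Set.univ ×ˢ (Metric.sphere (0 : E d) 1)ᶜ := by
          ext a; simp
        rw [this, Measure.prod_prod, hμ.supp, mul_zero]
      refine (measure_mono (t := {a | ‖a.2 - o (Mem.run (L.pad ω T) (L.pad0 ω T) T a.1 a.2)‖ ≤ ε}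
        ∪ {a | ‖a.2‖ ≠ 1}) ?_).trans ?_
      · intro a ha
        by_cases hn : ‖a.2‖ = 1
        · left
          simp only [Set.mem_setOf_eq] at ha ⊢
          rw [hrun]
          exact norm_sub_le_of_arccos (L.norm_out _ _ _) hn ha
        · right; exact hn
      · refine (measure_union_le _ _).trans ?_
        rw [hnull, add_zero]
    have := ENNReal.toReal_mono (measure_ne_top _ _) hle
    rwa [ENNReal.toReal_ofReal (by norm_num)] at this

end Learner

end Vale.Agent.Mem
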