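import Vale.Agent.Mem.Defs

/-!
# P309, part B: Donsker–Varadhan bound for the covariance term
-/

namespace Vale.Agent.Mem

open Finset

theorem young_ineq (t y : ℝ) (ht : 0 < t) : t * y ≤ t * Real.log t - t + Real.exp y := by
  have h1 := Real.add_one_le_exp (y - Real.log t)
  rw [Real.exp_sub, Real.exp_log ht] at h1
  have h2 := mul_le_mul_of_nonneg_left h1 ht.le
  have h3 : t * (Real.exp y / t) = Real.exp y := by field_simp
  rw [h3] at h2
  linarith [mul_add t (y - Real.log t) 1, mul_sub t y (Real.log t)]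

/-- entropy bound -/
theorem entropy_le_log_card {Z : Type} [Fintype Z] [Nonempty Z] (U : Z → ℝ) (hU : ∀ z, 0 < U z)
    (hU1 : ∑ z, U z = 1) : ∑ z, -(U z * Real.log (U z)) ≤ Real.log (Fintype.card Z) := by
  have hN : (0 : ℝ) < Fintype.card Z := by exact_mod_cast Fintype.card_pos
  have key : ∀ z ∈ (Finset.univ : Finset Z), -(U z * Real.log (U z)) - U z *
      Real.log (Fintype.card Z) ≤ 1 / (Fintype.card Z : ℝ) - U z := by
    intro z _
    have h1 := hU z
    have h2 : 0 < 1 / ((Fintype.card Z : ℝ) * U z) := by positivity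
    have h3 := Real.log_le_sub_one_of_pos h2
    rw [Real.log_div one_ne_zero (by positivity), Real.log_one,
      Real.log_mul hN.ne' h1.ne'] at h3
    have h4 := mul_le_mul_of_nonneg_left h3 h1.le
    have h5 : U z * (1 / ((Fintype.card Z : ℝ) * U z) - 1) = 1 / (Fintype.card Z : ℝ) - U z := by
      field_simp
    rw [h5] at h4
    linarith
  have h6 := Finset.sum_le_sum key
  rw [Finset.sum_sub_distrib, Finset.sum_sub_distrib, ← Finset.sum_mul, hU1, Finset.sum_const,
    Finset.card_univ, nsmul_eq_mul, mul_one_div_cancel hN.ne'] at h6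
  linarith

theorem dv_point {W : Type} [Fintype W] (gam : W → ℝ) (hgam : ∀ x, 0 ≤ gam x)
    (hg1 : ∑ x, gam x = 1) (q : W → ℝ) (hq : ∀ x, 0 < q x) (hq1 : ∀ x, q x ≤ 1) (a : ℕ)
    (G : W → ℝ) (hG : ∀ x, 0 ≤ G x) (hU : 0 < ∑ x, gam x * q x) :
    a * ∑ x, gam x * (q x * Real.log (1 + G x)) ≤
      (∑ x, gam x * q x) * Real.log (∑ x, gam x * (1 + G x) ^ a) +
        -((∑ x, gam x * q x) * Real.log (∑ x, gam x * q x)) := by
  set U := ∑ x, gam x * q x with hUdef
  set I := ∑ x, gam x * (1 + G x) ^ a with hIdef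
  have hI : 0 < I := by
    have h1 : ∑ x, gam x * 1 ≤ I := by
      refine Finset.sum_le_sum fun x _ => mul_le_mul_of_nonneg_left ?_ (hgam x)
      exact one_le_pow₀ (by linarith [hG x])
    simp_rw [mul_one] at h1
    rw [hg1] at h1
    linarith
  have key : ∀ x ∈ (Finset.univ : Finset W),
      gam x * (q x * (a * Real.log (1 + G x) - Real.log I)) ≤
      gam x * (q x * (-Real.log U)) - gam x * q x + U / I * (gam x * (1 + G x) ^ a) := by
    intro x _
    have h1 := hq x
    have h2 : 0 < 1 + G x := by linarith [hG x]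
    have h3 := young_ineq (q x / U) (a * Real.log (1 + G x) - Real.log I) (by positivity)
    have h4 : Real.exp (a * Real.log (1 + G x) - Real.log I) = (1 + G x) ^ a / I := by
      rw [Real.exp_sub, Real.exp_log hI, mul_comm, Real.exp_mul, Real.exp_log h2,
        Real.rpow_natCast]
    rw [h4, Real.log_div h1.ne' hU.ne'] at h3
    have h5 := mul_le_mul_of_nonneg_left h3 hU.le
    have h6 : U * (q x / U * (a * Real.log (1 + G x) - Real.log I)) =
        q x * (a * Real.log (1 + G x) - Real.log I) := by field_simp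
    have h7 : U * (q x / U * (Real.log (q x) - Real.log U) - q x / U + (1 + G x) ^ a / I) =
        q x * Real.log (q x) + q x * (-Real.log U) - q x + U / I * (1 + G x) ^ a := by
      field_simp
      ring
    rw [h6, h7] at h5
    have h8 : q x * Real.log (q x) ≤ 0 :=
      mul_nonpos_of_nonneg_of_nonpos h1.le (Real.log_nonpos h1.le (hq1 x))
    have h9 : q x * (a * Real.log (1 + G x) - Real.log I) ≤
        q x * (-Real.log U) - q x + U / I * (1 + G x) ^ a := by linarith
    have h10 := mul_le_mul_of_nonneg_left h9 (hgam x)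
    calc gam x * (q x * (a * Real.log (1 + G x) - Real.log I)) ≤
        gam x * (q x * (-Real.log U) - q x + U / I * (1 + G x) ^ a) := h10
      _ = _ := by ring
  have h11 := Finset.sum_le_sum key
  have h12 : ∑ x, gam x * (q x * (a * Real.log (1 + G x) - Real.log I)) =
      a * ∑ x, gam x * (q x * Real.log (1 + G x)) - U * Real.log I := by
    rw [hUdef, Finset.mul_sum, Finset.sum_mul, ← Finset.sum_sub_distrib]
    exact Finset.sum_congr rfl fun x _ => by ring
  have h13 : ∑ x, (gam x * (q x * (-Real.log U)) - gam x * q x +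
      U / I * (gam x * (1 + G x) ^ a)) = -(U * Real.log U) := by
    rw [Finset.sum_add_distrib, Finset.sum_sub_distrib, ← Finset.mul_sum, ← hIdef, ← hUdef]
    have h14 : ∑ x, gam x * (q x * (-Real.log U)) = U * (-Real.log U) := by
      rw [hUdef, Finset.sum_mul]
      exact Finset.sum_congr rfl fun x _ => by ring
    rw [h14]
    field_simp
    ring
  rw [h12, h13] at h11
  linarith

section abstract

variable {S W H Z L L' : Type} [Fintype S] [Fintype W] [Fintype H] [Fintype Z]
  [DecidableEq L] [DecidableEq L']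

omit [Fintype H] [DecidableEq L] [DecidableEq L'] in
/-- **Part B.** -/
theorem dv_total (lam : S → ℝ) (gam : W → ℝ) (hlam : ∀ s, 0 ≤ lam s) (hlam1 : ∑ s, lam s = 1)
    (hgam : ∀ x, 0 ≤ gam x) (hg1 : ∑ x, gam x = 1) (q : W → Z → S → ℝ)
    (hq : ∀ x z s, 0 < q x z s) (hq1 : ∀ x s, ∑ z, q x z s = 1) (a : ℕ) (ha : 1 ≤ a)
    (G : Z → S → W → ℝ) (hG : ∀ z s x, 0 ≤ G z s x) :
    ∑ x, gam x * ∑ s, lam s * ∑ z, q x z s * Real.log (1 + G z s x) ≤
      Real.log (Fintype.card Z) / a + ∑ s, lam s * ∑ z, (∑ x, gam x * q x z s) *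
        (Real.log (∑ x, gam x * (1 + G z s x) ^ a) / a) := by
  have ha' : (0 : ℝ) < a := by exact_mod_cast ha
  obtain ⟨x0, hx0⟩ : ∃ x0, 0 < gam x0 := by
    by_contra hcon
    push Not at hcon
    have : ∑ x, gam x ≤ 0 := Finset.sum_nonpos fun x _ => hcon x
    linarith
  obtain ⟨s0⟩ : Nonempty S := by
    by_contra hcon
    rw [not_nonempty_iff] at hcon
    simp at hlam1
  have : Nonempty Z := by
    by_contra hcon
    rw [not_nonempty_iff] at hcon
    have := hq1 x0 s0
    simp at this
  have hU : ∀ z s, 0 < ∑ x, gam x * q x z s := by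
    intro z s
    apply Finset.sum_pos'
    · exact fun x _ => mul_nonneg (hgam x) (hq x z s).le
    · exact ⟨x0, Finset.mem_univ _, mul_pos hx0 (hq x0 z s)⟩
  have hqle : ∀ x z s, q x z s ≤ 1 := by
    intro x z s
    rw [← hq1 x s]
    exact Finset.single_le_sum (f := fun z => q x z s) (fun z _ => (hq x z s).le)
      (Finset.mem_univ z)
  have hU1 : ∀ s, ∑ z, ∑ x, gam x * q x z s = 1 := by
    intro s
    rw [Finset.sum_comm]
    simp_rw [← Finset.mul_sum, hq1, mul_one]
    exact hg1
  -- swap the sums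
  have hL : ∑ x, gam x * ∑ s, lam s * ∑ z, q x z s * Real.log (1 + G z s x) =
      ∑ s, lam s * ∑ z, ∑ x, gam x * (q x z s * Real.log (1 + G z s x)) := by
    simp_rw [Finset.mul_sum]
    rw [Finset.sum_comm]
    refine Finset.sum_congr rfl fun s _ => ?_
    rw [Finset.sum_comm]
    refine Finset.sum_congr rfl fun z _ => Finset.sum_congr rfl fun x _ => ?_
    ring
  rw [hL]
  have key : ∀ s, ∑ z, ∑ x, gam x * (q x z s * Real.log (1 + G z s x)) ≤
      Real.log (Fintype.card Z) / a + ∑ z, (∑ x, gam x * q x z s) *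
        (Real.log (∑ x, gam x * (1 + G z s x) ^ a) / a) := by
    intro s
    have h1 : ∀ z ∈ (Finset.univ : Finset Z),
        a * ∑ x, gam x * (q x z s * Real.log (1 + G z s x)) ≤
        (∑ x, gam x * q x z s) * Real.log (∑ x, gam x * (1 + G z s x) ^ a) +
        -((∑ x, gam x * q x z s) * Real.log (∑ x, gam x * q x z s)) := fun z _ =>
      dv_point gam hgam hg1 (fun x => q x z s) (fun x => hq x z s) (fun x => hqle x z s) a
        (G z s) (hG z s) (hU z s)
    have h2 := Finset.sum_le_sum h1
    rw [← Finset.mul_sum, Finset.sum_add_distrib] at h2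
    have h3 := entropy_le_log_card (fun z => ∑ x, gam x * q x z s) (fun z => hU z s) (hU1 s)
    have h4 : a * ∑ z, ∑ x, gam x * (q x z s * Real.log (1 + G z s x)) ≤
        ∑ z, (∑ x, gam x * q x z s) * Real.log (∑ x, gam x * (1 + G z s x) ^ a) +
          Real.log (Fintype.card Z) := by linarith
    have h5 : ∑ z, (∑ x, gam x * q x z s) *
        (Real.log (∑ x, gam x * (1 + G z s x) ^ a) / a) =
        (∑ z, (∑ x, gam x * q x z s) * Real.log (∑ x, gam x * (1 + G z s x) ^ a)) / a := by
      rw [Finset.sum_div]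
      exact Finset.sum_congr rfl fun z _ => by ring
    rw [h5, ← add_div, le_div_iff₀ ha']
    linarith
  calc ∑ s, lam s * ∑ z, ∑ x, gam x * (q x z s * Real.log (1 + G z s x)) ≤
      ∑ s, lam s * (Real.log (Fintype.card Z) / a + ∑ z, (∑ x, gam x * q x z s) *
        (Real.log (∑ x, gam x * (1 + G z s x) ^ a) / a)) :=
        Finset.sum_le_sum fun s _ => mul_le_mul_of_nonneg_left (key s) (hlam s)
    _ = _ := by
        simp_rw [mul_add]
        rw [Finset.sum_add_distrib, ← Finset.sum_mul, hlam1, one_mul]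

end abstract

end Vale.Agent.Mem
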