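import Vale.Agent.Mem.PartC0

/-!
# P309, part C: lower bound for the entropy of the cells
-/

namespace Vale.Agent.Mem

open Finset
open scoped InnerProductSpace

namespace PC

section av

variable {X : Type} [Fintype X] {w k : ℕ} {gam gam' : X → ℝ}

/-- average over the rows of the fresh and of the auxiliary experiment -/
noncomputable def Av (gam gam' : X → ℝ) (G : (Fin w → X) → (Fin k → X) → ℝ) : ℝ :=
  ∑ h : Fin k → X, prw gam' h * ∑ x : Fin w → X, prw gam x * G x h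

omit [Fintype X] in
theorem prw_nn {gam : X → ℝ} (hgam : ∀ x, 0 ≤ gam x) {w : ℕ} (x : Fin w → X) :
    0 ≤ prw gam x := Finset.prod_nonneg fun i _ => hgam (x i)

theorem prw_prodi (gam : X → ℝ) (w : ℕ) (φ : Fin w → X → ℝ) :
    ∑ x : Fin w → X, prw gam x * ∏ i, φ i (x i) = ∏ i, ∑ x, gam x * φ i x := by
  have h : ∀ x : Fin w → X, prw gam x * ∏ i, φ i (x i) = ∏ i, (gam (x i) * φ i (x i)) := by
    intro x
    rw [prw, Finset.prod_mul_distrib]
  rw [Finset.sum_congr rfl fun x _ => h x, ← Fintype.piFinset_univ,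
    ← Finset.prod_univ_sum (fun _ : Fin w => (Finset.univ : Finset X))
      (fun i x => gam x * φ i x)]

theorem prw_one {gam : X → ℝ} (hg1 : ∑ x, gam x = 1) (w : ℕ) :
    ∑ x : Fin w → X, prw gam x = 1 := by
  have h := prw_prodi gam w (fun _ _ => 1)
  simp only [Finset.prod_const_one, mul_one] at h
  rw [h, hg1, Finset.prod_const_one]

theorem prw_lin {gam : X → ℝ} (hg1 : ∑ x, gam x = 1) (w : ℕ) (φ : X → ℝ) :
    ∑ x : Fin w → X, prw gam x * ∑ i, φ (x i) = w * ∑ x, gam x * φ x := by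
  classical
  have h1 : ∀ i : Fin w, ∑ x : Fin w → X, prw gam x * φ (x i) = ∑ x, gam x * φ x := by
    intro i
    have h := prw_prodi gam w (fun j y => if j = i then φ y else 1)
    have e1 : ∀ x : Fin w → X, ∏ j, (if j = i then φ (x j) else 1) = φ (x i) := by
      intro x
      rw [Finset.prod_ite_eq' Finset.univ i (fun j => φ (x j))]
      simp
    have e2 : ∏ j : Fin w, ∑ x, gam x * (if j = i then φ x else 1) = ∑ x, gam x * φ x := by
      have : ∀ j : Fin w, ∑ x, gam x * (if j = i then φ x else 1) =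
          if j = i then ∑ x, gam x * φ x else 1 := by
        intro j
        by_cases hj : j = i
        · simp [hj]
        · simp [hj, hg1]
      rw [Finset.prod_congr rfl fun j _ => this j,
        Finset.prod_ite_eq' Finset.univ i (fun _ => ∑ x, gam x * φ x)]
      simp
    rw [e2] at h
    rw [← h]
    exact Finset.sum_congr rfl fun x _ => by rw [e1 x]
  simp only [Finset.mul_sum]
  rw [Finset.sum_comm]
  simp only [← Finset.mul_sum]
  rw [Finset.sum_congr rfl fun i _ => h1 i, Finset.sum_const, Finset.card_univ, Fintype.card_fin,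
    nsmul_eq_mul]

theorem Av_mono (h0 : ∀ x, 0 ≤ gam x) (h0' : ∀ x, 0 ≤ gam' x)
    {G G' : (Fin w → X) → (Fin k → X) → ℝ} (h : ∀ x h, G x h ≤ G' x h) :
    Av gam gam' G ≤ Av gam gam' G' :=
  Finset.sum_le_sum fun y _ => mul_le_mul_of_nonneg_left (Finset.sum_le_sum fun x _ =>
    mul_le_mul_of_nonneg_left (h x y) (prw_nn h0 x)) (prw_nn h0' y)

theorem Av_const (h1 : ∑ x, gam x = 1) (h1' : ∑ x, gam' x = 1) (c : ℝ) :
    Av (w := w) (k := k) gam gam' (fun _ _ => c) = c := by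
  unfold Av
  simp only [← Finset.sum_mul]
  rw [prw_one h1, prw_one h1', one_mul, one_mul]

theorem Av_add (G G' : (Fin w → X) → (Fin k → X) → ℝ) :
    Av gam gam' (fun x h => G x h + G' x h) = Av gam gam' G + Av gam gam' G' := by
  unfold Av
  simp only [mul_add, Finset.sum_add_distrib]

theorem Av_sub (G G' : (Fin w → X) → (Fin k → X) → ℝ) :
    Av gam gam' (fun x h => G x h - G' x h) = Av gam gam' G - Av gam gam' G' := by
  unfold Av
  simp only [mul_sub, Finset.sum_sub_distrib]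

theorem Av_mul (c : ℝ) (G : (Fin w → X) → (Fin k → X) → ℝ) :
    Av gam gam' (fun x h => c * G x h) = c * Av gam gam' G := by
  unfold Av
  simp only [Finset.mul_sum]
  refine Finset.sum_congr rfl fun h _ => Finset.sum_congr rfl fun x _ => ?_
  ring

theorem Av_sum {ι : Type} (T : Finset ι) (G : ι → (Fin w → X) → (Fin k → X) → ℝ) :
    Av gam gam' (fun x h => ∑ i ∈ T, G i x h) = ∑ i ∈ T, Av gam gam' (G i) := by
  classical
  induction T using Finset.induction_on with
  | empty => simp [Av]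
  | insert a T ha ih =>
    simp only [Finset.sum_insert ha]
    rw [Av_add, ih]

theorem Av_lin (h1 : ∑ x, gam x = 1) (h1' : ∑ x, gam' x = 1) (φ : X → ℝ) :
    Av gam gam' (fun (x : Fin w → X) (h : Fin k → X) => (∑ i, φ (x i)) + ∑ i, φ (h i)) =
      w * (∑ x, gam x * φ x) + k * ∑ x, gam' x * φ x := by
  unfold Av
  simp only [mul_add, Finset.sum_add_distrib]
  congr 1
  · rw [prw_lin h1, ← Finset.sum_mul, prw_one h1', one_mul]
  · have : ∀ h : Fin k → X, prw gam' h * ∑ x : Fin w → X, prw gam x * ∑ i, φ (h i) =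
        prw gam' h * ∑ i, φ (h i) := by
      intro h
      rw [← Finset.sum_mul, prw_one h1, one_mul]
    rw [Finset.sum_congr rfl fun h _ => this h, prw_lin h1']

end av

section main

variable {S X : Type} [Fintype S] [Fintype X] {CL C1 : ℝ} {d n : ℕ} {τ : ℝ} {vs : S → E d}
    {vx : X → E d} {lam : S → ℝ} {gam gam' : X → ℝ} {Y : X → S → ℤ}

/-- scale -/
noncomputable def sg (τ : ℝ) (j : ℕ) : ℝ := max 1 (rad j / τ)

theorem one_le_sg (τ : ℝ) (j : ℕ) : 1 ≤ sg τ j := le_max_left _ _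

/-- labels of the rows -/
def yy (Y : X → S → ℤ) {w k : ℕ} (x : Fin w → X) (h : Fin k → X) (s : S) :
    (Fin w → ℤ) × (Fin k → ℤ) := (plab Y x s, plab Y h s)

/-- average distance of the labels -/
theorem avg_dist (M : Model CL C1 d n τ vs vx lam gam gam' Y) (w k : ℕ) (s s' : S) {σ : ℝ}
    (hσ : 1 ≤ σ) (hd : ‖vs s' - vs s‖ ≤ σ * τ) :
    Av gam gam' (fun (x : Fin w → X) (h : Fin k → X) =>
      (∑ i, |((Y (x i) s : ℝ) - Y (x i) s')|) + ∑ i, |((Y (h i) s : ℝ) - Y (h i) s')|) ≤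
      (w + k : ℝ) * ((C1 + 1) * σ) := by
  have hC1 := M.hC1
  have hτ := M.hτ
  rw [Av_lin M.gam_sum M.gam'_sum (fun y => |((Y y s : ℝ) - Y y s')|)]
  have h1 : ∀ g : X → ℝ, (∀ x, 0 ≤ g x) → ∑ x, g x = 1 →
      (∀ u : E d, ∑ x, g x * |⟪vx x, u⟫_ℝ| ≤ C1 * ‖u‖) →
      ∑ x, g x * |((Y x s : ℝ) - Y x s')| ≤ (C1 + 1) * σ := by
    intro g hg hg1 habs
    calc ∑ x, g x * |((Y x s : ℝ) - Y x s')| ≤
        ∑ x, (g x * |⟪vx x, vs s - vs s'⟫_ℝ| / τ + g x) := by
          refine Finset.sum_le_sum fun x _ => ?_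
          have := mul_le_mul_of_nonneg_left (M.lab_near x s s') (hg x)
          rw [mul_add, mul_one, ← mul_div_assoc] at this
          exact this
      _ = (∑ x, g x * |⟪vx x, vs s - vs s'⟫_ℝ|) / τ + 1 := by
          rw [Finset.sum_add_distrib, hg1, Finset.sum_div]
      _ ≤ (C1 * (σ * τ)) / τ + 1 := by
          have h2 := habs (vs s - vs s')
          rw [norm_sub_rev] at h2
          have h3 : C1 * ‖vs s' - vs s‖ ≤ C1 * (σ * τ) :=
            mul_le_mul_of_nonneg_left hd (by linarith)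
          have h4 : (∑ x, g x * |⟪vx x, vs s - vs s'⟫_ℝ|) / τ ≤ (C1 * (σ * τ)) / τ :=
            div_le_div_of_nonneg_right (h2.trans h3) hτ.le
          linarith
      _ = C1 * σ + 1 := by field_simp
      _ ≤ (C1 + 1) * σ := by nlinarith
  have ha := h1 gam M.gam_nonneg M.gam_sum M.gam_abs
  have hb := h1 gam' M.gam'_nonneg M.gam'_sum M.gam'_abs
  have hw : (0 : ℝ) ≤ w := Nat.cast_nonneg w
  have hk : (0 : ℝ) ≤ k := Nat.cast_nonneg k
  have := mul_le_mul_of_nonneg_left ha hw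
  have := mul_le_mul_of_nonneg_left hb hk
  linarith

omit [Fintype S] in
theorem jensen {T : Finset S} {P : S → ℝ} (hP : ∀ s, 0 < P s) (F : S → ℝ) (hF : ∀ s, 0 < F s)
    (hT : T.Nonempty) :
    Real.log (∑ s ∈ T, P s) + ∑ s ∈ T, P s / (∑ s ∈ T, P s) * Real.log (F s) ≤
      Real.log (∑ s ∈ T, P s * F s) := by
  have hb : 0 < ∑ s ∈ T, P s := Finset.sum_pos (fun s _ => hP s) hT
  set b := ∑ s ∈ T, P s with hbdef
  have h := strictConcaveOn_log_Ioi.concaveOn.le_map_sum (t := T) (w := fun s => P s / b)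
    (p := F) (fun s _ => (div_pos (hP s) hb).le)
    (by rw [← Finset.sum_div, ← hbdef, div_self hb.ne']) (fun s _ => hF s)
  simp only [smul_eq_mul] at h
  have h2 : ∑ s ∈ T, P s * F s = b * ∑ s ∈ T, P s / b * F s := by
    rw [Finset.mul_sum]
    refine Finset.sum_congr rfl fun s _ => ?_
    field_simp
  have h3 : 0 < ∑ s ∈ T, P s / b * F s :=
    Finset.sum_pos (fun s _ => mul_pos (div_pos (hP s) hb) (hF s)) hT
  rw [h2, Real.log_mul hb.ne' h3.ne']
  linarith

/-- pointwise lower bound for the logarithm of the reference density -/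
theorem logPhi_ge (P : S → ℝ) (hP : ∀ s, 0 < P s) {w k K : ℕ} (y : S → (Fin w → ℤ) × (Fin k → ℤ))
    (σ : ℕ → ℝ) (hσ : ∀ j, 1 ≤ σ j) (j : ℕ) (hj : j ≤ K) (T : Finset S) (hT : T.Nonempty) (s : S) :
    -Real.log (K + 1) + Real.log (∑ s' ∈ T, P s') + ∑ s' ∈ T, P s' / (∑ s' ∈ T, P s') *
      (-(((∑ i, |(((y s).1 i : ℝ) - (y s').1 i)|) + ∑ i, |(((y s).2 i : ℝ) - (y s').2 i)|) / σ j)
        - (w + k : ℝ) * Real.log (3 * σ j)) ≤ Real.log (Phi P σ K y (y s)) := by
  have hne : Nonempty S := ⟨s⟩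
  have hF : ∀ s' : S, 0 < (∏ i, fk (σ j) ((y s).1 i - (y s').1 i)) *
      ∏ i, fk (σ j) ((y s).2 i - (y s').2 i) := fun s' =>
    mul_pos (Finset.prod_pos fun i _ => fk_pos (hσ j) _) (Finset.prod_pos fun i _ => fk_pos (hσ j) _)
  have hlog : ∀ s' : S, Real.log ((∏ i, fk (σ j) ((y s).1 i - (y s').1 i)) *
      ∏ i, fk (σ j) ((y s).2 i - (y s').2 i)) =
      (-(((∑ i, |(((y s).1 i : ℝ) - (y s').1 i)|) + ∑ i, |(((y s).2 i : ℝ) - (y s').2 i)|) / σ j)
        - (w + k : ℝ) * Real.log (3 * σ j)) := by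
    intro s'
    rw [Real.log_mul (Finset.prod_pos fun i _ => fk_pos (hσ j) _).ne'
      (Finset.prod_pos fun i _ => fk_pos (hσ j) _).ne',
      Real.log_prod (fun i _ => (fk_pos (hσ j) _).ne'), Real.log_prod (fun i _ => (fk_pos (hσ j) _).ne')]
    simp only [fk_log (hσ j), Finset.sum_sub_distrib, Finset.sum_neg_distrib, Finset.sum_const,
      Finset.card_univ, Fintype.card_fin, nsmul_eq_mul, ← Finset.sum_div]
    push_cast
    ring
  have h1 := jensen hP (fun s' => (∏ i, fk (σ j) ((y s).1 i - (y s').1 i)) *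
      ∏ i, fk (σ j) ((y s).2 i - (y s').2 i)) hF hT
  simp only [hlog] at h1
  have h2 : 0 < ∑ s' ∈ T, P s' * ((∏ i, fk (σ j) ((y s).1 i - (y s').1 i)) *
      ∏ i, fk (σ j) ((y s).2 i - (y s').2 i)) :=
    Finset.sum_pos (fun s' _ => mul_pos (hP s') (hF s')) hT
  have h3 : ((K : ℝ) + 1)⁻¹ * ∑ s' ∈ T, P s' * ((∏ i, fk (σ j) ((y s).1 i - (y s').1 i)) *
      ∏ i, fk (σ j) ((y s).2 i - (y s').2 i)) ≤ Phi P σ K y (y s) := by
    unfold Phi
    refine mul_le_mul_of_nonneg_left ?_ (by positivity)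
    calc _ ≤ ∑ s', P s' * ((∏ i, fk (σ j) ((y s).1 i - (y s').1 i)) *
          ∏ i, fk (σ j) ((y s).2 i - (y s').2 i)) :=
          Finset.sum_le_sum_of_subset_of_nonneg (Finset.subset_univ T)
            fun s' _ _ => (mul_pos (hP s') (hF s')).le
      _ ≤ _ := Finset.single_le_sum (f := fun j => ∑ s', P s' *
            ((∏ i, fk (σ j) ((y s).1 i - (y s').1 i)) * ∏ i, fk (σ j) ((y s).2 i - (y s').2 i)))
            (fun j _ => Finset.sum_nonneg fun s' _ => mul_nonneg (hP s').le (mul_nonneg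
              (Finset.prod_nonneg fun i _ => (fk_pos (hσ j) _).le)
              (Finset.prod_nonneg fun i _ => (fk_pos (hσ j) _).le)))
            (Finset.mem_range.2 (Nat.lt_succ_of_le hj))
  have hK : (0 : ℝ) < ((K : ℝ) + 1)⁻¹ := by positivity
  have h4 := Real.log_le_log (mul_pos hK h2) h3
  rw [Real.log_mul hK.ne' h2.ne', Real.log_inv] at h4
  linarith

theorem avg_logPhi (M : Model CL C1 d n τ vs vx lam gam gam' Y) (w k K : ℕ) (P : S → ℝ)
    (hP : ∀ s, 0 < P s) (j : ℕ) (hj : j ≤ K) (hjτ : τ ≤ rad j) (s : S) :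
    -Real.log (K + 1) + Real.log (bm vs P s (rad j)) - (w + k : ℝ) * (C1 + 1)
      - (w + k : ℝ) * Real.log (3 * (rad j / τ)) ≤
      Av gam gam' (fun (x : Fin w → X) (h : Fin k → X) =>
        Real.log (Phi P (sg τ) K (yy Y x h) (yy Y x h s))) := by
  classical
  have hτ := M.hτ
  have hsg : sg τ j = rad j / τ := max_eq_right (by rwa [le_div_iff₀ hτ, one_mul])
  have hsg1 := one_le_sg τ j
  have hsg0 : 0 < sg τ j := by linarith
  set T : Finset S := Finset.univ.filter (fun s' => ‖vs s' - vs s‖ ≤ rad j) with hT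
  have hTne : T.Nonempty := by
    refine ⟨s, ?_⟩
    simp only [hT, Finset.mem_filter, Finset.mem_univ, true_and, sub_self, norm_zero]
    unfold rad
    positivity
  have hbm : bm vs P s (rad j) = ∑ s' ∈ T, P s' := by
    unfold bm
    rw [hT, Finset.sum_filter]
  have hb : 0 < ∑ s' ∈ T, P s' := Finset.sum_pos (fun s _ => hP s) hTne
  rw [hbm, ← hsg]
  have hpt : ∀ (x : Fin w → X) (h : Fin k → X),
      -Real.log (K + 1) + Real.log (∑ s' ∈ T, P s') + ∑ s' ∈ T, P s' / (∑ s' ∈ T, P s') *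
      (-(((∑ i, |((Y (x i) s : ℝ) - Y (x i) s')|) + ∑ i, |((Y (h i) s : ℝ) - Y (h i) s')|) / sg τ j)
        - (w + k : ℝ) * Real.log (3 * sg τ j)) ≤
      Real.log (Phi P (sg τ) K (yy Y x h) (yy Y x h s)) := fun x h =>
    logPhi_ge P hP (yy Y x h) (sg τ) (one_le_sg τ) j hj T hTne s
  refine le_trans ?_ (Av_mono M.gam_nonneg M.gam'_nonneg hpt)
  rw [Av_add, Av_const M.gam_sum M.gam'_sum, Av_sum]
  have hterm : ∀ s' ∈ T, P s' / (∑ s' ∈ T, P s') * (-((w + k : ℝ) * (C1 + 1))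
      - (w + k : ℝ) * Real.log (3 * sg τ j)) ≤
      Av gam gam' (fun (x : Fin w → X) (h : Fin k → X) => P s' / (∑ s' ∈ T, P s') *
      (-(((∑ i, |((Y (x i) s : ℝ) - Y (x i) s')|) + ∑ i, |((Y (h i) s : ℝ) - Y (h i) s')|) / sg τ j)
        - (w + k : ℝ) * Real.log (3 * sg τ j))) := by
    intro s' hs'
    rw [Av_mul]
    refine mul_le_mul_of_nonneg_left ?_ (div_pos (hP s') hb).le
    rw [Av_sub, Av_const M.gam_sum M.gam'_sum]
    have hd : ‖vs s' - vs s‖ ≤ sg τ j * τ := by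
      rw [hsg, div_mul_cancel₀ _ hτ.ne']
      exact (Finset.mem_filter.1 hs').2
    have ha := avg_dist M w k s s' hsg1 hd
    have he : Av gam gam' (fun (x : Fin w → X) (h : Fin k → X) =>
        -(((∑ i, |((Y (x i) s : ℝ) - Y (x i) s')|) + ∑ i, |((Y (h i) s : ℝ) - Y (h i) s')|) / sg τ j)) =
        (-(sg τ j)⁻¹) * Av gam gam' (fun (x : Fin w → X) (h : Fin k → X) =>
        (∑ i, |((Y (x i) s : ℝ) - Y (x i) s')|) + ∑ i, |((Y (h i) s : ℝ) - Y (h i) s')|) := by
      rw [← Av_mul]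
      congr 1
      funext x h
      ring
    rw [he]
    have h5 : (sg τ j)⁻¹ * Av gam gam' (fun (x : Fin w → X) (h : Fin k → X) =>
        (∑ i, |((Y (x i) s : ℝ) - Y (x i) s')|) + ∑ i, |((Y (h i) s : ℝ) - Y (h i) s')|) ≤
        (w + k : ℝ) * (C1 + 1) := by
      rw [inv_mul_le_iff₀ hsg0]
      linarith
    linarith
  have hsum := Finset.sum_le_sum hterm
  rw [← Finset.sum_mul, ← Finset.sum_div, div_self hb.ne', one_mul] at hsum
  linarith

omit [Fintype X] in
theorem cell_eq (P : S → ℝ) {w k : ℕ} (x : Fin w → X) (h : Fin k → X) (s : S) :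
    cell P (plab Y) (plab Y) (fun _ => 1) x h s =
      ∑ s', if yy Y x h s' = yy Y x h s then P s' else 0 := by
  unfold cell yy
  refine Finset.sum_congr rfl fun s' _ => ?_
  simp only [Prod.mk.injEq, mul_one]

theorem core (M : Model CL C1 d n τ vs vx lam gam gam' Y) (w k K : ℕ) (P : S → ℝ)
    (hP : ∀ s, 0 < P s) (hP1 : ∑ s, P s = 1) (ψ : S → ℝ) (hψ0 : ∀ s, 0 ≤ ψ s) (hψ1 : ∀ s, ψ s ≤ 1)
    (hne : Nonempty S)
    (A : S → ℝ) (hA : ∀ s, A s ≤ Av gam gam' (fun (x : Fin w → X) (h : Fin k → X) =>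
        Real.log (Phi P (sg τ) K (yy Y x h) (yy Y x h s)))) :
    (∑ s, P s * (ψ s * A s)) + (∑ s, P s * ψ s) - 1 ≤
      ∑ h : Fin k → X, prw gam' h * ∑ x : Fin w → X, prw gam x *
        ∑ s, P s * (ψ s * Real.log (cell P (plab Y) (plab Y) (fun _ => 1) x h s)) := by
  have hpt : ∀ (x : Fin w → X) (h : Fin k → X),
      (∑ s, P s * (ψ s * Real.log (Phi P (sg τ) K (yy Y x h) (yy Y x h s)))) +
        ((∑ s, P s * ψ s) - 1) ≤
      ∑ s, P s * (ψ s * Real.log (cell P (plab Y) (plab Y) (fun _ => 1) x h s)) := by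
    intro x h
    simp only [cell_eq]
    have := gibbs_log P hP (yy Y x h) (Phi P (sg τ) K (yy Y x h))
      (Phi_pos P hP (sg τ) (one_le_sg τ) K (yy Y x h))
      (Phi_sum P (fun s => (hP s).le) hP1 (sg τ) (one_le_sg τ) K (yy Y x h)) ψ hψ0 hψ1
    linarith
  have h1 := Av_mono M.gam_nonneg M.gam'_nonneg hpt
  rw [Av_add, Av_const M.gam_sum M.gam'_sum, Av_sum] at h1
  have h2 : ∑ s, P s * (ψ s * A s) ≤ ∑ s, Av gam gam' (fun (x : Fin w → X) (h : Fin k → X) =>
      P s * (ψ s * Real.log (Phi P (sg τ) K (yy Y x h) (yy Y x h s)))) := by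
    refine Finset.sum_le_sum fun s _ => ?_
    rw [Av_mul, Av_mul]
    exact mul_le_mul_of_nonneg_left (mul_le_mul_of_nonneg_left (hA s) (hψ0 s)) (hP s).le
  have h3 : Av gam gam' (fun (x : Fin w → X) (h : Fin k → X) =>
      ∑ s, P s * (ψ s * Real.log (cell P (plab Y) (plab Y) (fun _ => 1) x h s))) =
      ∑ h : Fin k → X, prw gam' h * ∑ x : Fin w → X, prw gam x *
        ∑ s, P s * (ψ s * Real.log (cell P (plab Y) (plab Y) (fun _ => 1) x h s)) := rfl
  rw [← h3]
  linarith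

theorem rad_anti {j K : ℕ} (h : j ≤ K) : rad K ≤ rad j := by
  unfold rad
  exact div_le_div_of_nonneg_left (by norm_num) (by positivity)
    (pow_le_pow_right₀ (by norm_num) h)

end main

end PC

section final

variable {S X : Type} [Fintype S] [Fintype X]

/-- PART C1 -/
theorem cell_entropy {CL C1 : ℝ} {d n : ℕ} {τ : ℝ} {vs : S → E d} {vx : X → E d} {lam : S → ℝ}
    {gam gam' : X → ℝ} {Y : X → S → ℤ} (M : Model CL C1 d n τ vs vx lam gam gam' Y)
    (w k K : ℕ) (hK : τ ≤ rad K) (P : S → ℝ) (hP : ∀ s, 0 < P s) (hP1 : ∑ s, P s = 1) :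
    ∑ s, P s * Real.log (theta vs P K (w + k) s) + (w + k : ℝ) * Real.log τ
        - (C1 + 3) * (w + k : ℝ) - Real.log (K + 1) ≤
      ∑ h : Fin k → X, prw gam' h * ∑ x : Fin w → X, prw gam x *
        ∑ s, P s * Real.log (cell P (plab Y) (plab Y) (fun _ => 1) x h s) := by
  have hτ := M.hτ
  have hne : Nonempty S := by
    by_contra h
    rw [not_nonempty_iff] at h
    simp at hP1
  have hwk : (0 : ℝ) ≤ (w + k : ℝ) := by positivity
  have hlog3 : Real.log 3 ≤ 2 := by
    have := Real.log_le_sub_one_of_pos (show (0 : ℝ) < 3 by norm_num)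
    linarith
  have hA : ∀ s, Real.log (theta vs P K (w + k) s) + (w + k : ℝ) * Real.log τ
        - (C1 + 3) * (w + k : ℝ) - Real.log (K + 1) ≤
      PC.Av gam gam' (fun (x : Fin w → X) (h : Fin k → X) =>
        Real.log (PC.Phi P (PC.sg τ) K (PC.yy Y x h) (PC.yy Y x h s))) := by
    intro s
    obtain ⟨j, hj, hje⟩ := Finset.exists_mem_eq_sup' (s := Finset.range (K + 1)) ⟨0, by simp⟩
      (fun j => bm vs P s (rad j) / rad j ^ (w + k))
    have hjK : j ≤ K := Nat.lt_succ_iff.1 (Finset.mem_range.1 hj)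
    have hjτ : τ ≤ rad j := hK.trans (PC.rad_anti hjK)
    have hrad : 0 < rad j := by unfold rad; positivity
    have hth : theta vs P K (w + k) s = bm vs P s (rad j) / rad j ^ (w + k) := hje
    have hbm : 0 < bm vs P s (rad j) := by
      unfold bm
      refine Finset.sum_pos' (fun s' _ => ?_) ⟨s, Finset.mem_univ s, ?_⟩
      · split_ifs
        · exact (hP s').le
        · exact le_rfl
      · rw [if_pos (by rw [sub_self, norm_zero]; exact hrad.le)]
        exact hP s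
    refine le_trans ?_ (PC.avg_logPhi M w k K P hP j hjK hjτ s)
    rw [hth, Real.log_div hbm.ne' (by positivity), Real.log_pow,
      Real.log_mul (by norm_num) (by positivity), Real.log_div hrad.ne' hτ.ne']
    push_cast
    nlinarith
  have h := PC.core M w k K P hP hP1 (fun _ => 1) (fun _ => zero_le_one) (fun _ => le_rfl) hne _ hA
  simp only [one_mul, mul_one, hP1] at h
  refine le_trans (le_of_eq ?_) h
  rw [add_sub_cancel_right]
  have e : ∀ s, P s * (Real.log (theta vs P K (w + k) s) + (w + k : ℝ) * Real.log τ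
        - (C1 + 3) * (w + k : ℝ) - Real.log (K + 1)) =
      P s * Real.log (theta vs P K (w + k) s) + P s * ((w + k : ℝ) * Real.log τ
        - (C1 + 3) * (w + k : ℝ) - Real.log (K + 1)) := fun s => by ring
  rw [Finset.sum_congr rfl fun s _ => e s, Finset.sum_add_distrib, ← Finset.sum_mul, hP1]
  ring

/-- PART C2 -/
theorem cell_entropy_partial {CL C1 : ℝ} {d n : ℕ} {τ : ℝ} {vs : S → E d} {vx : X → E d}
    {lam : S → ℝ} {gam gam' : X → ℝ} {Y : X → S → ℤ}
    (M : Model CL C1 d n τ vs vx lam gam gam' Y)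
    (w k : ℕ) (ψ : S → ℝ) (hψ0 : ∀ s, 0 ≤ ψ s) (hψ1 : ∀ s, ψ s ≤ 1) :
    (∑ s, lam s * ψ s) * ((w + k : ℝ) * Real.log τ - (C1 + 4) * (w + k : ℝ)) - 1 ≤
      ∑ h : Fin k → X, prw gam' h * ∑ x : Fin w → X, prw gam x *
        ∑ s, lam s * (ψ s * Real.log (cell lam (plab Y) (plab Y) (fun _ => 1) x h s)) := by
  have hτ := M.hτ
  have hτ1 := M.hτ1
  have hne : Nonempty S := by
    by_contra h
    rw [not_nonempty_iff] at h
    have := M.lam_sum
    simp at this
  have hwk : (0 : ℝ) ≤ (w + k : ℝ) := by positivity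
  have hr0 : rad 0 = 2 := by simp [rad]
  have hlog6 : Real.log 3 + Real.log 2 ≤ 3 := by
    have h1 := Real.log_le_sub_one_of_pos (show (0 : ℝ) < 3 by norm_num)
    have h2 := Real.log_le_sub_one_of_pos (show (0 : ℝ) < 2 by norm_num)
    linarith
  have hA : ∀ s, (w + k : ℝ) * Real.log τ - (C1 + 4) * (w + k : ℝ) ≤
      PC.Av gam gam' (fun (x : Fin w → X) (h : Fin k → X) =>
        Real.log (PC.Phi lam (PC.sg τ) 0 (PC.yy Y x h) (PC.yy Y x h s))) := by
    intro s
    refine le_trans ?_ (PC.avg_logPhi M w k 0 lam M.lam_pos 0 le_rfl (by rw [hr0]; linarith) s)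
    have hbm : bm vs lam s (rad 0) = 1 := by
      unfold bm
      rw [← M.lam_sum]
      refine Finset.sum_congr rfl fun s' _ => if_pos ?_
      rw [hr0]
      calc ‖vs s' - vs s‖ ≤ ‖vs s'‖ + ‖vs s‖ := norm_sub_le _ _
        _ ≤ 2 := by linarith [M.vs_le s, M.vs_le s']
    rw [hbm, hr0, Real.log_mul (by norm_num) (by positivity), Real.log_div (by norm_num) hτ.ne']
    simp only [Nat.cast_zero, zero_add, Real.log_one, neg_zero]
    nlinarith
  have h := PC.core M w k 0 lam M.lam_pos M.lam_sum ψ hψ0 hψ1 hne _ hA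
  have h0 : 0 ≤ ∑ s, lam s * ψ s := Finset.sum_nonneg fun s _ => mul_nonneg (M.lam_pos s).le (hψ0 s)
  have e : (∑ s, lam s * (ψ s * ((w + k : ℝ) * Real.log τ - (C1 + 4) * (w + k : ℝ)))) =
      (∑ s, lam s * ψ s) * ((w + k : ℝ) * Real.log τ - (C1 + 4) * (w + k : ℝ)) := by
    rw [Finset.sum_mul]
    exact Finset.sum_congr rfl fun s _ => by ring
  rw [e] at h
  linarith

end final

end Vale.Agent.Mem
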