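import Vale.Agent.Mem.Defs

/-!
# P309, PART F: bad_prob
-/

namespace Vale.Agent.Mem

open Finset
open scoped InnerProductSpace

namespace F

/-- A maximal separated subset: every element of `A` is within `ρ` of an element of `C`, and the
elements of `C` are at pairwise distance `> ρ`. -/
theorem exists_sep {S : Type} {d : ℕ} (p : S → E d) (ρ : ℝ) (hρ : 0 ≤ ρ) (A : Finset S) :
    ∃ C ⊆ A, (∀ s ∈ A, ∃ c ∈ C, ‖p s - p c‖ ≤ ρ) ∧
      ∀ c ∈ C, ∀ c' ∈ C, c ≠ c' → ρ < ‖p c - p c'‖ := by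
  classical
  induction A using Finset.induction_on with
  | empty => exact ⟨∅, Finset.Subset.refl _, by simp, by simp⟩
  | insert a A ha ih =>
    obtain ⟨C, hC, h1, h2⟩ := ih
    by_cases h : ∃ c ∈ C, ‖p a - p c‖ ≤ ρ
    · refine ⟨C, hC.trans (Finset.subset_insert _ _), fun s hs => ?_, h2⟩
      rcases Finset.mem_insert.1 hs with rfl | hs
      · exact h
      · exact h1 s hs
    · push Not at h
      refine ⟨insert a C, Finset.insert_subset_insert _ hC, fun s hs => ?_, ?_⟩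
      · rcases Finset.mem_insert.1 hs with rfl | hs
        · exact ⟨s, Finset.mem_insert_self _ _, by rw [sub_self, norm_zero]; exact hρ⟩
        · obtain ⟨c, hc, h3⟩ := h1 s hs
          exact ⟨c, Finset.mem_insert_of_mem hc, h3⟩
      · intro c hc c' hc' hne
        rcases Finset.mem_insert.1 hc with h3 | h3
        · rcases Finset.mem_insert.1 hc' with h4 | h4
          · exact absurd (h3.trans h4.symm) hne
          · rw [h3]; exact h c' h4
        · rcases Finset.mem_insert.1 hc' with h4 | h4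
          · rw [h4, norm_sub_rev]; exact h c h3
          · exact h2 c h3 c' h4 hne

end F

theorem bad_prob {S H : Type} [Fintype S] [Fintype H] {d : ℕ} (p : S → E d) (P : S → ℝ)
    (hP : ∀ s, 0 ≤ P s) (r B : ℝ) (hr : 0 < r)
    (hB : 0 < B) (A : Finset S) (hA : ∀ s ∈ A, r / 2 < ‖p s‖ ∧ ‖p s‖ ≤ r)
    (hAB : ∑ s ∈ A, P s ≤ B) (l v k : ℕ) (eta : H → ℝ) (heta : ∀ h, 0 ≤ eta h)
    (hit : H → S → Prop) (τ CH : ℝ) (hCH : 0 ≤ CH) (hl : τ ≤ 2 * r / 2 ^ l)
    (hH : ∀ c : E d, c ≠ 0 → ‖c‖ ≤ r → ∀ ρ, τ ≤ ρ →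
      ∑ h, eta h * (open Classical in if ∃ s, hit h s ∧ ‖p s - c‖ ≤ ρ then 1 else 0) ≤
        (CH * ρ / ‖c‖) ^ k) :
    ∑ h, eta h * (open Classical in if ∃ s ∈ A, hit h s ∧
        B / 2 ^ (l * v) < ∑ s' ∈ A, (if ‖p s' - p s‖ ≤ r / 2 ^ l then P s' else 0)
        then 1 else 0) ≤
      2 ^ (l * v) * (4 * CH / 2 ^ l) ^ k := by
  classical
  set δ := r / 2 ^ l with hδ
  have hδ0 : 0 < δ := by positivity
  set Bad := A.filter fun s => B / 2 ^ (l * v) < ∑ s' ∈ A, (if ‖p s' - p s‖ ≤ δ then P s' else 0)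
    with hBad
  obtain ⟨C, hC, h1, h2⟩ := F.exists_sep p (2 * δ) (by positivity) Bad
  have hCA : ∀ c ∈ C, c ∈ A := fun c hc => (Finset.mem_filter.1 (hC hc)).1
  -- number of centres
  have hcard : (C.card : ℝ) ≤ 2 ^ (l * v) := by
    have h3 : (C.card : ℝ) * (B / 2 ^ (l * v)) ≤ B := by
      calc (C.card : ℝ) * (B / 2 ^ (l * v)) = ∑ c ∈ C, B / 2 ^ (l * v) := by
            rw [Finset.sum_const, nsmul_eq_mul]
        _ ≤ ∑ c ∈ C, ∑ s' ∈ A, (if ‖p s' - p c‖ ≤ δ then P s' else 0) :=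
            Finset.sum_le_sum fun c hc => (Finset.mem_filter.1 (hC hc)).2.le
        _ = ∑ s' ∈ A, ∑ c ∈ C, (if ‖p s' - p c‖ ≤ δ then P s' else 0) := Finset.sum_comm
        _ ≤ ∑ s' ∈ A, P s' := by
            refine Finset.sum_le_sum fun s' _ => ?_
            by_cases h : ∃ c ∈ C, ‖p s' - p c‖ ≤ δ
            · obtain ⟨c, hc, hcs⟩ := h
              rw [Finset.sum_eq_single c]
              · rw [if_pos hcs]
              · intro c' hc' hne
                rw [if_neg]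
                intro h4
                have h5 := h2 c hc c' hc' hne.symm
                have h6 : ‖p c - p c'‖ ≤ ‖p s' - p c‖ + ‖p s' - p c'‖ := by
                  have : p c - p c' = (p s' - p c') - (p s' - p c) := by abel
                  rw [this]
                  exact (norm_sub_le _ _).trans (le_of_eq (add_comm _ _))
                linarith
              · intro h; exact absurd hc h
            · push Not at h
              rw [Finset.sum_eq_zero fun c hc => if_neg (not_le.2 (h c hc))]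
              exact hP s'
        _ ≤ B := hAB
    rw [mul_div_assoc', div_le_iff₀ (by positivity), mul_comm] at h3
    exact le_of_mul_le_mul_left h3 hB
  have hpt : ∀ h, (if ∃ s ∈ A, hit h s ∧
        B / 2 ^ (l * v) < ∑ s' ∈ A, (if ‖p s' - p s‖ ≤ δ then P s' else 0)
        then (1 : ℝ) else 0) ≤
      ∑ c ∈ C, (if ∃ s, hit h s ∧ ‖p s - p c‖ ≤ 2 * δ then 1 else 0) := by
    intro h
    have h0 : ∀ c ∈ C, (0 : ℝ) ≤ (if ∃ s, hit h s ∧ ‖p s - p c‖ ≤ 2 * δ then 1 else 0) := by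
      intro c _
      split_ifs <;> norm_num
    by_cases hc : ∃ s ∈ A, hit h s ∧
        B / 2 ^ (l * v) < ∑ s' ∈ A, (if ‖p s' - p s‖ ≤ δ then P s' else 0)
    · rw [if_pos hc]
      obtain ⟨s, hs, hh, hb⟩ := hc
      obtain ⟨c, hc, hcs⟩ := h1 s (Finset.mem_filter.2 ⟨hs, hb⟩)
      calc (1 : ℝ) = (if ∃ s, hit h s ∧ ‖p s - p c‖ ≤ 2 * δ then 1 else 0) := by
            rw [if_pos ⟨s, hh, hcs⟩]
        _ ≤ _ := Finset.single_le_sum h0 hc
    · rw [if_neg hc]
      exact Finset.sum_nonneg h0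
  calc ∑ h, eta h * (if ∃ s ∈ A, hit h s ∧
        B / 2 ^ (l * v) < ∑ s' ∈ A, (if ‖p s' - p s‖ ≤ δ then P s' else 0)
        then (1 : ℝ) else 0)
      ≤ ∑ h, eta h * ∑ c ∈ C, (if ∃ s, hit h s ∧ ‖p s - p c‖ ≤ 2 * δ then 1 else 0) :=
        Finset.sum_le_sum fun h _ => mul_le_mul_of_nonneg_left (hpt h) (heta h)
    _ = ∑ c ∈ C, ∑ h, eta h * (if ∃ s, hit h s ∧ ‖p s - p c‖ ≤ 2 * δ then 1 else 0) := by
        simp only [Finset.mul_sum]
        rw [Finset.sum_comm]
    _ ≤ ∑ c ∈ C, (4 * CH / 2 ^ l) ^ k := by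
        refine Finset.sum_le_sum fun c hc => ?_
        have hcA := hA c (hCA c hc)
        have hc0 : p c ≠ 0 := by
          intro h0
          rw [h0, norm_zero] at hcA
          linarith [hcA.1]
        have hn0 : 0 < ‖p c‖ := norm_pos_iff.2 hc0
        have h3 := hH (p c) hc0 hcA.2 (2 * δ) (hl.trans (by rw [hδ]; exact le_of_eq (by ring)))
        refine h3.trans (pow_le_pow_left₀ (by positivity) ?_ k)
        rw [div_le_iff₀ hn0]
        have h4 : CH * (2 * δ) = 4 * CH / 2 ^ l * (r / 2) := by rw [hδ]; ring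
        rw [h4]
        exact mul_le_mul_of_nonneg_left hcA.1.le (by positivity)
    _ = C.card * (4 * CH / 2 ^ l) ^ k := by rw [Finset.sum_const, nsmul_eq_mul]
    _ ≤ 2 ^ (l * v) * (4 * CH / 2 ^ l) ^ k := mul_le_mul_of_nonneg_right hcard (by positivity)

end Vale.Agent.Mem
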