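import Vale.Agent.Mem.Defs

/-!
# P309 Part G: the auxiliary rows separate small balls (`aux_hit`)
-/

namespace Vale.Agent.Mem

open Finset
open scoped InnerProductSpace

namespace AuxHit

/-- derandomised rounding -/
lemma round_vec {ι J : Type} [Fintype J] [DecidableEq ι] (A : J → ι → ℝ) (θ : ι → ℝ)
    (h0 : ∀ i, 0 ≤ θ i) (h1 : ∀ i, θ i ≤ 1) (s : Finset ι) :
    ∃ e : ι → ℤ, (∀ i, e i = 0 ∨ e i = 1) ∧
      ∑ j, (∑ i ∈ s, ((e i : ℝ) - θ i) * A j i) ^ 2 ≤ (1 / 4) * ∑ i ∈ s, ∑ j, A j i ^ 2 := by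
  classical
  induction s using Finset.induction_on with
  | empty => exact ⟨fun _ => 0, fun _ => Or.inl rfl, by simp⟩
  | insert a s ha ih =>
    obtain ⟨e, he, hb⟩ := ih
    set B : J → ℝ := fun j => ∑ i ∈ s, ((e i : ℝ) - θ i) * A j i with hB
    have key : ∀ t : ℝ, ∑ j, (t * A j a + B j) ^ 2 =
        t ^ 2 * (∑ j, A j a ^ 2) + 2 * t * (∑ j, A j a * B j) + ∑ j, B j ^ 2 := by
      intro t
      rw [Finset.mul_sum, Finset.mul_sum, ← Finset.sum_add_distrib, ← Finset.sum_add_distrib]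
      exact Finset.sum_congr rfl fun j _ => by ring
    have hA : 0 ≤ ∑ j, A j a ^ 2 := Finset.sum_nonneg fun j _ => sq_nonneg _
    have hor : (∑ j, ((1 - θ a) * A j a + B j) ^ 2 ≤ (1 / 4) * (∑ j, A j a ^ 2) + ∑ j, B j ^ 2) ∨
        (∑ j, ((0 - θ a) * A j a + B j) ^ 2 ≤ (1 / 4) * (∑ j, A j a ^ 2) + ∑ j, B j ^ 2) := by
      by_contra hcon
      push Not at hcon
      obtain ⟨hc1, hc2⟩ := hcon
      rw [key] at hc1 hc2
      have h0a := h0 a
      have h1a := h1 a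
      have e1 : θ a * ((1 - θ a) ^ 2 * (∑ j, A j a ^ 2) + 2 * (1 - θ a) * (∑ j, A j a * B j) +
          ∑ j, B j ^ 2) + (1 - θ a) * ((0 - θ a) ^ 2 * (∑ j, A j a ^ 2) +
          2 * (0 - θ a) * (∑ j, A j a * B j) + ∑ j, B j ^ 2) =
          (θ a * (1 - θ a)) * (∑ j, A j a ^ 2) + ∑ j, B j ^ 2 := by ring
      have e2 : (θ a * (1 - θ a)) * (∑ j, A j a ^ 2) ≤ (1 / 4) * (∑ j, A j a ^ 2) :=
        mul_le_mul_of_nonneg_right (by nlinarith [sq_nonneg (θ a - 1 / 2)]) hA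
      rcases lt_or_eq_of_le h0a with hpos | hzero
      · have := mul_lt_mul_of_pos_left hc1 hpos
        have := mul_le_mul_of_nonneg_left hc2.le (sub_nonneg.2 h1a)
        nlinarith
      · rw [← hzero] at hc2 e2
        nlinarith
    have hrest : ∀ v : ℤ, ∀ j, ∑ i ∈ s, (((Function.update e a v) i : ℝ) - θ i) * A j i = B j := by
      intro v j
      apply Finset.sum_congr rfl
      intro i hi
      have : i ≠ a := fun h => ha (h ▸ hi)
      rw [Function.update_of_ne this]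
    have hfin : ∀ v : ℤ, (v = 0 ∨ v = 1) →
        ∑ j, (((v : ℝ) - θ a) * A j a + B j) ^ 2 ≤ (1 / 4) * (∑ j, A j a ^ 2) + ∑ j, B j ^ 2 →
        ∃ e : ι → ℤ, (∀ i, e i = 0 ∨ e i = 1) ∧
          ∑ j, (∑ i ∈ insert a s, ((e i : ℝ) - θ i) * A j i) ^ 2 ≤
            (1 / 4) * ∑ i ∈ insert a s, ∑ j, A j i ^ 2 := by
      intro v hv hle
      refine ⟨Function.update e a v, ?_, ?_⟩
      · intro i
        by_cases hi : i = a
        · subst hi; simpa using hv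
        · rw [Function.update_of_ne hi]; exact he i
      · rw [Finset.sum_insert ha]
        have : ∀ j, ∑ i ∈ insert a s, (((Function.update e a v) i : ℝ) - θ i) * A j i =
            ((v : ℝ) - θ a) * A j a + B j := by
          intro j
          rw [Finset.sum_insert ha, hrest v j]
          simp
        rw [Finset.sum_congr rfl fun j _ => by rw [this j]]
        linarith
    rcases hor with h | h
    · exact hfin 1 (Or.inr rfl) (by simpa using h)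
    · exact hfin 0 (Or.inl rfl) (by simpa using h)

/-- sum of `2 ^ (-|n|)` over a finite interval of integers -/
lemma sum_half (N : ℕ) : ∑ n ∈ Finset.Icc (-(N : ℤ)) N, (1 / 2 : ℝ) ^ n.natAbs ≤ 4 := by
  classical
  have hsub : Finset.Icc (-(N : ℤ)) N ⊆
      (Finset.range (N + 1)).image (fun n : ℕ => (n : ℤ)) ∪
      (Finset.range (N + 1)).image (fun n : ℕ => -(n : ℤ)) := by
    intro z hz
    rw [Finset.mem_Icc] at hz
    rw [Finset.mem_union, Finset.mem_image, Finset.mem_image]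
    rcases le_total 0 z with h | h
    · left
      exact ⟨z.natAbs, by rw [Finset.mem_range]; omega, by omega⟩
    · right
      exact ⟨z.natAbs, by rw [Finset.mem_range]; omega, by omega⟩
  have hgeo : ∑ n ∈ Finset.range (N + 1), (1 / 2 : ℝ) ^ n ≤ 2 := by
    have := geom_sum_eq (by norm_num : (1 / 2 : ℝ) ≠ 1) (N + 1)
    rw [this]
    have : (0 : ℝ) < (1 / 2) ^ (N + 1) := by positivity
    rw [div_le_iff_of_neg (by norm_num)]
    linarith
  calc ∑ n ∈ Finset.Icc (-(N : ℤ)) N, (1 / 2 : ℝ) ^ n.natAbs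
      ≤ ∑ n ∈ (Finset.range (N + 1)).image (fun n : ℕ => (n : ℤ)) ∪
          (Finset.range (N + 1)).image (fun n : ℕ => -(n : ℤ)), (1 / 2 : ℝ) ^ n.natAbs :=
        Finset.sum_le_sum_of_subset_of_nonneg hsub fun _ _ _ => by positivity
    _ ≤ ∑ n ∈ (Finset.range (N + 1)).image (fun n : ℕ => (n : ℤ)), (1 / 2 : ℝ) ^ n.natAbs +
          ∑ n ∈ (Finset.range (N + 1)).image (fun n : ℕ => -(n : ℤ)), (1 / 2 : ℝ) ^ n.natAbs := by
        rw [← Finset.sum_union_inter]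
        have : 0 ≤ ∑ n ∈ (Finset.range (N + 1)).image (fun n : ℕ => (n : ℤ)) ∩
          (Finset.range (N + 1)).image (fun n : ℕ => -(n : ℤ)), (1 / 2 : ℝ) ^ n.natAbs :=
          Finset.sum_nonneg fun _ _ => by positivity
        linarith
    _ = ∑ n ∈ Finset.range (N + 1), (1 / 2 : ℝ) ^ n + ∑ n ∈ Finset.range (N + 1), (1 / 2 : ℝ) ^ n := by
        rw [Finset.sum_image (by intro a _ b _ h; simpa using h),
          Finset.sum_image (by intro a _ b _ h; simpa using h)]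
        simp
    _ ≤ 4 := by linarith

/-- integer points of the `ℓ¹`-ball of radius `3 d` -/
noncomputable def pts (d : ℕ) : Finset (Fin d → ℤ) :=
  (Fintype.piFinset fun _ : Fin d => Finset.Icc (-((3 * d : ℕ) : ℤ)) ((3 * d : ℕ) : ℤ)).filter
    fun y => ∑ i, (y i).natAbs ≤ 3 * d

lemma mem_pts {d : ℕ} {y : Fin d → ℤ} (h : ∑ i, (y i).natAbs ≤ 3 * d) : y ∈ pts d := by
  rw [pts, Finset.mem_filter, Fintype.mem_piFinset]
  refine ⟨fun i => ?_, h⟩
  have : (y i).natAbs ≤ ∑ i, (y i).natAbs :=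
    Finset.single_le_sum (f := fun i => (y i).natAbs) (fun _ _ => Nat.zero_le _) (Finset.mem_univ i)
  rw [Finset.mem_Icc]
  omega

lemma card_pts (d : ℕ) : ((pts d).card : ℝ) ≤ 32 ^ d := by
  classical
  have h1 : ∀ y ∈ pts d, (1 : ℝ) ≤ 2 ^ (3 * d) * ∏ i, (1 / 2 : ℝ) ^ (y i).natAbs := by
    intro y hy
    rw [pts, Finset.mem_filter] at hy
    rw [Finset.prod_pow_eq_pow_sum]
    have : (1 / 2 : ℝ) ^ (3 * d) ≤ (1 / 2 : ℝ) ^ (∑ i, (y i).natAbs) :=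
      pow_le_pow_of_le_one (by norm_num) (by norm_num) hy.2
    calc (1 : ℝ) = 2 ^ (3 * d) * (1 / 2 : ℝ) ^ (3 * d) := by
          rw [← mul_pow]; norm_num
      _ ≤ _ := mul_le_mul_of_nonneg_left this (by positivity)
  calc ((pts d).card : ℝ) = ∑ y ∈ pts d, (1 : ℝ) := by simp
    _ ≤ ∑ y ∈ pts d, 2 ^ (3 * d) * ∏ i, (1 / 2 : ℝ) ^ (y i).natAbs := Finset.sum_le_sum h1
    _ ≤ ∑ y ∈ Fintype.piFinset fun _ : Fin d => Finset.Icc (-((3 * d : ℕ) : ℤ)) ((3 * d : ℕ) : ℤ),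
          2 ^ (3 * d) * ∏ i, (1 / 2 : ℝ) ^ (y i).natAbs :=
        Finset.sum_le_sum_of_subset_of_nonneg (Finset.filter_subset _ _) fun _ _ _ => by positivity
    _ = 2 ^ (3 * d) * ∏ _i : Fin d, ∑ n ∈ Finset.Icc (-((3 * d : ℕ) : ℤ)) ((3 * d : ℕ) : ℤ),
          (1 / 2 : ℝ) ^ n.natAbs := by
        rw [← Finset.mul_sum, Finset.prod_univ_sum]
    _ ≤ 2 ^ (3 * d) * ∏ _i : Fin d, (4 : ℝ) := by
        apply mul_le_mul_of_nonneg_left _ (by positivity)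
        exact Finset.prod_le_prod (fun _ _ => Finset.sum_nonneg fun _ _ => by positivity)
          fun _ _ => sum_half _
    _ = 32 ^ d := by
        rw [Finset.prod_const, Finset.card_univ, Fintype.card_fin, pow_mul, ← mul_pow]
        norm_num

/-- exponential moment of one row -/
lemma one_row {X : Type} [Fintype X] {d : ℕ} (C1 : ℝ) (τ ρ : ℝ) (hρ : 0 < ρ) (hτρ : τ ≤ ρ)
    (vx : X → E d) (gam' : X → ℝ) (hg : ∀ x, 0 ≤ gam' x) (u : E d)
    (hs : ∀ σ : ℝ, τ ≤ σ →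
      ∑ x, gam' x * (if |⟪vx x, u⟫_ℝ| ≤ σ then 1 else 0) ≤ C1 * σ / ‖u‖) (hC1 : 0 ≤ C1) :
    ∑ x, gam' x * (1 / 4 : ℝ) ^ ⌊|⟪vx x, u⟫_ℝ| / ρ⌋₊ ≤ 2 * C1 * ρ / ‖u‖ := by
  classical
  set f : X → ℕ := fun x => ⌊|⟪vx x, u⟫_ℝ| / ρ⌋₊ with hf
  set N : ℕ := (Finset.univ.sup f) + 1 with hN
  have hfN : ∀ x, f x < N := fun x => Nat.lt_succ_of_le (Finset.le_sup (Finset.mem_univ x))
  have hpt : ∀ x, (1 / 4 : ℝ) ^ f x ≤ ∑ i ∈ Finset.range N, (1 / 4 : ℝ) ^ i *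
      (if |⟪vx x, u⟫_ℝ| ≤ ((i : ℝ) + 1) * ρ then 1 else 0) := by
    intro x
    have h1 : |⟪vx x, u⟫_ℝ| ≤ ((f x : ℝ) + 1) * ρ := by
      have := Nat.lt_floor_add_one (|⟪vx x, u⟫_ℝ| / ρ)
      rw [div_lt_iff₀ hρ] at this
      exact this.le
    have h2 := Finset.single_le_sum (f := fun i : ℕ => (1 / 4 : ℝ) ^ i *
      (if |⟪vx x, u⟫_ℝ| ≤ ((i : ℝ) + 1) * ρ then 1 else 0)) (s := Finset.range N)
      (fun i _ => by positivity) (Finset.mem_range.2 (hfN x))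
    simp only [if_pos h1, mul_one] at h2
    exact h2
  calc ∑ x, gam' x * (1 / 4 : ℝ) ^ f x
      ≤ ∑ x, gam' x * ∑ i ∈ Finset.range N, (1 / 4 : ℝ) ^ i *
          (if |⟪vx x, u⟫_ℝ| ≤ ((i : ℝ) + 1) * ρ then 1 else 0) :=
        Finset.sum_le_sum fun x _ => mul_le_mul_of_nonneg_left (hpt x) (hg x)
    _ = ∑ i ∈ Finset.range N, (1 / 4 : ℝ) ^ i * ∑ x, gam' x *
          (if |⟪vx x, u⟫_ℝ| ≤ ((i : ℝ) + 1) * ρ then 1 else 0) := by
        simp only [Finset.mul_sum]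
        rw [Finset.sum_comm]
        exact Finset.sum_congr rfl fun i _ => Finset.sum_congr rfl fun x _ => by ring
    _ ≤ ∑ i ∈ Finset.range N, (C1 * ρ / ‖u‖) * (1 / 2 : ℝ) ^ i := by
        apply Finset.sum_le_sum
        intro i _
        have h1 : τ ≤ ((i : ℝ) + 1) * ρ := by nlinarith [(Nat.cast_nonneg i : (0 : ℝ) ≤ i)]
        have h2 := hs _ h1
        have h3 : ((i : ℝ) + 1) ≤ 2 ^ i := by
          exact_mod_cast Nat.lt_two_pow_self
        have h4 : 0 ≤ C1 * ρ / ‖u‖ := by positivity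
        calc (1 / 4 : ℝ) ^ i * ∑ x, gam' x * (if |⟪vx x, u⟫_ℝ| ≤ ((i : ℝ) + 1) * ρ then 1 else 0)
            ≤ (1 / 4 : ℝ) ^ i * (C1 * (((i : ℝ) + 1) * ρ) / ‖u‖) :=
              mul_le_mul_of_nonneg_left h2 (by positivity)
          _ = (C1 * ρ / ‖u‖) * ((1 / 4 : ℝ) ^ i * ((i : ℝ) + 1)) := by ring
          _ ≤ (C1 * ρ / ‖u‖) * ((1 / 4 : ℝ) ^ i * 2 ^ i) := by gcongr
          _ = (C1 * ρ / ‖u‖) * (1 / 2 : ℝ) ^ i := by rw [← mul_pow]; norm_num
    _ = (C1 * ρ / ‖u‖) * ∑ i ∈ Finset.range N, (1 / 2 : ℝ) ^ i := by rw [Finset.mul_sum]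
    _ ≤ (C1 * ρ / ‖u‖) * 2 := by
        apply mul_le_mul_of_nonneg_left _ (by positivity)
        rw [geom_sum_eq (by norm_num : (1 / 2 : ℝ) ≠ 1) N]
        have : (0 : ℝ) < (1 / 2) ^ N := by positivity
        rw [div_le_iff_of_neg (by norm_num)]
        linarith
    _ = 2 * C1 * ρ / ‖u‖ := by ring

/-- exponential moment of `k` rows -/
lemma rows_pow {X : Type} [Fintype X] (gam' : X → ℝ) (φ : X → ℝ) (k : ℕ) :
    ∑ h : Fin k → X, prw gam' h * ∏ i, φ (h i) = (∑ x, gam' x * φ x) ^ k := by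
  rw [Fintype.sum_pow]
  exact Finset.sum_congr rfl fun h _ => by rw [prw, Finset.prod_mul_distrib]

/-- the integer point near `v / δ` -/
lemma exists_point {X : Type} {d k : ℕ} (hd : 1 ≤ d) (τ ρ : ℝ) (hτ : 0 < τ)
    (hτρ : τ ≤ ρ) (vx : X → E d) (h : Fin k → X) (hn : ∀ i, ‖vx (h i)‖ ^ 2 ≤ 8 * d) (c v : E d)
    (hv : ‖v - c‖ ≤ ρ) (hh : ∀ i, |⟪vx (h i), v⟫_ℝ| ≤ τ) :
    ∃ y ∈ pts d, ‖(WithLp.toLp 2 (fun i => (ρ / √d) * ((⌊c i / (ρ / √d)⌋ + y i : ℤ) : ℝ)) : E d) - c‖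
        ≤ 2 * ρ ∧
      ∑ j, ⌊|⟪vx (h j), (WithLp.toLp 2 (fun i => (ρ / √d) * ((⌊c i / (ρ / √d)⌋ + y i : ℤ) : ℝ)) :
        E d)⟫_ℝ| / ρ⌋₊ ≤ 3 * k := by
  classical
  have hρ : 0 < ρ := hτ.trans_le hτρ
  have hd0 : (0 : ℝ) < d := by exact_mod_cast hd
  have hsd : 0 < √(d : ℝ) := Real.sqrt_pos.2 hd0
  set δ : ℝ := ρ / √d with hδ
  have hδ0 : 0 < δ := div_pos hρ hsd
  have hδ2 : δ ^ 2 * d = ρ ^ 2 := by
    rw [hδ, div_pow, Real.sq_sqrt hd0.le]
    field_simp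
  obtain ⟨e, he, hb⟩ := round_vec (fun j i => δ * (vx (h j)) i) (fun i => Int.fract (v i / δ))
    (fun i => Int.fract_nonneg _) (fun i => (Int.fract_lt_one _).le) Finset.univ
  set y : Fin d → ℤ := fun i => ⌊v i / δ⌋ + e i - ⌊c i / δ⌋ with hy
  have hw : (WithLp.toLp 2 (fun i => δ * ((⌊c i / δ⌋ + y i : ℤ) : ℝ)) : E d) =
      WithLp.toLp 2 (fun i => δ * ((⌊v i / δ⌋ + e i : ℤ) : ℝ)) := by
    congr 1
    funext i
    rw [hy]
    congr 2
    ring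
  set w : E d := WithLp.toLp 2 (fun i => δ * ((⌊v i / δ⌋ + e i : ℤ) : ℝ)) with hwdef
  have hwv : ∀ i, w i - v i = δ * ((e i : ℝ) - Int.fract (v i / δ)) := by
    intro i
    have h1 : w i = δ * ((⌊v i / δ⌋ + e i : ℤ) : ℝ) := rfl
    have h2 : v i = δ * (v i / δ) := by field_simp
    have h3 : (⌊v i / δ⌋ : ℝ) + Int.fract (v i / δ) = v i / δ := Int.floor_add_fract _
    rw [h1]
    push_cast
    calc δ * ((⌊v i / δ⌋ : ℝ) + e i) - v i = δ * ((⌊v i / δ⌋ : ℝ) + e i) - δ * (v i / δ) := by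
          rw [← h2]
      _ = δ * ((⌊v i / δ⌋ : ℝ) + e i) - δ * ((⌊v i / δ⌋ : ℝ) + Int.fract (v i / δ)) := by rw [h3]
      _ = _ := by ring
  have hfr : ∀ i, ((e i : ℝ) - Int.fract (v i / δ)) ^ 2 ≤ 1 := by
    intro i
    have h1 := Int.fract_nonneg (v i / δ)
    have h2 := (Int.fract_lt_one (v i / δ)).le
    rcases he i with h | h <;> rw [h] <;> push_cast <;> nlinarith
  have hnorm1 : ‖w - v‖ ≤ ρ := by
    have h1 : ‖w - v‖ ^ 2 ≤ ρ ^ 2 := by
      rw [EuclideanSpace.real_norm_sq_eq]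
      calc ∑ i, (w - v).ofLp i ^ 2 = ∑ i, δ ^ 2 * ((e i : ℝ) - Int.fract (v i / δ)) ^ 2 := by
            apply Finset.sum_congr rfl
            intro i _
            rw [PiLp.sub_apply, hwv i]
            ring
        _ ≤ ∑ _i : Fin d, δ ^ 2 * 1 :=
            Finset.sum_le_sum fun i _ => mul_le_mul_of_nonneg_left (hfr i) (sq_nonneg _)
        _ = ρ ^ 2 := by
            rw [← hδ2]
            simp
            ring
    exact le_of_sq_le_sq h1 hρ.le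
  have hnorm2 : ‖w - c‖ ≤ 2 * ρ := by
    calc ‖w - c‖ = ‖(w - v) + (v - c)‖ := by congr 1; abel
      _ ≤ ‖w - v‖ + ‖v - c‖ := norm_add_le _ _
      _ ≤ 2 * ρ := by linarith
  refine ⟨y, ?_, ?_, ?_⟩
  · apply mem_pts
    have h1 : ∀ i, ((y i).natAbs : ℝ) ≤ |w i - c i| / δ + 1 := by
      intro i
      have h2 : ((y i).natAbs : ℝ) = |(y i : ℝ)| := by
        rw [← Int.cast_abs, Nat.cast_natAbs]
      have h3 : w i = δ * ((⌊v i / δ⌋ + e i : ℤ) : ℝ) := rfl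
      have h4 : (y i : ℝ) = (w i - c i) / δ + Int.fract (c i / δ) := by
        rw [h3, hy]
        have h5 : (⌊c i / δ⌋ : ℝ) + Int.fract (c i / δ) = c i / δ := Int.floor_add_fract _
        have h6 : Int.fract (c i / δ) = c i / δ - ⌊c i / δ⌋ := by linarith
        rw [h6]
        push_cast
        field_simp
        ring
      rw [h2, h4]
      calc |(w i - c i) / δ + Int.fract (c i / δ)| ≤ |(w i - c i) / δ| + |Int.fract (c i / δ)| :=
            abs_add_le _ _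
        _ = |w i - c i| / δ + Int.fract (c i / δ) := by
            rw [abs_div, abs_of_pos hδ0, abs_of_nonneg (Int.fract_nonneg (c i / δ))]
        _ ≤ |w i - c i| / δ + 1 := by linarith [Int.fract_lt_one (c i / δ)]
    have h2 : ∑ i, |w i - c i| ≤ 2 * d * δ := by
      have h3 : (∑ i, |w i - c i|) ^ 2 ≤ (2 * d * δ) ^ 2 := by
        calc (∑ i, |w i - c i|) ^ 2 ≤ (Finset.univ : Finset (Fin d)).card * ∑ i, |w i - c i| ^ 2 :=
              sq_sum_le_card_mul_sum_sq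
          _ = d * ‖w - c‖ ^ 2 := by
              rw [EuclideanSpace.real_norm_sq_eq]
              simp
          _ ≤ d * (2 * ρ) ^ 2 := by gcongr
          _ = d * 4 * (δ ^ 2 * d) := by rw [hδ2]; ring
          _ = (2 * d * δ) ^ 2 := by ring
      exact le_of_sq_le_sq h3 (by positivity)
    have h3 : ((∑ i, (y i).natAbs : ℕ) : ℝ) ≤ ((3 * d : ℕ) : ℝ) := by
      push_cast
      calc ∑ i, ((y i).natAbs : ℝ) ≤ ∑ i, (|w i - c i| / δ + 1) := Finset.sum_le_sum fun i _ => h1 i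
        _ = (∑ i, |w i - c i|) / δ + d := by
            rw [Finset.sum_add_distrib, Finset.sum_div]; simp
        _ ≤ (2 * d * δ) / δ + d := by gcongr
        _ = 3 * d := by field_simp; ring
    exact_mod_cast h3
  · rw [hw]; exact hnorm2
  · rw [hw]
    have hq : ∑ j, ⟪vx (h j), w⟫_ℝ ^ 2 ≤ 6 * k * ρ ^ 2 := by
      have h1 : ∑ j, ⟪vx (h j), w - v⟫_ℝ ^ 2 ≤ 2 * k * ρ ^ 2 := by
        calc ∑ j, ⟪vx (h j), w - v⟫_ℝ ^ 2
            = ∑ j, (∑ i, ((e i : ℝ) - Int.fract (v i / δ)) * (δ * (vx (h j)) i)) ^ 2 := by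
              apply Finset.sum_congr rfl
              intro j _
              congr 1
              rw [PiLp.inner_apply]
              apply Finset.sum_congr rfl
              intro i _
              rw [PiLp.sub_apply, hwv i]
              simp
              ring
          _ ≤ (1 / 4) * ∑ i, ∑ j, (δ * (vx (h j)) i) ^ 2 := hb
          _ = (1 / 4) * ∑ j, δ ^ 2 * ‖vx (h j)‖ ^ 2 := by
              rw [Finset.sum_comm]
              congr 1
              apply Finset.sum_congr rfl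
              intro j _
              rw [EuclideanSpace.real_norm_sq_eq, Finset.mul_sum]
              exact Finset.sum_congr rfl fun i _ => by ring
          _ ≤ (1 / 4) * ∑ _j : Fin k, δ ^ 2 * (8 * d) := by
              gcongr with j
              exact hn j
          _ = 2 * k * ρ ^ 2 := by
              rw [← hδ2]
              simp
              ring
      have h2 : ∑ j, ⟪vx (h j), v⟫_ℝ ^ 2 ≤ k * ρ ^ 2 := by
        calc ∑ j, ⟪vx (h j), v⟫_ℝ ^ 2 ≤ ∑ _j : Fin k, ρ ^ 2 := by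
              apply Finset.sum_le_sum
              intro j _
              rw [← sq_abs]
              have := hh j
              gcongr
              exact this.trans hτρ
          _ = k * ρ ^ 2 := by simp
      calc ∑ j, ⟪vx (h j), w⟫_ℝ ^ 2
          ≤ ∑ j, (2 * ⟪vx (h j), w - v⟫_ℝ ^ 2 + 2 * ⟪vx (h j), v⟫_ℝ ^ 2) := by
            apply Finset.sum_le_sum
            intro j _
            have : ⟪vx (h j), w⟫_ℝ = ⟪vx (h j), w - v⟫_ℝ + ⟪vx (h j), v⟫_ℝ := by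
              rw [← inner_add_right]
              congr 1
              abel
            rw [this]
            nlinarith [sq_nonneg (⟪vx (h j), w - v⟫_ℝ - ⟪vx (h j), v⟫_ℝ)]
        _ = 2 * ∑ j, ⟪vx (h j), w - v⟫_ℝ ^ 2 + 2 * ∑ j, ⟪vx (h j), v⟫_ℝ ^ 2 := by
            rw [Finset.sum_add_distrib, Finset.mul_sum, Finset.mul_sum]
        _ ≤ 6 * k * ρ ^ 2 := by nlinarith
    have hs : ∑ j, |⟪vx (h j), w⟫_ℝ| ≤ 3 * k * ρ := by
      have h3 : (∑ j, |⟪vx (h j), w⟫_ℝ|) ^ 2 ≤ (3 * k * ρ) ^ 2 := by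
        calc (∑ j, |⟪vx (h j), w⟫_ℝ|) ^ 2
            ≤ (Finset.univ : Finset (Fin k)).card * ∑ j, |⟪vx (h j), w⟫_ℝ| ^ 2 :=
              sq_sum_le_card_mul_sum_sq
          _ = k * ∑ j, ⟪vx (h j), w⟫_ℝ ^ 2 := by simp
          _ ≤ k * (6 * k * ρ ^ 2) := by gcongr
          _ ≤ (3 * k * ρ) ^ 2 := by nlinarith [sq_nonneg ((k : ℝ) * ρ)]
      exact le_of_sq_le_sq h3 (by positivity)
    have h4 : ((∑ j, ⌊|⟪vx (h j), w⟫_ℝ| / ρ⌋₊ : ℕ) : ℝ) ≤ ((3 * k : ℕ) : ℝ) := by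
      push_cast
      calc ∑ j, (⌊|⟪vx (h j), w⟫_ℝ| / ρ⌋₊ : ℝ) ≤ ∑ j, |⟪vx (h j), w⟫_ℝ| / ρ :=
            Finset.sum_le_sum fun j _ => Nat.floor_le (by positivity)
        _ = (∑ j, |⟪vx (h j), w⟫_ℝ|) / ρ := by rw [Finset.sum_div]
        _ ≤ (3 * k * ρ) / ρ := by gcongr
        _ = 3 * k := by field_simp
    exact_mod_cast h4

end AuxHit

theorem aux_hit (C1 : ℝ) (hC1 : 1 ≤ C1) : ∃ CH : ℝ, 1 ≤ CH ∧ ∀ {X : Type} [Fintype X] (d k : ℕ),
    1 ≤ k → d ≤ 7 * k → ∀ (τ : ℝ), 0 < τ → ∀ (vx : X → E d) (gam' : X → ℝ),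
    (∀ x, 0 ≤ gam' x) → ∑ x, gam' x = 1 →
    (∀ (σ : ℝ) (u : E d), τ ≤ σ → u ≠ 0 → ‖u‖ ≤ 4 →
      ∑ x, gam' x * (if |⟪vx x, u⟫_ℝ| ≤ σ then 1 else 0) ≤ C1 * σ / ‖u‖) →
    (∀ x, gam' x ≠ 0 → ‖vx x‖ ^ 2 ≤ 8 * d) →
    ∀ c : E d, c ≠ 0 → ‖c‖ ≤ 2 → ∀ ρ : ℝ, τ ≤ ρ →
      ∑ h : Fin k → X, prw gam' h *
        (open Classical in
          if ∃ v : E d, ‖v - c‖ ≤ ρ ∧ ∀ i, |⟪vx (h i), v⟫_ℝ| ≤ τ then 1 else 0) ≤
        (CH * ρ / ‖c‖) ^ k := by
  classical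
  have hCH1 : (1 : ℝ) ≤ 32 ^ 7 * 64 * 4 * C1 := by nlinarith
  refine ⟨32 ^ 7 * 64 * 4 * C1, hCH1, ?_⟩
  intro X _ d k hk hdk τ hτ vx gam' hg hg1 hsm hnorm c hc hc2 ρ hτρ
  have hρ : 0 < ρ := hτ.trans_le hτρ
  have hcn : 0 < ‖c‖ := norm_pos_iff.2 hc
  have hprw : ∀ h : Fin k → X, 0 ≤ prw gam' h := fun h => Finset.prod_nonneg fun i _ => hg _
  have hprw1 : ∑ h : Fin k → X, prw gam' h = 1 := by
    have := AuxHit.rows_pow gam' (fun _ => 1) k
    simpa [hg1] using this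
  by_cases hbig : ‖c‖ / 4 < ρ
  · calc _ ≤ ∑ h : Fin k → X, prw gam' h * 1 := by
          apply Finset.sum_le_sum
          intro h _
          apply mul_le_mul_of_nonneg_left _ (hprw h)
          split_ifs <;> norm_num
      _ = 1 := by simpa using hprw1
      _ ≤ _ := by
          apply one_le_pow₀
          rw [le_div_iff₀ hcn]
          nlinarith
  · push Not at hbig
    have hd : 1 ≤ d := by
      by_contra hcon
      have hd0 : d = 0 := by omega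
      subst hd0
      exact hc (Subsingleton.elim _ _)
    set W : (Fin d → ℤ) → E d := fun y =>
      WithLp.toLp 2 (fun i => (ρ / √d) * ((⌊c i / (ρ / √d)⌋ + y i : ℤ) : ℝ)) with hW
    set F : Finset (Fin d → ℤ) := (AuxHit.pts d).filter fun y => ‖W y - c‖ ≤ 2 * ρ with hF
    have hpt : ∀ h : Fin k → X, prw gam' h *
        (if ∃ v : E d, ‖v - c‖ ≤ ρ ∧ ∀ i, |⟪vx (h i), v⟫_ℝ| ≤ τ then 1 else 0) ≤
        ∑ y ∈ F, 4 ^ (3 * k) * (prw gam' h * ∏ j, (1 / 4 : ℝ) ^ ⌊|⟪vx (h j), W y⟫_ℝ| / ρ⌋₊) := by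
      intro h
      have hnn : ∀ y ∈ F, 0 ≤ 4 ^ (3 * k) *
          (prw gam' h * ∏ j, (1 / 4 : ℝ) ^ ⌊|⟪vx (h j), W y⟫_ℝ| / ρ⌋₊) := fun y _ =>
        mul_nonneg (by positivity) (mul_nonneg (hprw h) (by positivity))
      by_cases hp : prw gam' h = 0
      · rw [hp]; simp
      split_ifs with hex
      · obtain ⟨v, hv, hh⟩ := hex
        have hn : ∀ i, ‖vx (h i)‖ ^ 2 ≤ 8 * d := fun i =>
          hnorm _ (by
            intro h0
            exact hp (Finset.prod_eq_zero (Finset.mem_univ i) h0))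
        obtain ⟨y, hy, hy1, hy2⟩ := AuxHit.exists_point hd τ ρ hτ hτρ vx h hn c v hv hh
        refine le_trans ?_ (Finset.single_le_sum hnn (Finset.mem_filter.2 ⟨hy, hy1⟩))
        rw [Finset.prod_pow_eq_pow_sum]
        have h1 : (1 / 4 : ℝ) ^ (3 * k) ≤ (1 / 4 : ℝ) ^ (∑ j, ⌊|⟪vx (h j), W y⟫_ℝ| / ρ⌋₊) :=
          pow_le_pow_of_le_one (by norm_num) (by norm_num) hy2
        calc prw gam' h * 1 = 4 ^ (3 * k) * (prw gam' h * (1 / 4 : ℝ) ^ (3 * k)) := by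
              have : (4 : ℝ) ^ (3 * k) * (1 / 4 : ℝ) ^ (3 * k) = 1 := by
                rw [← mul_pow]; norm_num
              linear_combination (-(prw gam' h)) * this
          _ ≤ _ := by
              apply mul_le_mul_of_nonneg_left _ (by positivity)
              exact mul_le_mul_of_nonneg_left h1 (hprw h)
      · rw [mul_zero]
        exact Finset.sum_nonneg hnn
    have hone : ∀ y ∈ F, ∑ h : Fin k → X, 4 ^ (3 * k) *
        (prw gam' h * ∏ j, (1 / 4 : ℝ) ^ ⌊|⟪vx (h j), W y⟫_ℝ| / ρ⌋₊) ≤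
        64 ^ k * (4 * C1 * ρ / ‖c‖) ^ k := by
      intro y hy
      have hyc : ‖W y - c‖ ≤ 2 * ρ := (Finset.mem_filter.1 hy).2
      have hlow : ‖c‖ / 2 ≤ ‖W y‖ := by
        have : ‖c‖ ≤ ‖W y‖ + ‖W y - c‖ := by
          calc ‖c‖ = ‖W y - (W y - c)‖ := by congr 1; abel
            _ ≤ _ := norm_sub_le _ _
        linarith
      have hup : ‖W y‖ ≤ 4 := by
        have : ‖W y‖ ≤ ‖W y - c‖ + ‖c‖ := by
          calc ‖W y‖ = ‖(W y - c) + c‖ := by congr 1; abel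
            _ ≤ _ := norm_add_le _ _
        linarith
      have hWpos : 0 < ‖W y‖ := by linarith
      rw [← Finset.mul_sum, AuxHit.rows_pow gam' (fun x => (1 / 4 : ℝ) ^ ⌊|⟪vx x, W y⟫_ℝ| / ρ⌋₊) k,
        pow_mul]
      have h1 := AuxHit.one_row C1 τ ρ hρ hτρ vx gam' hg (W y)
        (fun σ hσ => hsm σ (W y) hσ (norm_pos_iff.1 hWpos) hup) (by linarith)
      have h2 : 2 * C1 * ρ / ‖W y‖ ≤ 4 * C1 * ρ / ‖c‖ := by
        rw [div_le_div_iff₀ hWpos hcn]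
        nlinarith [mul_pos (by linarith : (0 : ℝ) < C1) hρ]
      have h3 : 0 ≤ ∑ x, gam' x * (1 / 4 : ℝ) ^ ⌊|⟪vx x, W y⟫_ℝ| / ρ⌋₊ :=
        Finset.sum_nonneg fun x _ => mul_nonneg (hg x) (by positivity)
      have h4 : (4 : ℝ) ^ 3 = 64 := by norm_num
      rw [h4]
      gcongr
      exact h1.trans h2
    calc _ ≤ ∑ h : Fin k → X, ∑ y ∈ F, 4 ^ (3 * k) *
          (prw gam' h * ∏ j, (1 / 4 : ℝ) ^ ⌊|⟪vx (h j), W y⟫_ℝ| / ρ⌋₊) :=
          Finset.sum_le_sum fun h _ => hpt h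
      _ = ∑ y ∈ F, ∑ h : Fin k → X, 4 ^ (3 * k) *
          (prw gam' h * ∏ j, (1 / 4 : ℝ) ^ ⌊|⟪vx (h j), W y⟫_ℝ| / ρ⌋₊) := Finset.sum_comm
      _ ≤ ∑ _y ∈ F, 64 ^ k * (4 * C1 * ρ / ‖c‖) ^ k := Finset.sum_le_sum hone
      _ = (F.card : ℝ) * (64 ^ k * (4 * C1 * ρ / ‖c‖) ^ k) := by simp
      _ ≤ (32 ^ (7 * k)) * (64 ^ k * (4 * C1 * ρ / ‖c‖) ^ k) := by
          have h1 : (F.card : ℝ) ≤ 32 ^ (7 * k) := by
            calc (F.card : ℝ) ≤ ((AuxHit.pts d).card : ℝ) := by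
                  exact_mod_cast Finset.card_filter_le _ _
              _ ≤ 32 ^ d := AuxHit.card_pts d
              _ ≤ 32 ^ (7 * k) := pow_le_pow_right₀ (by norm_num) hdk
          have h2 : 0 ≤ 4 * C1 * ρ / ‖c‖ := by
            have : 0 ≤ C1 := by linarith
            positivity
          gcongr
      _ = _ := by
          rw [pow_mul, ← mul_pow, ← mul_pow]
          congr 1
          ring

end Vale.Agent.Mem
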