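import Vale.Agent.Mem.PartD
import Vale.Agent.Mem.PartE
import Vale.Agent.Mem.PartF
import Vale.Agent.Mem.PartG

/-!
# P309, PART I1: good_part
-/

namespace Vale.Agent.Mem.I1

open Finset
open scoped InnerProductSpace

section gfun

theorem g_nonneg {τ : ℝ} (hτ : 0 < τ) (t : ℝ) : 0 ≤ g τ t := by
  unfold g
  split_ifs with h
  · exact zero_le_one
  · exact div_nonneg hτ.le (hτ.le.trans (le_of_lt (not_le.1 h)))

theorem g_le_one {τ : ℝ} (hτ : 0 < τ) (t : ℝ) : g τ t ≤ 1 := by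
  unfold g
  split_ifs with h
  · exact le_rfl
  · exact (div_le_one (hτ.trans (not_le.1 h))).2 (le_of_lt (not_le.1 h))

theorem g_anti {τ : ℝ} (hτ : 0 < τ) {s t : ℝ} (h : s ≤ t) : g τ t ≤ g τ s := by
  by_cases h1 : s ≤ τ
  · calc g τ t ≤ 1 := g_le_one hτ t
      _ = g τ s := by unfold g; rw [if_pos h1]
  · have h2 : ¬ t ≤ τ := fun h3 => h1 (h.trans h3)
    unfold g
    rw [if_neg h1, if_neg h2]
    exact div_le_div_of_nonneg_left hτ.le (hτ.trans (not_le.1 h1)) h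

theorem g_le_div {τ : ℝ} {t r : ℝ} (hτ : 0 < τ) (h : r ≤ t) (h2 : τ ≤ r) :
    g τ t ≤ τ / r := by
  calc g τ t ≤ g τ r := g_anti hτ h
    _ ≤ τ / r := by
      unfold g
      split_ifs with h3
      · have : r = τ := le_antisymm h3 h2
        rw [this, div_self hτ.ne']
      · exact le_rfl

end gfun

section ind

/-- Indicator of a proposition. -/
noncomputable def ind (p : Prop) : ℝ := open Classical in if p then 1 else 0

theorem ind_eq {p : Prop} [Decidable p] : (if p then (1 : ℝ) else 0) = ind p := by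
  unfold ind
  by_cases h : p
  · rw [if_pos h, if_pos h]
  · rw [if_neg h, if_neg h]

theorem ind_pos {p : Prop} (h : p) : ind p = 1 := if_pos h

theorem ind_neg {p : Prop} (h : ¬ p) : ind p = 0 := if_neg h

theorem ind_nonneg (p : Prop) : 0 ≤ ind p := by
  by_cases h : p
  · rw [ind_pos h]; exact zero_le_one
  · rw [ind_neg h]

theorem ind_mono {p q : Prop} (h : p → q) : ind p ≤ ind q := by
  by_cases hp : p
  · rw [ind_pos hp, ind_pos (h hp)]
  · rw [ind_neg hp]; exact ind_nonneg q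

end ind

section prod

variable {X : Type} [Fintype X]

theorem sum_prw (gam : X → ℝ) (w : ℕ) : ∑ x : Fin w → X, prw gam x = (∑ x, gam x) ^ w := by
  rw [Fintype.sum_pow]
  rfl

omit [Fintype X] in
theorem prw_nonneg {gam : X → ℝ} (h : ∀ x, 0 ≤ gam x) {w : ℕ} (x : Fin w → X) : 0 ≤ prw gam x :=
  Finset.prod_nonneg fun i _ => h (x i)

theorem sum_prw_forall (gam : X → ℝ) (w : ℕ) (q : X → Prop) [DecidablePred q] :
    ∑ x : Fin w → X, prw gam x * (if ∀ i, q (x i) then 1 else 0) =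
      (∑ x, gam x * (if q x then 1 else 0)) ^ w := by
  rw [Fintype.sum_pow]
  refine Finset.sum_congr rfl fun x _ => ?_
  unfold prw
  rw [Finset.prod_mul_distrib]
  congr 1
  by_cases h : ∀ i, q (x i)
  · rw [if_pos h]
    symm
    exact Finset.prod_eq_one fun i _ => if_pos (h i)
  · rw [if_neg h]
    push Not at h
    obtain ⟨i, hi⟩ := h
    symm
    exact Finset.prod_eq_zero (Finset.mem_univ i) (if_neg hi)

end prod

section th

variable {S : Type} [Fintype S] {d : ℕ}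

theorem rad_pos (j : ℕ) : 0 < rad j := by unfold rad; positivity

theorem rad_zero : rad 0 = 2 := by unfold rad; norm_num

theorem rad_succ (j : ℕ) : rad (j + 1) = rad j / 2 := by
  unfold rad; rw [pow_succ]; field_simp

theorem rad_anti {i j : ℕ} (h : i ≤ j) : rad j ≤ rad i := by
  unfold rad
  exact div_le_div_of_nonneg_left (by norm_num) (by positivity)
    (pow_le_pow_right₀ (by norm_num) h)

theorem rad_le_two (j : ℕ) : rad j ≤ 2 := by
  have := rad_anti (Nat.zero_le j)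
  rwa [rad_zero] at this

theorem bm_le_theta (vs : S → E d) (P : S → ℝ) (K m : ℕ) (s : S) {j : ℕ} (hj : j ≤ K) :
    bm vs P s (rad j) ≤ theta vs P K m s * rad j ^ m := by
  have h := Finset.le_sup' (fun j => bm vs P s (rad j) / rad j ^ m)
    (Finset.mem_range.2 (Nat.lt_succ_of_le hj))
  have h2 : 0 < rad j ^ m := pow_pos (rad_pos j) m
  rw [div_le_iff₀ h2] at h
  exact h

theorem theta_ge (vs : S → E d) (hvs : ∀ s, ‖vs s‖ ≤ 1) (P : S → ℝ) (hP1 : ∑ s, P s = 1)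
    (K m : ℕ) (s : S) : 1 / 2 ^ m ≤ theta vs P K m s := by
  have h := bm_le_theta vs P K m s (Nat.zero_le K)
  have h1 : bm vs P s (rad 0) = 1 := by
    unfold bm
    rw [← hP1]
    refine Finset.sum_congr rfl fun s' _ => if_pos ?_
    rw [rad_zero]
    calc ‖vs s' - vs s‖ ≤ ‖vs s'‖ + ‖vs s‖ := norm_sub_le _ _
      _ ≤ 2 := by linarith [hvs s', hvs s]
  rw [h1, rad_zero] at h
  rw [div_le_iff₀ (by positivity)]
  exact h

end th

section main

variable {S X : Type} [Fintype S] [Fintype X]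

/-- Geometric sum. -/
theorem geom_le (N : ℕ) : ∑ i ∈ range N, (1 / 4 : ℝ) ^ i ≤ 2 := by
  have h : ∑ i ∈ range N, (1 / 4 : ℝ) ^ i ≤ 4 / 3 * (1 - (1 / 4) ^ N) := by
    induction N with
    | zero => simp
    | succ N ih =>
      rw [Finset.sum_range_succ, pow_succ]
      linarith
  have h2 : (0 : ℝ) ≤ (1 / 4) ^ N := by positivity
  linarith

/-- one term of the series of bad probabilities -/
theorem term_le {n l1 i : ℕ} (hn : 1 ≤ n) {CH : ℝ} (hCH : 1 ≤ CH)
    (hl1 : 16 * (4 * CH) ^ 5 ≤ 2 ^ (2 * l1)) :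
    (2 : ℝ) ^ ((l1 + i) * (3 * n)) * (4 * CH / 2 ^ (l1 + i)) ^ (5 * n) ≤
      1 / 16 ^ n * (1 / 4) ^ i := by
  have h1 : (2 : ℝ) ^ ((l1 + i) * (3 * n)) * (4 * CH / 2 ^ (l1 + i)) ^ (5 * n) =
      ((4 * CH) ^ 5 / 2 ^ (2 * (l1 + i))) ^ n := by
    rw [div_pow, div_pow, ← pow_mul, ← pow_mul, ← pow_mul,
      show (l1 + i) * (5 * n) = (l1 + i) * (3 * n) + 2 * (l1 + i) * n by ring, pow_add]
    field_simp
  rw [h1]
  have h2 : (4 * CH) ^ 5 / 2 ^ (2 * (l1 + i)) ≤ 1 / 16 * (1 / 4) ^ i := by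
    rw [mul_add, pow_add, show (2 : ℝ) ^ (2 * i) = 4 ^ i by rw [pow_mul]; norm_num, one_div_pow,
      div_le_iff₀ (by positivity)]
    have h3 : 1 / 16 * (1 / (4 : ℝ) ^ i) * (2 ^ (2 * l1) * 4 ^ i) = 2 ^ (2 * l1) / 16 := by
      field_simp
    rw [h3]
    linarith
  have h4 : (0 : ℝ) ≤ (4 * CH) ^ 5 / 2 ^ (2 * (l1 + i)) := by positivity
  calc ((4 * CH) ^ 5 / 2 ^ (2 * (l1 + i))) ^ n ≤ (1 / 16 * (1 / 4) ^ i) ^ n :=
        pow_le_pow_left₀ h4 h2 n
    _ = 1 / 16 ^ n * ((1 / 4) ^ i) ^ n := by rw [mul_pow, one_div_pow]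
    _ ≤ 1 / 16 ^ n * (1 / 4) ^ i := by
        refine mul_le_mul_of_nonneg_left ?_ (by positivity)
        have h5 : ((1 : ℝ) / 4) ^ i ≤ 1 := pow_le_one₀ (by norm_num) (by norm_num)
        calc (((1 : ℝ) / 4) ^ i) ^ n ≤ (((1 : ℝ) / 4) ^ i) ^ 1 :=
              pow_le_pow_of_le_one (by positivity) h5 hn
          _ = _ := pow_one _

end main

section part

variable {S X : Type} [Fintype S] [Fintype X] {CL C1 : ℝ} {d n : ℕ} {τ : ℝ}
  {vs : S → E d} {vx : X → E d} {lam : S → ℝ} {gam gam' : X → ℝ} {Y : X → S → ℤ}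

/-- The `j`-th annulus around the position of `s0`. -/
noncomputable def ann (vs : S → E d) (s0 : S) (j : ℕ) : Finset S :=
  univ.filter fun s => rad j / 2 < ‖vs s - vs s0‖ ∧ ‖vs s - vs s0‖ ≤ rad j

theorem mem_ann {s0 s : S} {j : ℕ} :
    s ∈ ann vs s0 j ↔ rad j / 2 < ‖vs s - vs s0‖ ∧ ‖vs s - vs s0‖ ≤ rad j := by
  unfold ann
  rw [Finset.mem_filter]
  exact and_iff_right (Finset.mem_univ _)

/-- `s` has too much mass around it, at the scale `rad j / 2 ^ l`. -/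
def badP (vs : S → E d) (P : S → ℝ) (s0 : S) (B : ℝ) (v j l : ℕ) (s : S) : Prop :=
  B / 2 ^ (l * v) < ∑ s' ∈ ann vs s0 j,
    (if ‖(vs s' - vs s0) - (vs s - vs s0)‖ ≤ rad j / 2 ^ l then P s' else 0)

open Classical in
/-- The set of bad points. -/
noncomputable def bdS (vs : S → E d) (P : S → ℝ) (s0 : S) (Θ τ : ℝ) (n K l1 N : ℕ) : Finset S :=
  univ.filter fun s => ∃ j ∈ range K, s ∈ ann vs s0 j ∧ ∃ i ∈ range N,
    τ ≤ rad j / 2 ^ (l1 + i) ∧ badP vs P s0 (Θ * rad j ^ (6 * n)) (3 * n) j (l1 + i) s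

theorem mem_bdS {P : S → ℝ} {s0 s : S} {Θ τ : ℝ} {n K l1 N : ℕ} :
    s ∈ bdS vs P s0 Θ τ n K l1 N ↔ ∃ j ∈ range K, s ∈ ann vs s0 j ∧ ∃ i ∈ range N,
    τ ≤ rad j / 2 ^ (l1 + i) ∧ badP vs P s0 (Θ * rad j ^ (6 * n)) (3 * n) j (l1 + i) s := by
  simp only [bdS, Finset.mem_filter, Finset.mem_univ, true_and]

theorem sum_ann_le (P : S → ℝ) (hP : ∀ s, 0 < P s) (K m : ℕ) (s0 : S) {j : ℕ} (hj : j ≤ K) :
    ∑ s ∈ ann vs s0 j, P s ≤ theta vs P K m s0 * rad j ^ m := by
  refine le_trans ?_ (bm_le_theta vs P K m s0 hj)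
  unfold bm
  rw [← Finset.sum_filter]
  refine Finset.sum_le_sum_of_subset_of_nonneg ?_ fun s _ _ => (hP s).le
  intro s hs
  rw [mem_ann] at hs
  rw [Finset.mem_filter]
  exact ⟨Finset.mem_univ _, hs.2⟩

theorem cover (vs : S → E d) (s0 s : S) (h2 : ‖vs s - vs s0‖ ≤ 2) (K : ℕ) :
    ‖vs s - vs s0‖ ≤ rad K ∨ ∃ j ∈ range K, s ∈ ann vs s0 j := by
  induction K with
  | zero => left; rwa [rad_zero]
  | succ K ih =>
    rcases ih with h | ⟨j, hj, h⟩
    · by_cases h3 : ‖vs s - vs s0‖ ≤ rad (K + 1)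
      · left; exact h3
      · right
        refine ⟨K, Finset.mem_range.2 (Nat.lt_succ_self K), mem_ann.2 ⟨?_, h⟩⟩
        rw [rad_succ] at h3
        exact not_le.1 h3
    · right
      exact ⟨j, Finset.mem_range.2 ((Finset.mem_range.1 hj).trans (Nat.lt_succ_self K)), h⟩

theorem bd_prob (M : Model CL C1 d n τ vs vx lam gam gam' Y) {CH : ℝ} (hCH : 1 ≤ CH) {l1 : ℕ}
    (hl1 : 16 * (4 * CH) ^ 5 ≤ 2 ^ (2 * l1))
    (haux : ∀ c : E d, c ≠ 0 → ‖c‖ ≤ 2 → ∀ ρ : ℝ, τ ≤ ρ →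
      ∑ h : Fin (5 * n) → X, prw gam' h *
        ind (∃ v : E d, ‖v - c‖ ≤ ρ ∧ ∀ i, |⟪vx (h i), v⟫_ℝ| ≤ τ) ≤
        (CH * ρ / ‖c‖) ^ (5 * n))
    (P : S → ℝ) (hP : ∀ s, 0 < P s) (K N : ℕ) (s0 : S) (hΘ : 0 < theta vs P K (6 * n) s0) :
    ∑ h : Fin (5 * n) → X, prw gam' h *
        ind (∃ s ∈ bdS vs P s0 (theta vs P K (6 * n) s0) τ n K l1 N, plab Y h s = plab Y h s0)
          ≤ 2 * K / 16 ^ n := by
  set Θ := theta vs P K (6 * n) s0 with hΘdef
  have hpr : ∀ h : Fin (5 * n) → X, 0 ≤ prw gam' h := fun h => prw_nonneg M.gam'_nonneg h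
  let F : ℕ → ℕ → (Fin (5 * n) → X) → ℝ := fun j i h =>
    if τ ≤ rad j / 2 ^ (l1 + i) then
      ind (∃ s ∈ ann vs s0 j, plab Y h s = plab Y h s0 ∧
        Θ * rad j ^ (6 * n) / 2 ^ ((l1 + i) * (3 * n)) < ∑ s' ∈ ann vs s0 j,
          (if ‖(vs s' - vs s0) - (vs s - vs s0)‖ ≤ rad j / 2 ^ (l1 + i) then P s' else 0))
      else 0
  have hF0 : ∀ j i h, 0 ≤ F j i h := by
    intro j i h
    simp only [F]
    split_ifs
    · exact ind_nonneg _
    · exact le_rfl
  have h1 : ∀ h : Fin (5 * n) → X,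
      ind (∃ s ∈ bdS vs P s0 Θ τ n K l1 N, plab Y h s = plab Y h s0) ≤
      ∑ j ∈ range K, ∑ i ∈ range N, F j i h := by
    intro h
    by_cases hc : ∃ s ∈ bdS vs P s0 Θ τ n K l1 N, plab Y h s = plab Y h s0
    · rw [ind_pos hc]
      obtain ⟨s, hs, hh⟩ := hc
      obtain ⟨j, hj, hsj, i, hi, hτ, hb⟩ := mem_bdS.1 hs
      have h2 : F j i h = 1 := by
        simp only [F]
        rw [if_pos hτ, ind_pos ⟨s, hsj, hh, hb⟩]
      calc (1 : ℝ) = F j i h := h2.symm
        _ ≤ ∑ i ∈ range N, F j i h := Finset.single_le_sum (fun i _ => hF0 j i h) hi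
        _ ≤ ∑ j ∈ range K, ∑ i ∈ range N, F j i h :=
            Finset.single_le_sum (f := fun j => ∑ i ∈ range N, F j i h)
              (fun j _ => Finset.sum_nonneg fun i _ => hF0 j i h) hj
    · rw [ind_neg hc]
      exact Finset.sum_nonneg fun j _ => Finset.sum_nonneg fun i _ => hF0 j i h
  have h2 : ∀ j ∈ range K, ∀ i ∈ range N, ∑ h : Fin (5 * n) → X, prw gam' h * F j i h ≤
      1 / 16 ^ n * (1 / 4) ^ i := by
    intro j hj i _
    by_cases hτ : τ ≤ rad j / 2 ^ (l1 + i)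
    · have h3 := bad_prob (H := Fin (5 * n) → X) (fun s => vs s - vs s0) P (fun s => (hP s).le)
        (rad j) (Θ * rad j ^ (6 * n)) (rad_pos j) (mul_pos hΘ (pow_pos (rad_pos j) _))
        (ann vs s0 j) (fun s hs => mem_ann.1 hs)
        (sum_ann_le P hP K (6 * n) s0 (Finset.mem_range.1 hj).le) (l1 + i) (3 * n) (5 * n)
        (prw gam') hpr (fun h s => plab Y h s = plab Y h s0) τ CH (by linarith)
        (hτ.trans (by
          rw [mul_div_assoc]
          have : 0 < rad j / 2 ^ (l1 + i) := div_pos (rad_pos j) (by positivity)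
          linarith))
        (fun c hc hcr ρ hρ => by
          simp only [ind_eq]
          refine le_trans (Finset.sum_le_sum fun h _ => mul_le_mul_of_nonneg_left
            (ind_mono ?_) (hpr h)) (haux c hc (hcr.trans (rad_le_two j)) ρ hρ)
          rintro ⟨s, hs1, hs2⟩
          exact ⟨vs s - vs s0, hs2, fun i => M.lab_eq _ _ _ (congrFun hs1 i)⟩)
      simp only [ind_eq] at h3
      refine le_trans (le_of_eq ?_) (h3.trans (term_le M.hn hCH hl1))
      refine Finset.sum_congr rfl fun h _ => ?_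
      simp only [F]
      rw [if_pos hτ]
    · have h3 : ∀ h, F j i h = 0 := by
        intro h
        simp only [F]
        rw [if_neg hτ]
      simp only [h3, mul_zero, Finset.sum_const_zero]
      positivity
  calc ∑ h : Fin (5 * n) → X, prw gam' h *
        ind (∃ s ∈ bdS vs P s0 Θ τ n K l1 N, plab Y h s = plab Y h s0)
      ≤ ∑ h : Fin (5 * n) → X, prw gam' h * ∑ j ∈ range K, ∑ i ∈ range N, F j i h :=
        Finset.sum_le_sum fun h _ => mul_le_mul_of_nonneg_left (h1 h) (hpr h)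
    _ = ∑ j ∈ range K, ∑ i ∈ range N, ∑ h : Fin (5 * n) → X, prw gam' h * F j i h := by
        simp only [Finset.mul_sum]
        rw [Finset.sum_comm]
        refine Finset.sum_congr rfl fun j _ => ?_
        rw [Finset.sum_comm]
    _ ≤ ∑ j ∈ range K, ∑ i ∈ range N, 1 / 16 ^ n * (1 / 4) ^ i :=
        Finset.sum_le_sum fun j hj => Finset.sum_le_sum fun i hi => h2 j hj i hi
    _ ≤ ∑ j ∈ range K, 1 / 16 ^ n * 2 := by
        refine Finset.sum_le_sum fun j _ => ?_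
        rw [← Finset.mul_sum]
        exact mul_le_mul_of_nonneg_left (geom_le N) (by positivity)
    _ = 2 * K / 16 ^ n := by
        rw [Finset.sum_const, Finset.card_range, nsmul_eq_mul]
        ring

/-- Frostman condition outside the bad set. -/
theorem frostman (M : Model CL C1 d n τ vs vx lam gam gam' Y) {l1 : ℕ} (P : S → ℝ)
    (hP : ∀ s, 0 < P s) (K N : ℕ) (s0 : S) (hN : 2 / 2 ^ N < τ)
    (hΘ : 0 < theta vs P K (6 * n) s0) {j : ℕ} (hj : j < K) {s : S} (hs : s ∈ ann vs s0 j)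
    (hsb : s ∉ bdS vs P s0 (theta vs P K (6 * n) s0) τ n K l1 N) {ρ : ℝ} (hρ : C1 * τ ≤ ρ) :
    ∑ s' ∈ ann vs s0 j, (if ‖(vs s' - vs s0) - (vs s - vs s0)‖ ≤ ρ then P s' else 0) ≤
      2 ^ ((l1 + 1) * (3 * n)) * (theta vs P K (6 * n) s0 * rad j ^ (6 * n)) *
        (ρ / rad j) ^ (3 * n) := by
  set Θ := theta vs P K (6 * n) s0 with hΘdef
  set B := Θ * rad j ^ (6 * n) with hB
  have hB0 : 0 < B := mul_pos hΘ (pow_pos (rad_pos j) _)
  have hr := rad_pos j
  have hτρ : τ ≤ ρ := by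
    have := M.hC1
    have := M.hτ
    nlinarith
  have hρ0 : 0 < ρ := lt_of_lt_of_le M.hτ hτρ
  -- trivial bound
  have htriv : ∑ s' ∈ ann vs s0 j, (if ‖(vs s' - vs s0) - (vs s - vs s0)‖ ≤ ρ then P s' else 0) ≤
      B := by
    refine le_trans (Finset.sum_le_sum fun s' _ => ?_) (sum_ann_le P hP K (6 * n) s0 hj.le)
    split_ifs
    · exact le_rfl
    · exact (hP s').le
  have hbig : (1 / 2 : ℝ) ^ (l1 + 1) ≤ ρ / rad j →
      ∑ s' ∈ ann vs s0 j, (if ‖(vs s' - vs s0) - (vs s - vs s0)‖ ≤ ρ then P s' else 0) ≤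
      2 ^ ((l1 + 1) * (3 * n)) * B * (ρ / rad j) ^ (3 * n) := by
    intro h
    refine htriv.trans ?_
    have h1 : (1 / 2 : ℝ) ^ ((l1 + 1) * (3 * n)) ≤ (ρ / rad j) ^ (3 * n) := by
      rw [pow_mul]
      exact pow_le_pow_left₀ (by positivity) h _
    calc B = 2 ^ ((l1 + 1) * (3 * n)) * B * (1 / 2 : ℝ) ^ ((l1 + 1) * (3 * n)) := by
          rw [one_div_pow]; field_simp
      _ ≤ _ := mul_le_mul_of_nonneg_left h1 (by positivity)
  by_cases h1 : (1 / 2 : ℝ) ^ (l1 + 1) ≤ ρ / rad j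
  · exact hbig h1
  push Not at h1
  have hx0 : 0 < ρ / rad j := div_pos hρ0 hr
  have hx1 : ρ / rad j ≤ 1 := h1.le.trans (pow_le_one₀ (by norm_num) (by norm_num))
  obtain ⟨l, hl1, hl2⟩ := exists_nat_pow_near_of_lt_one hx0 hx1 (by norm_num : (0 : ℝ) < 1 / 2)
    (by norm_num)
  have hll : l1 ≤ l := by
    by_contra hcon
    push Not at hcon
    have h2 : (1 / 2 : ℝ) ^ (l1 + 1) ≤ (1 / 2) ^ (l + 1) :=
      pow_le_pow_of_le_one (by norm_num) (by norm_num) (by omega)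
    exact absurd (h2.trans_lt hl1) (not_lt.2 h1.le)
  obtain ⟨i, rfl⟩ : ∃ i, l = l1 + i := ⟨l - l1, by omega⟩
  have hρl : ρ ≤ rad j / 2 ^ (l1 + i) := by
    rw [div_le_iff₀ hr, one_div_pow] at hl2
    rw [div_eq_mul_one_div, mul_comm]
    exact hl2
  have hiN : i < N := by
    by_contra hcon
    push Not at hcon
    have h2 : rad j / 2 ^ (l1 + i) ≤ 2 / 2 ^ N := by
      refine div_le_div₀ (by norm_num) (rad_le_two j) (by positivity) ?_
      exact pow_le_pow_right₀ (by norm_num) (by omega)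
    linarith
  have hnb : ¬ badP vs P s0 B (3 * n) j (l1 + i) s := by
    intro hb
    exact hsb (mem_bdS.2 ⟨j, Finset.mem_range.2 hj, hs, i, Finset.mem_range.2 hiN,
      hτρ.trans hρl, hb⟩)
  unfold badP at hnb
  push Not at hnb
  calc ∑ s' ∈ ann vs s0 j, (if ‖(vs s' - vs s0) - (vs s - vs s0)‖ ≤ ρ then P s' else 0)
      ≤ ∑ s' ∈ ann vs s0 j, (if ‖(vs s' - vs s0) - (vs s - vs s0)‖ ≤ rad j / 2 ^ (l1 + i)
          then P s' else 0) := by
        refine Finset.sum_le_sum fun s' _ => ?_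
        by_cases h2 : ‖(vs s' - vs s0) - (vs s - vs s0)‖ ≤ ρ
        · rw [if_pos h2, if_pos (h2.trans hρl)]
        · rw [if_neg h2]
          split_ifs
          · exact (hP s').le
          · exact le_rfl
    _ ≤ B / 2 ^ ((l1 + i) * (3 * n)) := hnb
    _ = 2 ^ (3 * n) * B * ((1 / 2 : ℝ) ^ (l1 + i + 1)) ^ (3 * n) := by
        rw [← pow_mul, one_div_pow, show (l1 + i + 1) * (3 * n) = (l1 + i) * (3 * n) + 3 * n by ring,
          pow_add]
        field_simp
    _ ≤ 2 ^ (3 * n) * B * (ρ / rad j) ^ (3 * n) :=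
        mul_le_mul_of_nonneg_left (pow_le_pow_left₀ (by positivity) hl1.le _) (by positivity)
    _ ≤ 2 ^ ((l1 + 1) * (3 * n)) * B * (ρ / rad j) ^ (3 * n) := by
        refine mul_le_mul_of_nonneg_right (mul_le_mul_of_nonneg_right ?_ hB0.le) (by positivity)
        refine pow_le_pow_right₀ (by norm_num) ?_
        nlinarith [Nat.zero_le l1, Nat.zero_le n, Nat.zero_le (l1 * (3 * n))]

theorem diff_le (M : Model CL C1 d n τ vs vx lam gam gam' Y) (s s0 : S) :
    ‖vs s - vs s0‖ ≤ 2 :=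
  calc ‖vs s - vs s0‖ ≤ ‖vs s‖ + ‖vs s0‖ := norm_sub_le _ _
    _ ≤ 2 := by linarith [M.vs_le s, M.vs_le s0]

/-- The auxiliary rows do not separate `s` and `s0`. -/
theorem aux_sep (M : Model CL C1 d n τ vs vx lam gam gam' Y) (k : ℕ) (s s0 : S) :
    ∑ h : Fin k → X, prw gam' h * ind (plab Y h s = plab Y h s0) ≤
      g (C1 * τ) ‖vs s - vs s0‖ ^ k := by
  have hC1 := M.hC1
  have hτ := M.hτ
  have hτ1 : 0 < C1 * τ := by positivity
  have h1 : ∀ h : Fin k → X, ind (plab Y h s = plab Y h s0) =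
      (if ∀ i, Y (h i) s = Y (h i) s0 then 1 else 0) := by
    intro h
    rw [ind_eq]
    exact le_antisymm (ind_mono fun h i => congrFun h i) (ind_mono fun h => funext h)
  simp only [h1]
  rw [sum_prw_forall gam' k (fun x => Y x s = Y x s0)]
  refine pow_le_pow_left₀ (Finset.sum_nonneg fun x _ => mul_nonneg (M.gam'_nonneg x) (by
    split_ifs <;> norm_num)) ?_ k
  by_cases h2 : ‖vs s - vs s0‖ ≤ C1 * τ
  · unfold g
    rw [if_pos h2]
    refine le_trans (Finset.sum_le_sum fun x _ => ?_) M.gam'_sum.le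
    split_ifs
    · exact (mul_one _).le
    · rw [mul_zero]; exact M.gam'_nonneg x
  · have h3 : vs s - vs s0 ≠ 0 := by
      intro h0
      rw [h0, norm_zero] at h2
      exact h2 hτ1.le
    have h4 := M.gam'_small τ (vs s - vs s0) le_rfl h3 ((diff_le M s s0).trans (by norm_num))
    unfold g
    rw [if_neg h2]
    refine le_trans (Finset.sum_le_sum fun x _ => mul_le_mul_of_nonneg_left ?_
      (M.gam'_nonneg x)) h4
    rw [ind_eq, ind_eq]
    exact ind_mono fun h => M.lab_eq x s s0 h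

/-- the coefficients -/
noncomputable def cf (vs : S → E d) (P : S → ℝ) (s0 : S) (Bd : Finset S) (Θ τ τ1 : ℝ) (n : ℕ)
    (s : S) : ℝ :=
  ind (s ∉ Bd) * (P s * g τ1 ‖vs s - vs s0‖ ^ (5 * n) / (Θ * τ ^ (6 * n)))

omit [Fintype S] in
theorem cf_nonneg {P : S → ℝ} (hP : ∀ s, 0 < P s) {s0 : S} {Bd : Finset S} {Θ τ τ1 : ℝ}
    (hΘ : 0 < Θ) (hτ : 0 < τ) (hτ1 : 0 < τ1) (n : ℕ) (s : S) : 0 ≤ cf vs P s0 Bd Θ τ τ1 n s := by
  unfold cf
  have h1 := ind_nonneg (s ∉ Bd)
  have h2 := (hP s).le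
  have h3 : 0 ≤ g τ1 ‖vs s - vs s0‖ := g_nonneg hτ1 _
  positivity

/-- Contribution of one annulus. -/
theorem ann_part (M : Model CL C1 d n τ vs vx lam gam gam' Y) {l1 : ℕ} (P : S → ℝ)
    (hP : ∀ s, 0 < P s) (K N : ℕ) (s0 : S) (hN : 2 / 2 ^ N < τ) (hK : C1 * τ ≤ rad K)
    (hΘ : 0 < theta vs P K (6 * n) s0) {j : ℕ} (hj : j < K) (V : Submodule ℝ (E d))
    (hV : Module.finrank ℝ V ≤ n) :
    ∑ s ∈ ann vs s0 j, cf vs P s0
        (bdS vs P s0 (theta vs P K (6 * n) s0) τ n K l1 N) (theta vs P K (6 * n) s0) τ (C1 * τ) n s *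
        g (C1 * τ) (Metric.infDist (vs s - vs s0) (V : Set (E d))) ^ n ≤
      (2 ^ 5 * 64 ^ 3 * 2 ^ ((l1 + 1) * 3) * C1 ^ 6) ^ n := by
  classical
  set Θ := theta vs P K (6 * n) s0 with hΘdef
  set Bd := bdS vs P s0 Θ τ n K l1 N with hBd
  set τ1 := C1 * τ with hτ1def
  have hC1 := M.hC1
  have hτ := M.hτ
  have hn := M.hn
  have hτ1 : 0 < τ1 := by positivity
  have hr := rad_pos j
  have hrj : τ1 ≤ rad j / 2 := by
    rw [← rad_succ]
    exact hK.trans (rad_anti hj)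
  set om : S → ℝ := fun s => if s ∈ ann vs s0 j ∧ s ∉ Bd then P s else 0 with hom
  have hom0 : ∀ s, 0 ≤ om s := by
    intro s
    simp only [hom]
    split_ifs
    · exact (hP s).le
    · exact le_rfl
  have homne : ∀ s, om s ≠ 0 → s ∈ ann vs s0 j ∧ s ∉ Bd := by
    intro s hs
    by_contra hcon
    exact hs (if_neg hcon)
  have hB0 : 0 < Θ * rad j ^ (6 * n) := mul_pos hΘ (pow_pos hr _)
  have hslab := slab (fun s => vs s - vs s0) om hom0 (rad j) τ1
    (2 ^ ((l1 + 1) * (3 * n)) * (Θ * rad j ^ (6 * n))) hτ1 (by linarith) (by positivity)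
    (fun s hs => (mem_ann.1 (homne s hs).1).2) n n (3 * n) (by omega)
    (fun s hs ρ hρ => by
      refine le_trans ?_ (frostman M P hP K N s0 hN hΘ hj (homne s hs).1 (homne s hs).2 hρ)
      rw [← Finset.sum_subset (Finset.subset_univ (ann vs s0 j))]
      · refine Finset.sum_le_sum fun s' _ => ?_
        split_ifs
        · simp only [hom]
          split_ifs
          · exact le_rfl
          · exact (hP s').le
        · exact le_rfl
      · intro s' _ hs'
        have : om s' = 0 := if_neg fun h => hs' h.1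
        rw [this]
        simp)
    V hV
  -- bound of the terms
  have hterm : ∀ s ∈ ann vs s0 j, cf vs P s0 Bd Θ τ τ1 n s *
      g τ1 (Metric.infDist (vs s - vs s0) (V : Set (E d))) ^ n ≤
      (τ1 / (rad j / 2)) ^ (5 * n) / (Θ * τ ^ (6 * n)) *
        (om s * g τ1 (Metric.infDist (vs s - vs s0) (V : Set (E d))) ^ n) := by
    intro s hs
    have hG0 : 0 ≤ g τ1 (Metric.infDist (vs s - vs s0) (V : Set (E d))) ^ n :=
      pow_nonneg (g_nonneg hτ1 _) _
    by_cases hsb : s ∈ Bd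
    · have h1 : cf vs P s0 Bd Θ τ τ1 n s = 0 := by
        unfold cf
        rw [ind_neg (fun h => h hsb), zero_mul]
      rw [h1, zero_mul]
      have := hom0 s
      positivity
    · have h1 : om s = P s := if_pos ⟨hs, hsb⟩
      have h2 : cf vs P s0 Bd Θ τ τ1 n s =
          g τ1 ‖vs s - vs s0‖ ^ (5 * n) / (Θ * τ ^ (6 * n)) * P s := by
        unfold cf
        rw [ind_pos hsb]
        ring
      rw [h1, h2, mul_assoc]
      refine mul_le_mul_of_nonneg_right ?_ (mul_nonneg (hP s).le hG0)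
      refine div_le_div_of_nonneg_right ?_ (by positivity)
      exact pow_le_pow_left₀ (g_nonneg hτ1 _) (g_le_div hτ1 (mem_ann.1 hs).1.le hrj) _
  calc ∑ s ∈ ann vs s0 j, cf vs P s0 Bd Θ τ τ1 n s *
        g τ1 (Metric.infDist (vs s - vs s0) (V : Set (E d))) ^ n
      ≤ ∑ s ∈ ann vs s0 j, (τ1 / (rad j / 2)) ^ (5 * n) / (Θ * τ ^ (6 * n)) *
        (om s * g τ1 (Metric.infDist (vs s - vs s0) (V : Set (E d))) ^ n) :=
        Finset.sum_le_sum hterm
    _ = (τ1 / (rad j / 2)) ^ (5 * n) / (Θ * τ ^ (6 * n)) *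
        ∑ s ∈ ann vs s0 j, (om s * g τ1 (Metric.infDist (vs s - vs s0) (V : Set (E d))) ^ n) := by
        rw [Finset.mul_sum]
    _ ≤ (τ1 / (rad j / 2)) ^ (5 * n) / (Θ * τ ^ (6 * n)) *
        (64 ^ (3 * n) * (2 ^ ((l1 + 1) * (3 * n)) * (Θ * rad j ^ (6 * n))) * (τ1 / rad j) ^ n) := by
        refine mul_le_mul_of_nonneg_left ?_ (by positivity)
        refine le_trans ?_ hslab
        exact Finset.sum_le_sum_of_subset_of_nonneg (Finset.subset_univ _) fun s _ _ =>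
          mul_nonneg (hom0 s) (pow_nonneg (g_nonneg hτ1 _) _)
    _ = (2 ^ 5 * 64 ^ 3 * 2 ^ ((l1 + 1) * 3) * C1 ^ 6) ^ n := by
        have base : (τ1 / (rad j / 2)) ^ 5 / τ ^ 6 * 64 ^ 3 * 2 ^ ((l1 + 1) * 3) * rad j ^ 6 *
            (τ1 / rad j) = 2 ^ 5 * 64 ^ 3 * 2 ^ ((l1 + 1) * 3) * C1 ^ 6 := by
          rw [hτ1def]
          field_simp
        have e3 : (l1 + 1) * (3 * n) = (l1 + 1) * 3 * n := by ring
        rw [← base]
        generalize τ1 / (rad j / 2) = A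
        generalize τ1 / rad j = F
        rw [mul_pow, mul_pow, mul_pow, mul_pow, div_pow, e3, pow_mul A 5 n, pow_mul τ 6 n,
          pow_mul 64 3 n, pow_mul 2 ((l1 + 1) * 3) n, pow_mul (rad j) 6 n]
        field_simp

/-- Contribution of the smallest ball. -/
theorem core_part (M : Model CL C1 d n τ vs vx lam gam gam' Y) (P : S → ℝ)
    (hP : ∀ s, 0 < P s) (hP1 : ∑ s, P s = 1) (K : ℕ) (s0 : S) (hK : C1 * τ ≤ rad K) {L0 : ℝ}
    (hL0 : L0 ≤ 9 * n * K * Real.log 2) (hPl : ∀ s, P s ≤ Real.exp L0 * lam s) (Bd : Finset S)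
    (V : Submodule ℝ (E d)) (hV : Module.finrank ℝ V ≤ n) :
    ∑ s ∈ univ.filter (fun s => ‖vs s - vs s0‖ ≤ rad K),
      cf vs P s0 Bd (theta vs P K (6 * n) s0) τ (C1 * τ) n s *
        g (C1 * τ) (Metric.infDist (vs s - vs s0) (V : Set (E d))) ^ n ≤
      (2 ^ 6 * 64 ^ 15 * CL ^ 15 * 2 ^ 9 * C1 ^ 6) ^ n := by
  classical
  set Θ := theta vs P K (6 * n) s0 with hΘdef
  set τ1 := C1 * τ with hτ1def
  have hC1 := M.hC1
  have hCL := M.hCL
  have hτ := M.hτ
  have hn := M.hn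
  have hτ1 : 0 < τ1 := by positivity
  have hr := rad_pos K
  have hΘ2 : 1 / 2 ^ (6 * n) ≤ Θ := theta_ge vs M.vs_le P hP1 K (6 * n) s0
  have hΘ : 0 < Θ := lt_of_lt_of_le (by positivity) hΘ2
  set om : S → ℝ := fun s => if ‖vs s - vs s0‖ ≤ rad K then lam s else 0 with hom
  have hom0 : ∀ s, 0 ≤ om s := by
    intro s
    simp only [hom]
    split_ifs
    · exact (M.lam_pos s).le
    · exact le_rfl
  have homne : ∀ s, om s ≠ 0 → ‖vs s - vs s0‖ ≤ rad K := by
    intro s hs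
    by_contra hcon
    exact hs (if_neg hcon)
  have hslab := slab (fun s => vs s - vs s0) om hom0 (rad K) τ1
    ((CL * rad K) ^ (15 * n)) hτ1 hK (by positivity)
    (fun s hs => homne s hs) n (6 * n) (15 * n) (by omega)
    (fun s hs ρ hρ => by
      have h1 := M.lam_ball (vs s) ρ (le_trans (by nlinarith) hρ)
      calc ∑ s', (if ‖vs s' - vs s0 - (vs s - vs s0)‖ ≤ ρ then om s' else 0)
          ≤ ∑ s', (if ‖vs s' - vs s‖ ≤ ρ then lam s' else 0) := by
            refine Finset.sum_le_sum fun s' _ => ?_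
            rw [sub_sub_sub_cancel_right]
            split_ifs
            · simp only [hom]
              split_ifs
              · exact le_rfl
              · exact (M.lam_pos s').le
            · exact le_rfl
        _ ≤ (CL * ρ) ^ (15 * n) := h1
        _ = (CL * rad K) ^ (15 * n) * (ρ / rad K) ^ (15 * n) := by
            rw [← mul_pow]
            congr 1
            field_simp)
    V hV
  have hexp : Real.exp L0 ≤ 2 ^ (9 * n * K) := by
    calc Real.exp L0 ≤ Real.exp (9 * n * K * Real.log 2) := Real.exp_le_exp.2 hL0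
      _ = 2 ^ (9 * n * K) := by
        rw [mul_comm, Real.exp_mul, Real.exp_log (by norm_num)]
        rw [show (9 * n * K : ℝ) = ((9 * n * K : ℕ) : ℝ) by push_cast; ring, Real.rpow_natCast]
  have hterm : ∀ s ∈ univ.filter (fun s => ‖vs s - vs s0‖ ≤ rad K),
      cf vs P s0 Bd Θ τ τ1 n s *
      g τ1 (Metric.infDist (vs s - vs s0) (V : Set (E d))) ^ n ≤
      Real.exp L0 * 2 ^ (6 * n) / τ ^ (6 * n) *
        (om s * g τ1 (Metric.infDist (vs s - vs s0) (V : Set (E d))) ^ (6 * n)) := by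
    intro s hs
    rw [Finset.mem_filter] at hs
    have hG0 : 0 ≤ g τ1 (Metric.infDist (vs s - vs s0) (V : Set (E d))) := g_nonneg hτ1 _
    have hg0 : 0 ≤ g τ1 ‖vs s - vs s0‖ := g_nonneg hτ1 _
    have h1 : om s = lam s := if_pos hs.2
    have h2 : g τ1 ‖vs s - vs s0‖ ≤ g τ1 (Metric.infDist (vs s - vs s0) (V : Set (E d))) := by
      refine g_anti hτ1 ?_
      have := Metric.infDist_le_dist_of_mem (x := vs s - vs s0) (s := (V : Set (E d)))
        (y := 0) V.zero_mem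
      rwa [dist_zero_right] at this
    have h3 : cf vs P s0 Bd Θ τ τ1 n s ≤
        Real.exp L0 * lam s * g τ1 (Metric.infDist (vs s - vs s0) (V : Set (E d))) ^ (5 * n) /
          (1 / 2 ^ (6 * n) * τ ^ (6 * n)) := by
      unfold cf
      calc ind (s ∉ Bd) * (P s * g τ1 ‖vs s - vs s0‖ ^ (5 * n) / (Θ * τ ^ (6 * n)))
          ≤ 1 * (P s * g τ1 ‖vs s - vs s0‖ ^ (5 * n) / (Θ * τ ^ (6 * n))) := by
            refine mul_le_mul_of_nonneg_right ?_ (by
              have := (hP s).le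
              positivity)
            by_cases h : s ∉ Bd
            · rw [ind_pos h]
            · rw [ind_neg h]; exact zero_le_one
        _ = P s * g τ1 ‖vs s - vs s0‖ ^ (5 * n) / (Θ * τ ^ (6 * n)) := one_mul _
        _ ≤ _ := by
            have hl := (M.lam_pos s).le
            refine div_le_div₀ (by positivity) ?_ (by positivity) ?_
            · exact mul_le_mul (hPl s) (pow_le_pow_left₀ hg0 h2 _) (by positivity)
                (by positivity)
            · exact mul_le_mul_of_nonneg_right hΘ2 (by positivity)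
    rw [h1]
    calc cf vs P s0 Bd Θ τ τ1 n s * g τ1 (Metric.infDist (vs s - vs s0) (V : Set (E d))) ^ n
        ≤ (Real.exp L0 * lam s * g τ1 (Metric.infDist (vs s - vs s0) (V : Set (E d))) ^ (5 * n) /
          (1 / 2 ^ (6 * n) * τ ^ (6 * n))) *
          g τ1 (Metric.infDist (vs s - vs s0) (V : Set (E d))) ^ n :=
          mul_le_mul_of_nonneg_right h3 (by positivity)
      _ = _ := by
          rw [show 6 * n = 5 * n + n by ring, pow_add (g τ1 _)]
          field_simp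
  calc ∑ s ∈ univ.filter (fun s => ‖vs s - vs s0‖ ≤ rad K), cf vs P s0 Bd Θ τ τ1 n s *
        g τ1 (Metric.infDist (vs s - vs s0) (V : Set (E d))) ^ n
      ≤ ∑ s ∈ univ.filter (fun s => ‖vs s - vs s0‖ ≤ rad K),
        Real.exp L0 * 2 ^ (6 * n) / τ ^ (6 * n) *
        (om s * g τ1 (Metric.infDist (vs s - vs s0) (V : Set (E d))) ^ (6 * n)) :=
        Finset.sum_le_sum hterm
    _ = Real.exp L0 * 2 ^ (6 * n) / τ ^ (6 * n) *
        ∑ s ∈ univ.filter (fun s => ‖vs s - vs s0‖ ≤ rad K),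
        (om s * g τ1 (Metric.infDist (vs s - vs s0) (V : Set (E d))) ^ (6 * n)) := by
        rw [Finset.mul_sum]
    _ ≤ 2 ^ (9 * n * K) * 2 ^ (6 * n) / τ ^ (6 * n) *
        (64 ^ (15 * n) * (CL * rad K) ^ (15 * n) * (τ1 / rad K) ^ (6 * n)) := by
        refine mul_le_mul ?_ ?_ ?_ (by positivity)
        · refine div_le_div_of_nonneg_right ?_ (by positivity)
          exact mul_le_mul_of_nonneg_right hexp (by positivity)
        · refine le_trans ?_ hslab
          exact Finset.sum_le_sum_of_subset_of_nonneg (Finset.subset_univ _) fun s _ _ =>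
            mul_nonneg (hom0 s) (pow_nonneg (g_nonneg hτ1 _) _)
        · exact Finset.sum_nonneg fun s _ =>
            mul_nonneg (hom0 s) (pow_nonneg (g_nonneg hτ1 _) _)
    _ = (2 ^ 6 * 64 ^ 15 * CL ^ 15 * 2 ^ 9 * C1 ^ 6) ^ n := by
        have e1 : (2 : ℝ) ^ (9 * n * K) * rad K ^ (9 * n) = 2 ^ (9 * n) := by
          unfold rad
          rw [div_pow, ← pow_mul, show K * (9 * n) = 9 * n * K by ring]
          field_simp
        have base : 2 ^ 6 / τ ^ 6 * 64 ^ 15 * (CL * rad K) ^ 15 * (τ1 / rad K) ^ 6 =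
            (2 ^ 6 * 64 ^ 15 * CL ^ 15 * C1 ^ 6) * rad K ^ 9 := by
          rw [hτ1def]
          field_simp
        have e2 : 2 ^ (9 * n * K) * 2 ^ (6 * n) / τ ^ (6 * n) *
            (64 ^ (15 * n) * (CL * rad K) ^ (15 * n) * (τ1 / rad K) ^ (6 * n)) =
            2 ^ (9 * n * K) *
            (2 ^ 6 / τ ^ 6 * 64 ^ 15 * (CL * rad K) ^ 15 * (τ1 / rad K) ^ 6) ^ n := by
          generalize τ1 / rad K = F
          generalize CL * rad K = A
          rw [mul_pow, mul_pow, mul_pow, div_pow, pow_mul 2 6 n, pow_mul τ 6 n, pow_mul 64 15 n,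
            pow_mul A 15 n, pow_mul F 6 n]
          ring
        rw [e2, base, mul_pow, ← pow_mul (rad K), mul_comm (2 ^ (9 * n * K)), mul_assoc,
          mul_comm (rad K ^ (9 * n)), e1, pow_mul 2 9 n, ← mul_pow]
        congr 1
        ring

/-- the hypothesis of `moment` -/
theorem hQ_part (M : Model CL C1 d n τ vs vx lam gam gam' Y) {l1 : ℕ} (P : S → ℝ)
    (hP : ∀ s, 0 < P s) (hP1 : ∑ s, P s = 1) (K N : ℕ) (s0 : S) (hN : 2 / 2 ^ N < τ)
    (hK : C1 * τ ≤ rad K) {L0 : ℝ}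
    (hL0 : L0 ≤ 9 * n * K * Real.log 2) (hPl : ∀ s, P s ≤ Real.exp L0 * lam s) {D3 : ℝ}
    (hD1 : 2 ^ 5 * 64 ^ 3 * 2 ^ ((l1 + 1) * 3) * C1 ^ 6 ≤ D3)
    (hD2 : 2 ^ 6 * 64 ^ 15 * CL ^ 15 * 2 ^ 9 * C1 ^ 6 ≤ D3) (V : Submodule ℝ (E d))
    (hV : Module.finrank ℝ V ≤ n) :
    ∑ s, cf vs P s0
        (bdS vs P s0 (theta vs P K (6 * n) s0) τ n K l1 N) (theta vs P K (6 * n) s0) τ (C1 * τ) n s *
        g (C1 * τ) (Metric.infDist (vs s - vs s0) (V : Set (E d))) ^ n ≤ (K + 1) * D3 ^ n := by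
  classical
  have hC1 := M.hC1
  have hCL := M.hCL
  have hτ := M.hτ
  have hτ1 : 0 < C1 * τ := by positivity
  have hΘ2 : 1 / 2 ^ (6 * n) ≤ theta vs P K (6 * n) s0 := theta_ge vs M.vs_le P hP1 K (6 * n) s0
  have hΘ : 0 < theta vs P K (6 * n) s0 := lt_of_lt_of_le (by positivity) hΘ2
  set Bd := bdS vs P s0 (theta vs P K (6 * n) s0) τ n K l1 N with hBd
  set T : S → ℝ := fun s => cf vs P s0 Bd (theta vs P K (6 * n) s0) τ (C1 * τ) n s *
    g (C1 * τ) (Metric.infDist (vs s - vs s0) (V : Set (E d))) ^ n with hT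
  have hT0 : ∀ s, 0 ≤ T s := fun s =>
    mul_nonneg (cf_nonneg hP hΘ hτ hτ1 n s) (pow_nonneg (g_nonneg hτ1 _) _)
  have h1 : ∀ s, T s ≤ ∑ j ∈ range K, (if s ∈ ann vs s0 j then T s else 0) +
      (if ‖vs s - vs s0‖ ≤ rad K then T s else 0) := by
    intro s
    have hnn : ∀ j ∈ range K, 0 ≤ (if s ∈ ann vs s0 j then T s else 0) := by
      intro j _
      split_ifs
      · exact hT0 s
      · exact le_rfl
    rcases cover vs s0 s (diff_le M s s0) K with h | ⟨j, hj, h⟩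
    · rw [if_pos h]
      have := Finset.sum_nonneg hnn
      linarith
    · have h2 := Finset.single_le_sum (f := fun j => if s ∈ ann vs s0 j then T s else 0) hnn hj
      simp only [if_pos h] at h2
      have h3 : (0 : ℝ) ≤ (if ‖vs s - vs s0‖ ≤ rad K then T s else 0) := by
        split_ifs
        · exact hT0 s
        · exact le_rfl
      linarith
  have hann := fun j (hj : j ∈ range K) => ann_part M (l1 := l1) P hP K N s0 hN hK hΘ
    (Finset.mem_range.1 hj) V hV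
  have hcore := core_part M P hP hP1 K s0 hK hL0 hPl Bd V hV
  calc ∑ s, T s ≤ ∑ s, (∑ j ∈ range K, (if s ∈ ann vs s0 j then T s else 0) +
      (if ‖vs s - vs s0‖ ≤ rad K then T s else 0)) := Finset.sum_le_sum fun s _ => h1 s
    _ = ∑ j ∈ range K, ∑ s ∈ ann vs s0 j, T s +
        ∑ s ∈ univ.filter (fun s => ‖vs s - vs s0‖ ≤ rad K), T s := by
        rw [Finset.sum_add_distrib, Finset.sum_comm, Finset.sum_filter]
        congr 1
        refine Finset.sum_congr rfl fun j _ => ?_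
        rw [Finset.sum_ite_mem, Finset.univ_inter]
    _ ≤ ∑ j ∈ range K, (2 ^ 5 * 64 ^ 3 * 2 ^ ((l1 + 1) * 3) * C1 ^ 6) ^ n +
        (2 ^ 6 * 64 ^ 15 * CL ^ 15 * 2 ^ 9 * C1 ^ 6) ^ n :=
        add_le_add (Finset.sum_le_sum hann) hcore
    _ ≤ ∑ j ∈ range K, D3 ^ n + D3 ^ n :=
        add_le_add (Finset.sum_le_sum fun j _ => pow_le_pow_left₀ (by positivity) hD1 n)
          (pow_le_pow_left₀ (by positivity) hD2 n)
    _ = (K + 1) * D3 ^ n := by
        rw [Finset.sum_const, Finset.card_range, nsmul_eq_mul]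
        ring

end part

end Vale.Agent.Mem.I1

namespace Vale.Agent.Mem

open Finset I1
open scoped InnerProductSpace

theorem good_part (CL C1 : ℝ) : ∃ D : ℝ, 1 ≤ D ∧ ∀ {S X : Type} [Fintype S] [DecidableEq S]
    [Fintype X]
    {d n : ℕ} {τ : ℝ} {vs : S → E d} {vx : X → E d} {lam : S → ℝ} {gam gam' : X → ℝ}
    {Y : X → S → ℤ} (_ : Model CL C1 d n τ vs vx lam gam gam' Y) (K : ℕ) (L0 : ℝ)
    (_ : L0 ≤ 9 * n * K * Real.log 2) (_ : C1 * τ ≤ rad K) (P : S → ℝ) (_ : ∀ s, 0 < P s)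
    (_ : ∑ s, P s = 1) (_ : ∀ s, P s ≤ Real.exp L0 * lam s) (s0 : S),
    ∃ Bd : Finset S,
      ∑ h : Fin (5 * n) → X, prw gam' h *
        (if ∃ s ∈ Bd, plab Y h s = plab Y h s0 then 1 else 0) ≤ 2 * K / 16 ^ n ∧
      ∑ x : Fin n → X, prw gam x * (1 + ∑ h : Fin (5 * n) → X, prw gam' h *
        ((∑ s ∈ Bdᶜ, if plab Y x s = plab Y x s0 ∧ plab Y h s = plab Y h s0 then P s else 0) /
          (theta vs P K (6 * n) s0 * τ ^ (6 * n)))) ^ n ≤ ((K + 1) * D ^ n) ^ n := by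
  by_cases hC : 1 ≤ C1 ∧ 1 ≤ CL
  swap
  · refine ⟨1, le_rfl, ?_⟩
    intro S X _ _ _ d n τ vs vx lam gam gam' Y M
    exact absurd ⟨M.hC1, M.hCL⟩ hC
  obtain ⟨hC1, hCL⟩ := hC
  obtain ⟨CH, hCH, haux⟩ := aux_hit C1 hC1
  obtain ⟨l1, hl1'⟩ := pow_unbounded_of_one_lt (16 * (4 * CH) ^ 5) (one_lt_two (α := ℝ))
  have hl1 : 16 * (4 * CH) ^ 5 ≤ 2 ^ (2 * l1) :=
    hl1'.le.trans (pow_le_pow_right₀ (by norm_num) (by omega))
  obtain ⟨D3, hD1, hD2, hD3⟩ : ∃ D3 : ℝ, 2 ^ 5 * 64 ^ 3 * 2 ^ ((l1 + 1) * 3) * C1 ^ 6 ≤ D3 ∧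
      2 ^ 6 * 64 ^ 15 * CL ^ 15 * 2 ^ 9 * C1 ^ 6 ≤ D3 ∧ 1 ≤ D3 :=
    ⟨max (max (2 ^ 5 * 64 ^ 3 * 2 ^ ((l1 + 1) * 3) * C1 ^ 6)
      (2 ^ 6 * 64 ^ 15 * CL ^ 15 * 2 ^ 9 * C1 ^ 6)) 1, (le_max_left _ _).trans (le_max_left _ _),
      (le_max_right _ _).trans (le_max_left _ _), le_max_right _ _⟩
  refine ⟨4 * D3, by linarith, ?_⟩
  intro S X _ _ _ d n τ vs vx lam gam gam' Y M K L0 hL0 hK P hP hP1 hPl s0
  have hτ := M.hτ
  have hn := M.hn
  have hτ1 : 0 < C1 * τ := by positivity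
  have hΘ2 : 1 / 2 ^ (6 * n) ≤ theta vs P K (6 * n) s0 := theta_ge vs M.vs_le P hP1 K (6 * n) s0
  have hΘ : 0 < theta vs P K (6 * n) s0 := lt_of_lt_of_le (by positivity) hΘ2
  obtain ⟨N, hN⟩ : ∃ N : ℕ, 2 / 2 ^ N < τ := by
    obtain ⟨N, hN⟩ := pow_unbounded_of_one_lt (2 / τ) (one_lt_two (α := ℝ))
    exact ⟨N, by rw [div_lt_iff₀ (by positivity)]; rw [div_lt_iff₀ hτ] at hN; linarith⟩
  refine ⟨bdS vs P s0 (theta vs P K (6 * n) s0) τ n K l1 N, ?_, ?_⟩
  · have h := bd_prob M hCH hl1 (fun c hc hc2 ρ hρ => by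
      have := haux d (5 * n) (by omega) (by have := M.hd'; omega) τ hτ vx gam' M.gam'_nonneg
        M.gam'_sum M.gam'_small M.gam'_norm c hc hc2 ρ hρ
      simp only [ind_eq] at this
      exact this) P hP K N s0 hΘ
    simp only [ind_eq]
    exact h
  · set Bd := bdS vs P s0 (theta vs P K (6 * n) s0) τ n K l1 N with hBd
    set Θ := theta vs P K (6 * n) s0 with hΘdef
    set c := cf vs P s0 Bd Θ τ (C1 * τ) n with hc
    have hc0 : ∀ s, 0 ≤ c s := fun s => cf_nonneg hP hΘ hτ hτ1 n s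
    set G : (Fin n → X) → ℝ := fun x =>
      ∑ s, c s * (if ∀ i, |⟪vx (x i), vs s - vs s0⟫_ℝ| ≤ τ then 1 else 0) with hG
    have hG0 : ∀ x, 0 ≤ G x := fun x => Finset.sum_nonneg fun s _ =>
      mul_nonneg (hc0 s) (by split_ifs <;> norm_num)
    have hmom := moment n n vx gam M.gam_nonneg M.gam_sum τ (C1 * τ) hτ1 M.gam_small
      (fun s => vs s - vs s0) (fun s => diff_le M s s0) c hc0 ((K + 1) * D3 ^ n)
      (fun V hV => hQ_part M P hP hP1 K N s0 hN hK hL0 hPl hD1 hD2 V hV)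
    have hx : ∀ x : Fin n → X, ∑ h : Fin (5 * n) → X, prw gam' h *
        ((∑ s ∈ Bdᶜ, if plab Y x s = plab Y x s0 ∧ plab Y h s = plab Y h s0 then P s else 0) /
          (Θ * τ ^ (6 * n))) ≤ G x := by
      intro x
      have h1 : ∑ h : Fin (5 * n) → X, prw gam' h *
        ((∑ s ∈ Bdᶜ, if plab Y x s = plab Y x s0 ∧ plab Y h s = plab Y h s0 then P s else 0) /
          (Θ * τ ^ (6 * n))) =
          ∑ s ∈ Bdᶜ, ind (plab Y x s = plab Y x s0) * (P s / (Θ * τ ^ (6 * n))) *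
            ∑ h : Fin (5 * n) → X, prw gam' h * ind (plab Y h s = plab Y h s0) := by
        simp only [Finset.mul_sum, Finset.sum_div]
        rw [Finset.sum_comm]
        refine Finset.sum_congr rfl fun s _ => Finset.sum_congr rfl fun h _ => ?_
        by_cases h1 : plab Y x s = plab Y x s0
        · by_cases h2 : plab Y h s = plab Y h s0
          · rw [if_pos ⟨h1, h2⟩, ind_pos h1, ind_pos h2]; ring
          · rw [if_neg (fun h => h2 h.2), ind_neg h2]; ring
        · rw [if_neg (fun h => h1 h.1), ind_neg h1]; ring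
      rw [h1]
      simp only [hG]
      refine le_trans (Finset.sum_le_sum (g := fun s => c s *
        (if ∀ i, |⟪vx (x i), vs s - vs s0⟫_ℝ| ≤ τ then 1 else 0)) fun s hs => ?_)
        (Finset.sum_le_sum_of_subset_of_nonneg (Finset.subset_univ _) fun s _ _ =>
          mul_nonneg (hc0 s) (by split_ifs <;> norm_num))
      have hsb : s ∉ Bd := Finset.mem_compl.1 hs
      have h2 := aux_sep M (5 * n) s s0
      have h3 : ind (plab Y x s = plab Y x s0) ≤
          (if ∀ i, |⟪vx (x i), vs s - vs s0⟫_ℝ| ≤ τ then 1 else 0) := by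
        rw [ind_eq]
        exact ind_mono fun h i => M.lab_eq _ _ _ (congrFun h i)
      have h4 : c s = P s / (Θ * τ ^ (6 * n)) * g (C1 * τ) ‖vs s - vs s0‖ ^ (5 * n) := by
        simp only [hc]
        unfold cf
        rw [ind_pos hsb]
        ring
      have h5 : 0 ≤ P s / (Θ * τ ^ (6 * n)) := by
        have := (hP s).le
        positivity
      have h6 : 0 ≤ g (C1 * τ) ‖vs s - vs s0‖ ^ (5 * n) := pow_nonneg (g_nonneg hτ1 _) _
      calc ind (plab Y x s = plab Y x s0) * (P s / (Θ * τ ^ (6 * n))) *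
            ∑ h : Fin (5 * n) → X, prw gam' h * ind (plab Y h s = plab Y h s0)
          ≤ ind (plab Y x s = plab Y x s0) * (P s / (Θ * τ ^ (6 * n))) *
            g (C1 * τ) ‖vs s - vs s0‖ ^ (5 * n) :=
            mul_le_mul_of_nonneg_left h2 (mul_nonneg (ind_nonneg _) h5)
        _ = c s * ind (plab Y x s = plab Y x s0) := by rw [h4]; ring
        _ ≤ _ := mul_le_mul_of_nonneg_left h3 (hc0 s)
    have hpr : ∀ x : Fin n → X, 0 ≤ prw gam x := fun x => prw_nonneg M.gam_nonneg x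
    have hL0' : ∀ x : Fin n → X, 0 ≤ ∑ h : Fin (5 * n) → X, prw gam' h *
        ((∑ s ∈ Bdᶜ, if plab Y x s = plab Y x s0 ∧ plab Y h s = plab Y h s0 then P s else 0) /
          (Θ * τ ^ (6 * n))) := by
      intro x
      refine Finset.sum_nonneg fun h _ => mul_nonneg (prw_nonneg M.gam'_nonneg h)
        (div_nonneg (Finset.sum_nonneg fun s _ => ?_) (by positivity))
      split_ifs
      · exact (hP s).le
      · exact le_rfl
    have hpow : ∀ x : Fin n → X, (1 + G x) ^ n ≤ 2 ^ n * (1 + G x ^ n) := by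
      intro x
      rcases le_total (G x) 1 with h | h
      · calc (1 + G x) ^ n ≤ 2 ^ n := pow_le_pow_left₀ (by linarith [hG0 x]) (by linarith) n
          _ ≤ 2 ^ n * (1 + G x ^ n) := by
            have := pow_nonneg (hG0 x) n
            nlinarith [pow_pos (two_pos (α := ℝ)) n]
      · calc (1 + G x) ^ n ≤ (2 * G x) ^ n := pow_le_pow_left₀ (by linarith) (by linarith) n
          _ = 2 ^ n * G x ^ n := mul_pow _ _ _
          _ ≤ 2 ^ n * (1 + G x ^ n) := by
            have := pow_pos (two_pos (α := ℝ)) n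
            nlinarith
    have hQ1 : 1 ≤ (K + 1) * D3 ^ n := by
      have h1 : (1 : ℝ) ≤ D3 ^ n := one_le_pow₀ hD3
      have h2 : (0 : ℝ) ≤ K := Nat.cast_nonneg K
      nlinarith
    calc ∑ x : Fin n → X, prw gam x * (1 + ∑ h : Fin (5 * n) → X, prw gam' h *
        ((∑ s ∈ Bdᶜ, if plab Y x s = plab Y x s0 ∧ plab Y h s = plab Y h s0 then P s else 0) /
          (Θ * τ ^ (6 * n)))) ^ n
        ≤ ∑ x : Fin n → X, prw gam x * (2 ^ n * (1 + G x ^ n)) := by
          refine Finset.sum_le_sum fun x _ => mul_le_mul_of_nonneg_left ?_ (hpr x)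
          refine le_trans (pow_le_pow_left₀ ?_ ?_ n) (hpow x)
          · have := hL0' x
            linarith
          · have := hx x
            linarith
      _ = 2 ^ n * (∑ x : Fin n → X, prw gam x + ∑ x : Fin n → X, prw gam x * G x ^ n) := by
          rw [← Finset.sum_add_distrib, Finset.mul_sum]
          exact Finset.sum_congr rfl fun x _ => by ring
      _ ≤ 2 ^ n * (1 + ((K + 1) * D3 ^ n) ^ n) := by
          refine mul_le_mul_of_nonneg_left (add_le_add ?_ hmom) (by positivity)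
          rw [sum_prw, M.gam_sum, one_pow]
      _ ≤ 2 ^ n * (2 ^ n * ((K + 1) * D3 ^ n) ^ n) := by
          refine mul_le_mul_of_nonneg_left ?_ (by positivity)
          have h1 : (1 : ℝ) ≤ ((K + 1) * D3 ^ n) ^ n := one_le_pow₀ hQ1
          have h2 : (2 : ℝ) ≤ 2 ^ n := by
            calc (2 : ℝ) = 2 ^ 1 := (pow_one _).symm
              _ ≤ 2 ^ n := pow_le_pow_right₀ (by norm_num) hn
          nlinarith
      _ = (4 * ((K + 1) * D3 ^ n)) ^ n := by
          rw [mul_pow 4, ← mul_assoc, ← mul_pow]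
          norm_num
      _ ≤ ((K + 1) * (4 * D3) ^ n) ^ n := by
          refine pow_le_pow_left₀ (by positivity) ?_ n
          rw [mul_pow]
          have h1 : (4 : ℝ) ≤ 4 ^ n := by
            calc (4 : ℝ) = 4 ^ 1 := (pow_one _).symm
              _ ≤ 4 ^ n := pow_le_pow_right₀ (by norm_num) hn
          have h2 : 0 ≤ ((K : ℝ) + 1) * D3 ^ n := by positivity
          nlinarith

end Vale.Agent.Mem
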