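import Vale.Agent.Mem.PartA
import Vale.Agent.Mem.PartB
import Vale.Agent.Mem.PartC
import Vale.Agent.Mem.PartE
import Vale.Agent.Mem.PartI1
import Vale.Agent.Mem.CellAvg
import Vale.Agent.Mem.I2Abs

/-!
# P309: increment of the potential in one window
-/

namespace Vale.Agent.Mem

open Finset
open scoped InnerProductSpace

namespace I2

theorem theta_ge {S : Type} [Fintype S] {d : ℕ} {vs : S → E d} (hvs : ∀ s, ‖vs s‖ ≤ 1) {P : S → ℝ}
    (hP1 : ∑ s, P s = 1) (K m : ℕ) (s : S) : 1 / 2 ^ m ≤ theta vs P K m s := by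
  unfold theta
  have h : bm vs P s (rad 0) / rad 0 ^ m = 1 / 2 ^ m := by
    have h1 : rad 0 = 2 := by simp [rad]
    rw [h1]
    congr 1
    rw [← hP1, bm]
    refine Finset.sum_congr rfl fun s' _ => ?_
    rw [if_pos]
    calc ‖vs s' - vs s‖ ≤ ‖vs s'‖ + ‖vs s‖ := norm_sub_le _ _
      _ ≤ 2 := by linarith [hvs s, hvs s']
  rw [← h]
  exact Finset.le_sup' (fun j => bm vs P s (rad j) / rad j ^ m) (by simp)

theorem numeric {n K : ℕ} {L0 D' LD : ℝ} (hn : 1 ≤ n) (hK : (K : ℝ) + 3 ≤ 2 ^ n)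
    (hL1 : 1 ≤ L0) (hL0 : L0 ≤ 2 ^ n) (hD' : 1 ≤ D') (hLD : Real.log D' ≤ LD) :
    (L0 + 6 * n * Real.log 2 + Real.log (1 + D' ^ n)) * (2 * K / 16 ^ n) ≤
      n * (LD + 8) := by
  have hn' : (1 : ℝ) ≤ n := by exact_mod_cast hn
  have hl2 : Real.log 2 ≤ 1 := by linarith [Real.log_two_lt_d9]
  have hl20 : 0 ≤ Real.log 2 := Real.log_nonneg (by norm_num)
  have hLD0 : 0 ≤ LD := (Real.log_nonneg hD').trans hLD
  have hDn : 1 ≤ D' ^ n := one_le_pow₀ hD'
  have h1 : Real.log (1 + D' ^ n) ≤ 1 + n * LD := by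
    calc Real.log (1 + D' ^ n) ≤ Real.log (2 * D' ^ n) :=
          Real.log_le_log (by linarith) (by linarith)
      _ = Real.log 2 + n * Real.log D' := by
          rw [Real.log_mul (by norm_num) (by positivity), Real.log_pow]
      _ ≤ 1 + n * LD := by gcongr
  have h2 : L0 + 6 * n * Real.log 2 + Real.log (1 + D' ^ n) ≤ 2 ^ n + (6 * n + 1 + n * LD) := by
    nlinarith
  have h8 : (1 : ℝ) ≤ 4 ^ n := one_le_pow₀ (by norm_num)
  have h9 : (2 : ℝ) ^ n * 4 ^ n = 8 ^ n := by rw [← mul_pow]; norm_num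
  have h10 : (2 : ℝ) ^ n * 8 ^ n = 16 ^ n := by rw [← mul_pow]; norm_num
  have h11 : (2 : ℝ) ^ n ≥ 2 := by
    calc (2 : ℝ) ^ n ≥ 2 ^ 1 := pow_le_pow_right₀ (by norm_num) hn
      _ = 2 := by norm_num
  have h3 : 2 * (K : ℝ) / 16 ^ n ≤ 2 / 8 ^ n := by
    rw [div_le_div_iff₀ (by positivity) (by positivity), ← h10]
    have : (0 : ℝ) < 8 ^ n := by positivity
    nlinarith
  have h4 : 0 ≤ L0 + 6 * n * Real.log 2 + Real.log (1 + D' ^ n) := by
    have := Real.log_nonneg (show 1 ≤ 1 + D' ^ n by linarith)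
    positivity
  have h5 : (0 : ℝ) ≤ 2 * K / 16 ^ n := by positivity
  have h6 : (2 : ℝ) ^ n * (2 / 8 ^ n) ≤ 1 := by
    rw [← h9]
    have : (2 : ℝ) ^ n * (2 / (2 ^ n * 4 ^ n)) = 2 / 4 ^ n := by
      have : (2 : ℝ) ^ n ≠ 0 := by positivity
      field_simp
    rw [this, div_le_one (by positivity)]
    calc (2 : ℝ) ≤ 2 ^ n := h11
      _ ≤ 4 ^ n := pow_le_pow_left₀ (by norm_num) (by norm_num) _
  have h7 : (2 : ℝ) / 8 ^ n ≤ 1 := by
    rw [div_le_one (by positivity)]
    calc (2 : ℝ) ≤ 2 ^ n := h11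
      _ ≤ 8 ^ n := pow_le_pow_left₀ (by norm_num) (by norm_num) _
  have h12 : 0 ≤ 6 * n + 1 + n * LD := by positivity
  calc (L0 + 6 * n * Real.log 2 + Real.log (1 + D' ^ n)) * (2 * K / 16 ^ n) ≤
        (2 ^ n + (6 * n + 1 + n * LD)) * (2 / 8 ^ n) :=
        mul_le_mul h2 h3 h5 (by positivity)
    _ = 2 ^ n * (2 / 8 ^ n) + (6 * n + 1 + n * LD) * (2 / 8 ^ n) := by ring
    _ ≤ 1 + (6 * n + 1 + n * LD) * 1 := by gcongr
    _ ≤ n * (LD + 8) := by nlinarith

end I2

theorem window (CL C1 : ℝ) : ∃ C4 : ℝ, 0 < C4 ∧ ∀ {S X Z : Type} [Fintype S] [Fintype X]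
    [Fintype Z] {d n : ℕ} {τ : ℝ} {vs : S → E d} {vx : X → E d} {lam : S → ℝ} {gam gam' : X → ℝ}
    {Y : X → S → ℤ} (_ : Model CL C1 d n τ vs vx lam gam gam' Y)
    (κ : Z → (Fin n → X) → (Fin n → ℤ) → Z → ℝ) (L0 : ℝ)
    (_ : ∀ z x l z', Real.exp (-L0) ≤ κ z x l z') (_ : ∀ z x l, ∑ z', κ z x l z' = 1)
    (u : Z → S → ℝ) (_ : ∀ z s, 0 < u z s) (_ : ∀ s, ∑ z, u z s = 1) (K : ℕ)
    (_ : 1 ≤ L0) (_ : L0 ≤ 9 * n * K * Real.log 2) (_ : (K : ℝ) + 3 ≤ 2 ^ n)
    (_ : L0 ≤ 2 ^ n) (_ : C1 * τ ≤ rad K),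
    pot lam (prw gam (w := n)) (prw gam' (w := 5 * n)) (plab Y) (plab Y)
      (un (prw gam (w := n)) (plab Y) κ u)
      - pot lam (prw gam (w := n)) (prw gam' (w := 5 * n)) (plab Y) (plab Y) u ≤
      Real.log (Fintype.card Z) / n + C4 * n := by
  classical
  obtain ⟨D, hD, hgood⟩ := good_part CL C1
  refine ⟨6 * (|C1| + 3) + |Real.log D| + |Real.log ((128 * CL) ^ 15 * C1 ^ 6)| + 20,
    by positivity, ?_⟩
  intro S X Z _ _ _ d n τ vs vx lam gam gam' Y M κ L0 hκ hκ1 u hu hu1 K hL1 hL0K hK hL0 hCr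
  have hκ0 : ∀ z x l z', 0 < κ z x l z' := fun z x l z' =>
    (Real.exp_pos _).trans_le (hκ z x l z')
  have hτ := M.hτ
  have hC1 := M.hC1
  have hn := M.hn
  have hΓ0 : ∀ x : Fin n → X, 0 ≤ prw gam x := I2.prw_nonneg M.gam_nonneg
  have hΓ1 : ∑ x : Fin n → X, prw gam x = 1 := I2.prw_sum M.gam_sum n
  have hΗ0 : ∀ x : Fin (5 * n) → X, 0 ≤ prw gam' x := I2.prw_nonneg M.gam'_nonneg
  have hΗ1 : ∑ x : Fin (5 * n) → X, prw gam' x = 1 := I2.prw_sum M.gam'_sum (5 * n)
  have hlam0 : ∀ s, 0 ≤ lam s := fun s => (M.lam_pos s).le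
  have hCL := M.hCL
  have hD' : 1 ≤ (128 * CL) ^ 15 * C1 ^ 6 := by
    have h1 : 1 ≤ (128 * CL) ^ 15 := one_le_pow₀ (by linarith)
    have h2 : 1 ≤ C1 ^ 6 := one_le_pow₀ hC1
    nlinarith
  -- the transition probabilities
  set q : (Fin n → X) → Z → S → ℝ := fun x z s => qn (plab Y) κ u x z s with hqdef
  set u' : Z → S → ℝ := un (prw gam (w := n)) (plab Y) κ u with hu'def
  have hqL : ∀ x z s, Real.exp (-L0) ≤ q x z s := by
    intro x z s
    calc Real.exp (-L0) = ∑ z0, u z0 s * Real.exp (-L0) := by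
          rw [← Finset.sum_mul, hu1, one_mul]
      _ ≤ _ := Finset.sum_le_sum fun z0 _ =>
          mul_le_mul_of_nonneg_left (hκ _ _ _ _) (hu z0 s).le
  have hq0 : ∀ x z s, 0 < q x z s := fun x z s => (Real.exp_pos _).trans_le (hqL x z s)
  have hq1 : ∀ x s, ∑ z, q x z s = 1 := by
    intro x s
    show ∑ z', ∑ z, u z s * κ z x (plab Y x s) z' = 1
    rw [Finset.sum_comm]
    simp only [← Finset.mul_sum, hκ1, mul_one, hu1]
  have hu' : ∀ z s, u' z s = ∑ x, prw gam x * q x z s := fun z s => rfl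
  have hu'L : ∀ z s, Real.exp (-L0) ≤ u' z s := by
    intro z s
    calc Real.exp (-L0) = ∑ x : Fin n → X, prw gam x * Real.exp (-L0) := by
          rw [← Finset.sum_mul, hΓ1, one_mul]
      _ ≤ _ := Finset.sum_le_sum fun x _ => mul_le_mul_of_nonneg_left (hqL _ _ _) (hΓ0 x)
  have hu'0 : ∀ z s, 0 < u' z s := fun z s => (Real.exp_pos _).trans_le (hu'L z s)
  have hu'1 : ∀ s, ∑ z, u' z s = 1 := by
    intro s
    simp only [hu']
    rw [Finset.sum_comm]
    simp only [← Finset.mul_sum, hq1, mul_one, hΓ1]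
  have hu'le : ∀ z s, u' z s ≤ 1 := by
    intro z s
    rw [← hu'1 s]
    exact Finset.single_le_sum (f := fun z => u' z s) (fun z _ => (hu'0 z s).le)
      (Finset.mem_univ z)
  set Pz : Z → ℝ := fun z => ∑ s, lam s * u' z s with hPzdef
  have hPzL : ∀ z, Real.exp (-L0) ≤ Pz z := by
    intro z
    calc Real.exp (-L0) = ∑ s, lam s * Real.exp (-L0) := by
          rw [← Finset.sum_mul, M.lam_sum, one_mul]
      _ ≤ _ := Finset.sum_le_sum fun s _ => mul_le_mul_of_nonneg_left (hu'L _ _) (hlam0 s)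
  have hPz0 : ∀ z, 0 < Pz z := fun z => (Real.exp_pos _).trans_le (hPzL z)
  set P : Z → S → ℝ := fun z s => lam s * u' z s / Pz z with hPdef
  have hP0 : ∀ z s, 0 < P z s := fun z s => div_pos (mul_pos (M.lam_pos s) (hu'0 z s)) (hPz0 z)
  have hP1 : ∀ z, ∑ s, P z s = 1 := by
    intro z
    rw [hPdef]
    simp only
    rw [← Finset.sum_div]
    exact div_self (hPz0 z).ne'
  have hPle : ∀ z s, P z s ≤ Real.exp L0 * lam s := by
    intro z s
    rw [hPdef]
    simp only
    rw [div_le_iff₀ (hPz0 z)]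
    have h1 : 1 ≤ Real.exp L0 * Pz z := by
      calc (1 : ℝ) = Real.exp L0 * Real.exp (-L0) := by
            rw [← Real.exp_add, add_neg_cancel, Real.exp_zero]
        _ ≤ _ := mul_le_mul_of_nonneg_left (hPzL z) (Real.exp_pos _).le
    calc lam s * u' z s ≤ lam s * 1 := mul_le_mul_of_nonneg_left (hu'le z s) (hlam0 s)
      _ ≤ lam s * (Real.exp L0 * Pz z) := mul_le_mul_of_nonneg_left h1 (hlam0 s)
      _ = Real.exp L0 * lam s * Pz z := by ring
  -- the good part
  choose Bd hBd1 hBd2 using fun (z : Z) (s : S) =>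
    hgood M K L0 hL0K hCr (P z) (hP0 z) (hP1 z) (hPle z) s
  set Θ : Z → S → ℝ := fun z s => theta vs (P z) K (6 * n) s with hΘdef
  have hΘ : ∀ z s, 1 / 2 ^ (6 * n) ≤ Θ z s := fun z s =>
    I2.theta_ge M.vs_le (hP1 z) K (6 * n) s
  have hΘ0 : ∀ z s, 0 < Θ z s := fun z s => lt_of_lt_of_le (by positivity) (hΘ z s)
  set G : Z → S → (Fin n → X) → (Fin (5 * n) → X) → ℝ := fun z s x h =>
    (∑ s' ∈ (Bd z s)ᶜ, if plab Y x s' = plab Y x s ∧ plab Y h s' = plab Y h s then P z s' else 0) /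
      (Θ z s * τ ^ (6 * n)) with hGdef
  have hG0 : ∀ z s x h, 0 ≤ G z s x h := by
    intro z s x h
    refine div_nonneg (Finset.sum_nonneg fun s' _ => ?_)
      (mul_nonneg (hΘ0 z s).le (by positivity))
    split_ifs
    · exact (hP0 z s').le
    · exact le_rfl
  set Eb : Z → S → (Fin (5 * n) → X) → ℝ := fun z s h =>
    if ∃ s' ∈ Bd z s, plab Y h s' = plab Y h s then 1 else 0 with hEbdef
  have hEb0 : ∀ z s h, 0 ≤ Eb z s h := by
    intro z s h
    simp only [hEbdef]
    split_ifs <;> norm_num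
  have hEb1 : ∀ z s h, Eb z s h ≤ 1 := by
    intro z s h
    simp only [hEbdef]
    split_ifs <;> norm_num
  set R : (Fin (5 * n) → X) → (Fin n → X) → S → ℝ := fun h x s =>
    cell lam (plab Y) (plab Y) (fun _ => 1) x h s / τ ^ (6 * n) with hRdef
  have hcell0 : ∀ h x s, 0 < cell lam (plab Y (w := n)) (plab Y (w := 5 * n)) (fun _ => 1) x h s :=
    fun h x s => I2.cell_pos lam _ _ _ M.lam_pos (fun _ => one_pos) x h s
  have hR0 : ∀ h x s, 0 ≤ R h x s := fun h x s => div_nonneg (hcell0 h x s).le (by positivity)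
  have hpt : ∀ h x s z,
      Real.log (cell (fun s => lam s * u' z s / Pz z) (plab Y (w := n)) (plab Y (w := 5 * n))
        (fun _ => 1) x h s) ≤
        Real.log (Θ z s) + 6 * n * Real.log τ + Real.log (1 + G z s x h) +
          Eb z s h * (L0 + 6 * n * Real.log 2 + Real.log (1 + R h x s)) := by
    intro h x s z
    have hcP0 : 0 < cell (P z) (plab Y (w := n)) (plab Y (w := 5 * n)) (fun _ => 1) x h s :=
      I2.cell_pos (P z) _ _ _ (hP0 z) (fun _ => one_pos) x h s
    have hτn : (0 : ℝ) < τ ^ (6 * n) := by positivity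
    have hlogτ : Real.log (τ ^ (6 * n)) = 6 * n * Real.log τ := by
      rw [Real.log_pow]; push_cast; ring
    by_cases hE : ∃ s' ∈ Bd z s, plab Y h s' = plab Y h s
    · have h1 : Eb z s h = 1 := if_pos hE
      rw [h1, one_mul]
      have h2 : cell (P z) (plab Y (w := n)) (plab Y (w := 5 * n)) (fun _ => 1) x h s ≤
          Real.exp L0 * (cell lam (plab Y (w := n)) (plab Y (w := 5 * n)) (fun _ => 1) x h s) := by
        unfold cell
        rw [Finset.mul_sum]
        refine Finset.sum_le_sum fun s' _ => ?_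
        split_ifs
        · rw [mul_one, mul_one]; exact hPle z s'
        · simp
      have h3 : Real.log (cell (P z) (plab Y (w := n)) (plab Y (w := 5 * n)) (fun _ => 1) x h s) ≤
          L0 + (Real.log (R h x s) + 6 * n * Real.log τ) := by
        refine (Real.log_le_log hcP0 h2).trans (le_of_eq ?_)
        rw [Real.log_mul (Real.exp_pos _).ne' (hcell0 h x s).ne', Real.log_exp]
        congr 1
        simp only [hRdef]
        rw [Real.log_div (hcell0 h x s).ne' hτn.ne', hlogτ]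
        ring
      have h4 : Real.log (R h x s) ≤ Real.log (1 + R h x s) :=
        Real.log_le_log (div_pos (hcell0 h x s) hτn) (by linarith)
      have h5 : -(6 * n * Real.log 2) ≤ Real.log (Θ z s) := by
        have := Real.log_le_log (by positivity) (hΘ z s)
        rw [one_div, Real.log_inv, Real.log_pow] at this
        push_cast at this
        linarith
      have h6 : 0 ≤ Real.log (1 + G z s x h) := Real.log_nonneg (by linarith [hG0 z s x h])
      change Real.log (cell (P z) (plab Y (w := n)) (plab Y (w := 5 * n)) (fun _ => 1) x h s) ≤ _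
      linarith
    · have h1 : Eb z s h = 0 := if_neg hE
      rw [h1, zero_mul, add_zero]
      have h2 : cell (P z) (plab Y (w := n)) (plab Y (w := 5 * n)) (fun _ => 1) x h s =
          Θ z s * τ ^ (6 * n) * G z s x h := by
        have h3 : Θ z s * τ ^ (6 * n) ≠ 0 := (mul_pos (hΘ0 z s) hτn).ne'
        simp only [hGdef]
        rw [mul_div_cancel₀ _ h3]
        unfold cell
        rw [← Finset.sum_subset (Finset.subset_univ ((Bd z s)ᶜ))]
        · refine Finset.sum_congr rfl fun s' _ => ?_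
          simp
        · intro s' _ hs'
          rw [Finset.mem_compl, not_not] at hs'
          rw [if_neg]
          rintro ⟨_, h5⟩
          exact hE ⟨s', hs', h5⟩
      have h4 : 0 < G z s x h := by
        by_contra h5
        have h6 : G z s x h = 0 := le_antisymm (not_lt.1 h5) (hG0 z s x h)
        rw [h6, mul_zero] at h2
        exact hcP0.ne' h2
      change Real.log (cell (P z) (plab Y (w := n)) (plab Y (w := 5 * n)) (fun _ => 1) x h s) ≤ _
      rw [h2, Real.log_mul (mul_pos (hΘ0 z s) hτn).ne' h4.ne', Real.log_mul (hΘ0 z s).ne' hτn.ne',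
        hlogτ]
      have h5 := Real.log_le_log h4 (show G z s x h ≤ 1 + G z s x h by linarith)
      linarith
  have hmain := I2.abs_bound lam (prw gam (w := n)) (prw gam' (w := 5 * n)) (plab Y) (plab Y)
    M.lam_pos M.lam_sum hΓ0 hΓ1 hΗ0 hΗ1 q hq0 hq1 u' hu' hu'0 hu'1 Pz (fun _ => rfl) hPz0
    (6 * n * Real.log τ) ((C1 + 3) * (6 * n) + Real.log (K + 1)) (L0 + 6 * n * Real.log 2)
    (Real.log (Fintype.card Z) / n + (Real.log (K + 1) + n * Real.log D)) (2 * K / 16 ^ n)
    (((128 * CL) ^ 15 * C1 ^ 6) ^ n) (1 + ((128 * CL) ^ 15 * C1 ^ 6) ^ n)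
    (fun z s => Real.log (Θ z s)) ?_ G hG0 Eb hEb0 hEb1 R hR0 hpt ?_ hBd1 ?_ ?_ ?_
  · refine (pot_step lam (prw gam (w := n)) (prw gam' (w := 5 * n)) (plab Y) (plab Y)
      M.lam_pos hΓ0 hΓ1 hΗ0 κ hκ0 hκ1 u hu hu1).trans (hmain.trans ?_)
    have hn' : (1 : ℝ) ≤ n := by exact_mod_cast hn
    have h1 := I2.numeric hn hK hL1 hL0 hD' (le_abs_self _)
    have h2 : (1 + ((128 * CL) ^ 15 * C1 ^ 6) ^ n) / (1 + ((128 * CL) ^ 15 * C1 ^ 6) ^ n) = 1 :=
      div_self (by positivity)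
    have h3 : Real.log (K + 1) ≤ n := by
      calc Real.log (K + 1) ≤ Real.log (2 ^ n) := Real.log_le_log (by positivity) (by linarith)
        _ = n * Real.log 2 := Real.log_pow _ _
        _ ≤ n * 1 := by gcongr; linarith [Real.log_two_lt_d9]
        _ = n := mul_one _
    have h4 : C1 ≤ |C1| := le_abs_self _
    have h5 : (n : ℝ) * Real.log D ≤ n * |Real.log D| := by gcongr; exact le_abs_self _
    rw [h2]
    nlinarith
  · intro z
    have h1 := cell_entropy M n (5 * n) K (by nlinarith) (P z) (hP0 z) (hP1 z)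
    have h2 : n + 5 * n = 6 * n := by ring
    rw [h2] at h1
    push_cast at h1
    have h3 : (n : ℝ) + 5 * n = 6 * n := by ring
    rw [h3] at h1
    refine le_trans (le_of_eq ?_) h1
    ring
  · refine (dv_total lam (prw gam (w := n)) hlam0 M.lam_sum hΓ0 hΓ1 q hq0 hq1 n hn
      (fun z s x => ∑ h, prw gam' h * G z s x h)
      (fun z s x => Finset.sum_nonneg fun h _ => mul_nonneg (hΗ0 h) (hG0 z s x h))).trans ?_
    refine add_le_add_right ?_ _
    have hn' : (0 : ℝ) < n := by exact_mod_cast hn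
    have h1 : ∀ s z, Real.log (∑ x : Fin n → X, prw gam x *
        (1 + ∑ h, prw gam' h * G z s x h) ^ n) / n ≤ Real.log (K + 1) + n * Real.log D := by
      intro s z
      have h2 : 0 < ∑ x : Fin n → X, prw gam x * (1 + ∑ h, prw gam' h * G z s x h) ^ n := by
        calc (0 : ℝ) < ∑ x : Fin n → X, prw gam x * 1 := by simp [hΓ1]
          _ ≤ _ := Finset.sum_le_sum fun x _ => mul_le_mul_of_nonneg_left (one_le_pow₀ (by
              have : 0 ≤ ∑ h, prw gam' h * G z s x h :=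
                Finset.sum_nonneg fun h _ => mul_nonneg (hΗ0 h) (hG0 z s x h)
              linarith)) (hΓ0 x)
      have h3 := Real.log_le_log h2 (hBd2 z s)
      rw [Real.log_pow, Real.log_mul (by positivity) (by positivity), Real.log_pow] at h3
      rw [div_le_iff₀ hn']
      linarith
    calc ∑ s, lam s * ∑ z, (∑ x, prw gam x * q x z s) * (Real.log (∑ x : Fin n → X, prw gam x *
          (1 + ∑ h, prw gam' h * G z s x h) ^ n) / n) ≤
          ∑ s, lam s * ∑ z, u' z s * (Real.log (K + 1) + n * Real.log D) :=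
          Finset.sum_le_sum fun s _ => mul_le_mul_of_nonneg_left (Finset.sum_le_sum fun z _ =>
            mul_le_mul_of_nonneg_left (h1 s z) (hu'0 z s).le) (hlam0 s)
      _ = _ := by
          simp only [← Finset.sum_mul, hu'1, one_mul, M.lam_sum]
  · intro s
    have h1 := I2.cell_avg M (hCr.trans (by
      unfold rad
      exact div_le_self (by norm_num) (one_le_pow₀ (by norm_num)))) s
    have h2 : ∑ h : Fin (5 * n) → X, prw gam' h * ∑ x : Fin n → X, prw gam x * R h x s =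
        (∑ h : Fin (5 * n) → X, prw gam' h * ∑ x : Fin n → X, prw gam x *
          cell lam (plab Y) (plab Y) (fun _ => 1) x h s) / τ ^ (6 * n) := by
      rw [Finset.sum_div]
      refine Finset.sum_congr rfl fun h _ => ?_
      rw [mul_div_assoc, Finset.sum_div]
      congr 1
      refine Finset.sum_congr rfl fun x _ => ?_
      rw [mul_div_assoc]
    rw [h2, div_le_iff₀ (by positivity)]
    exact h1
  · have : 0 ≤ ((128 * CL) ^ 15 * C1 ^ 6) ^ n := by positivity
    linarith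
  · have := Real.log_nonneg (show (1 : ℝ) ≤ 2 by norm_num)
    positivity

end Vale.Agent.Mem
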