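import Vale.Agent.Mem.PartC
import Vale.Agent.Mem.PartE
import Vale.Agent.Mem.CellAvg
import Vale.Agent.Mem.I2Abs

/-!
# P309: lower bound for the potential of a successful learner
-/

namespace Vale.Agent.Mem

open Finset
open scoped InnerProductSpace

namespace J

section abs

variable {S W H Z L L' : Type} [Fintype S] [Fintype W] [Fintype H] [Fintype Z]
  [DecidableEq L] [DecidableEq L']

omit [Fintype W] [Fintype H] in
theorem cell_congr (lam : S → ℝ) (lab : W → S → L) (labh : H → S → L') (f : S → ℝ)
    (x : W) (h : H) {s s' : S} (h1 : lab x s' = lab x s) (h2 : labh h s' = labh h s) :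
    cell lam lab labh f x h s' = cell lam lab labh f x h s := by
  unfold cell
  rw [h1, h2]

omit [Fintype W] [Fintype H] in
/-- Gibbs inequality on the cells -/
theorem gibbs_cell (lam : S → ℝ) (lab : W → S → L) (labh : H → S → L') (hlam : ∀ s, 0 < lam s)
    (f : S → ℝ) (hf : ∀ s, 0 < f s) (x : W) (h : H) (r : S → ℝ) (hr : ∀ s, 0 < r s)
    (hr1 : ∀ s', ∑ s, (if lab x s' = lab x s ∧ labh h s' = labh h s then
      lam s * (r s / cell lam lab labh (fun _ => 1) x h s) else 0) ≤ 1) :
    ∑ s, lam s * (f s * Real.log (r s)) ≤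
      ∑ s, lam s * (f s * Real.log (f s * cell lam lab labh (fun _ => 1) x h s /
        cell lam lab labh f x h s)) := by
  have h1 : ∀ s, 0 < cell lam lab labh (fun _ => 1) x h s := fun s =>
    I2.cell_pos lam lab labh _ hlam (fun _ => one_pos) x h s
  have h2 : ∀ s, 0 < cell lam lab labh f x h s := fun s =>
    I2.cell_pos lam lab labh _ hlam hf x h s
  have h3 : ∀ s, lam s * (f s * Real.log (r s)) + (lam s * f s - lam s *
      (cell lam lab labh f x h s * (r s / cell lam lab labh (fun _ => 1) x h s))) ≤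
      lam s * (f s * Real.log (f s * cell lam lab labh (fun _ => 1) x h s /
        cell lam lab labh f x h s)) := by
    intro s
    have hy : 0 < f s * cell lam lab labh (fun _ => 1) x h s / cell lam lab labh f x h s / r s :=
      div_pos (div_pos (mul_pos (hf s) (h1 s)) (h2 s)) (hr s)
    have h4 := Real.one_sub_inv_le_log_of_pos hy
    rw [Real.log_div (div_pos (mul_pos (hf s) (h1 s)) (h2 s)).ne' (hr s).ne'] at h4
    have h5 : f s * (f s * cell lam lab labh (fun _ => 1) x h s /
        cell lam lab labh f x h s / r s)⁻¹ =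
        cell lam lab labh f x h s * (r s / cell lam lab labh (fun _ => 1) x h s) := by
      have := (hf s).ne'
      have := (h1 s).ne'
      have := (h2 s).ne'
      have := (hr s).ne'
      field_simp
    have h6 := mul_le_mul_of_nonneg_left h4 (hf s).le
    rw [mul_sub, h5, mul_one] at h6
    have h7 := mul_le_mul_of_nonneg_left h6 (hlam s).le
    linarith
  have h4 : ∑ s, lam s * (cell lam lab labh f x h s *
      (r s / cell lam lab labh (fun _ => 1) x h s)) ≤ ∑ s, lam s * f s := by
    calc ∑ s, lam s * (cell lam lab labh f x h s *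
          (r s / cell lam lab labh (fun _ => 1) x h s)) =
          ∑ s', (lam s' * f s') * ∑ s, (if lab x s' = lab x s ∧ labh h s' = labh h s then
            lam s * (r s / cell lam lab labh (fun _ => 1) x h s) else 0) := by
          simp only [Finset.mul_sum]
          rw [Finset.sum_comm]
          refine Finset.sum_congr rfl fun s _ => ?_
          conv_lhs => rw [cell, Finset.sum_mul, Finset.mul_sum]
          refine Finset.sum_congr rfl fun s' _ => ?_
          split_ifs <;> ring
      _ ≤ ∑ s', (lam s' * f s') * 1 := Finset.sum_le_sum fun s' _ =>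
          mul_le_mul_of_nonneg_left (hr1 s') (mul_pos (hlam s') (hf s')).le
      _ = _ := by simp
  have h5 := Finset.sum_le_sum fun s (_ : s ∈ (Finset.univ : Finset S)) => h3 s
  rw [Finset.sum_add_distrib, Finset.sum_sub_distrib] at h5
  linarith

omit [Fintype W] [Fintype H] in
/-- the restriction of the log-sum inequality to a subset and its complement -/
theorem split_cell (lam : S → ℝ) (lab : W → S → L) (labh : H → S → L') (hlam : ∀ s, 0 < lam s)
    (f : S → ℝ) (hf : ∀ s, 0 < f s) (x : W) (h : H) (b : S → ℝ)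
    (hb : ∀ s, b s = 0 ∨ b s = 1) :
    ∑ s, lam s * (f s * (b s * (Real.log (cell lam lab labh (fun _ => 1) x h s) -
      Real.log (cell lam lab labh b x h s)) - Real.log 2)) ≤
      ∑ s, lam s * (f s * Real.log (f s * cell lam lab labh (fun _ => 1) x h s /
        cell lam lab labh f x h s)) := by
  have h1 : ∀ s, 0 < cell lam lab labh (fun _ => 1) x h s := fun s =>
    I2.cell_pos lam lab labh _ hlam (fun _ => one_pos) x h s
  have hb0 : ∀ s, 0 ≤ b s := fun s => by rcases hb s with h | h <;> rw [h]; norm_num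
  have hb1 : ∀ s, b s ≤ 1 := fun s => by rcases hb s with h | h <;> rw [h]; norm_num
  have h2 : ∀ s, b s = 1 → 0 < cell lam lab labh b x h s := by
    intro s hs
    unfold cell
    refine Finset.sum_pos' (fun s' _ => ?_) ⟨s, Finset.mem_univ s, ?_⟩
    · split_ifs
      · exact mul_nonneg (hlam s').le (hb0 s')
      · exact le_rfl
    · rw [if_pos ⟨rfl, rfl⟩, hs, mul_one]; exact hlam s
  have h3 := gibbs_cell lam lab labh hlam f hf x h
    (fun s => if b s = 1 then cell lam lab labh (fun _ => 1) x h s /
      (2 * cell lam lab labh b x h s) else 1 / 2) (fun s => by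
        split_ifs with hs
        · exact div_pos (h1 s) (mul_pos two_pos (h2 s hs))
        · norm_num) ?_
  · refine le_trans (le_of_eq ?_) h3
    refine Finset.sum_congr rfl fun s _ => ?_
    congr 2
    rcases hb s with hs | hs
    · rw [hs, if_neg (by norm_num), zero_mul, zero_sub, one_div, Real.log_inv]
    · rw [hs, if_pos rfl, one_mul, Real.log_div (h1 s).ne' (mul_pos two_pos (h2 s hs)).ne',
        Real.log_mul two_ne_zero (h2 s hs).ne']
      ring
  · intro s'
    have h4 : ∀ s, (if lab x s' = lab x s ∧ labh h s' = labh h s then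
        lam s * ((if b s = 1 then cell lam lab labh (fun _ => 1) x h s /
      (2 * cell lam lab labh b x h s) else 1 / 2) / cell lam lab labh (fun _ => 1) x h s)
        else 0) ≤
        (if lab x s = lab x s' ∧ labh h s = labh h s' then lam s * b s else 0) /
          (2 * cell lam lab labh b x h s') +
        (if lab x s = lab x s' ∧ labh h s = labh h s' then lam s * 1 else 0) /
          (2 * cell lam lab labh (fun _ => 1) x h s') := by
      intro s
      by_cases hc : lab x s' = lab x s ∧ labh h s' = labh h s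
      · have hc' : lab x s = lab x s' ∧ labh h s = labh h s' := ⟨hc.1.symm, hc.2.symm⟩
        rw [if_pos hc, if_pos hc', if_pos hc']
        rw [← cell_congr lam lab labh _ x h hc.1 hc.2, ← cell_congr lam lab labh b x h hc.1 hc.2]
        have h5 := h1 s'
        have h6 : 0 < lam s := hlam s
        rcases hb s with hs | hs
        · rw [hs, if_neg (by norm_num), mul_zero, zero_div, zero_add]
          refine le_of_eq ?_
          field_simp
        · have h7 : 0 < cell lam lab labh b x h s' := by
            rw [cell_congr lam lab labh b x h hc.1 hc.2]; exact h2 s hs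
          rw [hs, if_pos rfl]
          have h8 : 0 ≤ lam s * 1 / (2 * cell lam lab labh (fun _ => 1) x h s') := by positivity
          refine le_trans (le_of_eq ?_) (le_add_of_nonneg_right h8)
          field_simp
      · have hc' : ¬ (lab x s = lab x s' ∧ labh h s = labh h s') := fun h' =>
          hc ⟨h'.1.symm, h'.2.symm⟩
        rw [if_neg hc, if_neg hc', if_neg hc']
        simp
    refine (Finset.sum_le_sum fun s _ => h4 s).trans ?_
    rw [Finset.sum_add_distrib, ← Finset.sum_div, ← Finset.sum_div]
    have h5 : (∑ s, if lab x s = lab x s' ∧ labh h s = labh h s' then lam s * b s else 0) =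
        cell lam lab labh b x h s' := rfl
    have h6 : (∑ s, if lab x s = lab x s' ∧ labh h s = labh h s' then lam s * 1 else 0) =
        cell lam lab labh (fun _ => 1) x h s' := rfl
    rw [h5, h6]
    have h7 : cell lam lab labh b x h s' / (2 * cell lam lab labh b x h s') ≤ 1 / 2 := by
      rcases eq_or_ne (cell lam lab labh b x h s') 0 with h0 | h0
      · rw [h0]; norm_num
      · rw [mul_comm, div_mul_cancel_left₀ h0]; norm_num
    have h8 : cell lam lab labh (fun _ => 1) x h s' /
        (2 * cell lam lab labh (fun _ => 1) x h s') = 1 / 2 := by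
      have := (h1 s').ne'
      field_simp
    rw [h8]
    linarith

/-- sums over the signal and the state outside -/
theorem Ex_comm_sz {lam : S → ℝ} {gam : W → ℝ} {eta : H → ℝ} (F : H → W → S → Z → ℝ) :
    I2.Ex lam gam eta F = ∑ s, lam s * ∑ z, ∑ h, eta h * ∑ x, gam x * F h x s z := by
  rw [I2.Ex_comm_x]
  simp only [Finset.mul_sum]
  rw [Finset.sum_comm]
  refine Finset.sum_congr rfl fun s _ => ?_
  rw [Finset.sum_comm]
  refine Finset.sum_congr rfl fun z _ => Finset.sum_congr rfl fun h _ =>
    Finset.sum_congr rfl fun x _ => ?_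
  ring

/-- abstract form of the lower bound -/
theorem abs_lower (lam : S → ℝ) (gam : W → ℝ) (eta : H → ℝ) (lab : W → S → L)
    (labh : H → S → L') (hlam : ∀ s, 0 < lam s) (hlam1 : ∑ s, lam s = 1) (hgam : ∀ x, 0 ≤ gam x)
    (hg1 : ∑ x, gam x = 1) (heta : ∀ h, 0 ≤ eta h) (he1 : ∑ h, eta h = 1)
    (u : Z → S → ℝ) (hu : ∀ z s, 0 < u z s) (hu1 : ∀ s, ∑ z, u z s = 1)
    (b : Z → S → ℝ) (hb : ∀ z s, b z s = 0 ∨ b z s = 1) (m : ℝ) (hm : 0 < m)
    (hbm : ∀ z s, b z s = 1 → ∑ h, eta h * ∑ x, gam x * cell lam lab labh (b z) x h s ≤ m) :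
    ∑ h, eta h * ∑ x, gam x * ∑ s, lam s * ((∑ z, u z s * b z s) *
        Real.log (cell lam lab labh (fun _ => 1) x h s)) -
      (∑ s, lam s * ∑ z, u z s * b z s) * Real.log m - Real.log 2 ≤
      pot lam gam eta lab labh u := by
  have hlam0 : ∀ s, 0 ≤ lam s := fun s => (hlam s).le
  have hb0 : ∀ z s, 0 ≤ b z s := fun z s => by rcases hb z s with h | h <;> rw [h]; norm_num
  -- step 1
  have h1 : I2.Ex lam gam eta (fun h x s z => u z s * (b z s *
      (Real.log (cell lam lab labh (fun _ => 1) x h s) -
        Real.log (cell lam lab labh (b z) x h s)) - Real.log 2)) ≤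
      pot lam gam eta lab labh u := by
    show _ ≤ I2.Ex lam gam eta (fun h x s z => u z s *
      Real.log (u z s * cell lam lab labh (fun _ => 1) x h s / cell lam lab labh (u z) x h s))
    rw [I2.Ex_comm_z, I2.Ex_comm_z]
    exact Finset.sum_le_sum fun z _ => Finset.sum_le_sum fun h _ => mul_le_mul_of_nonneg_left
      (Finset.sum_le_sum fun x _ => mul_le_mul_of_nonneg_left
        (split_cell lam lab labh hlam (u z) (hu z) x h (b z) (hb z)) (hgam x)) (heta h)
  refine le_trans ?_ h1
  have h2 : I2.Ex lam gam eta (fun h x s z => u z s * (b z s *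
      (Real.log (cell lam lab labh (fun _ => 1) x h s) -
        Real.log (cell lam lab labh (b z) x h s)) - Real.log 2)) =
      I2.Ex lam gam eta (fun h x s z => u z s * (b z s *
        Real.log (cell lam lab labh (fun _ => 1) x h s))) -
      I2.Ex lam gam eta (fun h x s z => u z s * (b z s *
        Real.log (cell lam lab labh (b z) x h s))) -
      I2.Ex lam gam eta (fun h x s z => u z s * Real.log 2) := by
    rw [← I2.Ex_sub, ← I2.Ex_sub]
    exact I2.Ex_congr fun h x s z => by ring
  have h3 : I2.Ex lam gam eta (fun h x s z => u z s * Real.log 2) = Real.log 2 := by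
    rw [I2.Ex_sum_one (q := fun (_ : W) z s => u z s) (fun _ s => hu1 s)
      (fun _ _ _ => Real.log 2)]
    simp only [← Finset.sum_mul]
    rw [hlam1, hg1, he1]; ring
  have h4 : I2.Ex lam gam eta (fun h x s z => u z s * (b z s *
        Real.log (cell lam lab labh (fun _ => 1) x h s))) =
      ∑ h, eta h * ∑ x, gam x * ∑ s, lam s * ((∑ z, u z s * b z s) *
        Real.log (cell lam lab labh (fun _ => 1) x h s)) := by
    unfold I2.Ex
    refine Finset.sum_congr rfl fun h _ => ?_
    congr 1
    refine Finset.sum_congr rfl fun x _ => ?_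
    congr 1
    refine Finset.sum_congr rfl fun s _ => ?_
    congr 1
    rw [Finset.sum_mul]
    exact Finset.sum_congr rfl fun z _ => by ring
  have h5 : I2.Ex lam gam eta (fun h x s z => u z s * (b z s *
        Real.log (cell lam lab labh (b z) x h s))) ≤
      (∑ s, lam s * ∑ z, u z s * b z s) * Real.log m := by
    rw [Ex_comm_sz, Finset.sum_mul]
    refine Finset.sum_le_sum fun s _ => ?_
    rw [mul_assoc]
    refine mul_le_mul_of_nonneg_left ?_ (hlam0 s)
    rw [Finset.sum_mul]
    refine Finset.sum_le_sum fun z _ => ?_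
    have h6 : ∑ h, eta h * ∑ x, gam x * (u z s * (b z s *
        Real.log (cell lam lab labh (b z) x h s))) =
        u z s * b z s * ∑ h, eta h * ∑ x, gam x * Real.log (cell lam lab labh (b z) x h s) := by
      rw [Finset.mul_sum]
      refine Finset.sum_congr rfl fun h _ => ?_
      rw [mul_left_comm]
      congr 1
      rw [Finset.mul_sum]
      refine Finset.sum_congr rfl fun x _ => ?_
      ring
    rw [h6]
    rcases hb z s with hs | hs
    · rw [hs]; simp
    · refine mul_le_mul_of_nonneg_left ?_ (mul_nonneg (hu z s).le (hb0 z s))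
      have h7 : ∀ h x, Real.log (cell lam lab labh (b z) x h s) ≤
          Real.log m - 1 + cell lam lab labh (b z) x h s / m := by
        intro h x
        have h8 : 0 < cell lam lab labh (b z) x h s := by
          unfold cell
          refine Finset.sum_pos' (fun s' _ => ?_) ⟨s, Finset.mem_univ s, ?_⟩
          · split_ifs
            · exact mul_nonneg (hlam s').le (hb0 z s')
            · exact le_rfl
          · rw [if_pos ⟨rfl, rfl⟩, hs, mul_one]; exact hlam s
        have h9 := Real.log_le_sub_one_of_pos (div_pos h8 hm)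
        rw [Real.log_div h8.ne' hm.ne'] at h9
        linarith
      calc ∑ h, eta h * ∑ x, gam x * Real.log (cell lam lab labh (b z) x h s) ≤
            ∑ h, eta h * ∑ x, gam x * (Real.log m - 1 + cell lam lab labh (b z) x h s / m) :=
            Finset.sum_le_sum fun h _ => mul_le_mul_of_nonneg_left (Finset.sum_le_sum fun x _ =>
              mul_le_mul_of_nonneg_left (h7 h x) (hgam x)) (heta h)
        _ = Real.log m - 1 +
            (∑ h, eta h * ∑ x, gam x * cell lam lab labh (b z) x h s) / m := by
            simp only [mul_add, Finset.sum_add_distrib, ← Finset.sum_mul, hg1, he1, one_mul]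
            congr 1
            rw [Finset.sum_div]
            refine Finset.sum_congr rfl fun h _ => ?_
            rw [mul_div_assoc, Finset.sum_div]
            congr 1
            refine Finset.sum_congr rfl fun x _ => ?_
            rw [mul_div_assoc]
        _ ≤ Real.log m := by
            have := (div_le_one hm).2 (hbm z s hs)
            linarith
  rw [h2, h3, h4]
  linarith

end abs

end J

theorem pot_lower (CL C1 : ℝ) : ∃ C5 : ℝ, 0 < C5 ∧ ∀ {S X Z : Type} [Fintype S] [Fintype X]
    [Fintype Z] {d n : ℕ} {τ : ℝ} {vs : S → E d} {vx : X → E d} {lam : S → ℝ} {gam gam' : X → ℝ}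
    {Y : X → S → ℤ} (_ : Model CL C1 d n τ vs vx lam gam gam' Y)
    (u : Z → S → ℝ) (_ : ∀ z s, 0 < u z s) (_ : ∀ s, ∑ z, u z s = 1) (o : Z → E d) (ε : ℝ)
    (_ : 0 < ε) (_ : ε ≤ 1) (_ : C1 * τ ≤ ε),
    (∑ z, ∑ s, lam s * u z s * (if ‖vs s - o z‖ ≤ ε then 1 else 0)) *
        (9 * n * Real.log (1 / ε) - C5 * n) - 2 ≤
      pot lam (prw gam (w := n)) (prw gam' (w := 5 * n)) (plab Y) (plab Y) u := by
  refine ⟨6 * (|C1| + 4) + |Real.log ((128 * CL) ^ 15 * C1 ^ 6)|, by positivity, ?_⟩
  intro S X Z _ _ _ d n τ vs vx lam gam gam' Y M u hu hu1 o ε hε hε1 hr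
  have hτ := M.hτ
  have hC1 := M.hC1
  have hn := M.hn
  have hCL := M.hCL
  have hΓ0 : ∀ x : Fin n → X, 0 ≤ prw gam x := I2.prw_nonneg M.gam_nonneg
  have hΓ1 : ∑ x : Fin n → X, prw gam x = 1 := I2.prw_sum M.gam_sum n
  have hΗ0 : ∀ x : Fin (5 * n) → X, 0 ≤ prw gam' x := I2.prw_nonneg M.gam'_nonneg
  have hΗ1 : ∑ x : Fin (5 * n) → X, prw gam' x = 1 := I2.prw_sum M.gam'_sum (5 * n)
  have hD' : 0 < (128 * CL) ^ 15 * C1 ^ 6 := by positivity
  set b : Z → S → ℝ := fun z s => if ‖vs s - o z‖ ≤ ε then 1 else 0 with hbdef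
  have hb : ∀ z s, b z s = 0 ∨ b z s = 1 := by
    intro z s
    simp only [hbdef]
    split_ifs
    · right; rfl
    · left; rfl
  have hb0 : ∀ z s, 0 ≤ b z s := fun z s => by rcases hb z s with h | h <;> rw [h]; norm_num
  have hb1 : ∀ z s, b z s ≤ 1 := fun z s => by rcases hb z s with h | h <;> rw [h]; norm_num
  have hbn : ∀ z s, b z s ≠ 0 → ‖vs s - o z‖ ≤ ε := by
    intro z s h
    by_contra h'
    exact h (if_neg h')
  set m : ℝ := ((128 * CL) ^ 15 * C1 ^ 6) ^ n * ε ^ (9 * n) * τ ^ (6 * n) with hmdef
  have hm : 0 < m := by positivity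
  have h1 := J.abs_lower lam (prw gam (w := n)) (prw gam' (w := 5 * n)) (plab Y) (plab Y)
    M.lam_pos M.lam_sum hΓ0 hΓ1 hΗ0 hΗ1 u hu hu1 b hb m hm (fun z s hs => by
      refine I2.cell_avg_ball M s (b z) ε (hb0 z) (hb1 z) (fun s' hs' => ?_) hε hr
      have h2 := hbn z s' hs'
      have h3 := hbn z s (by rw [hs]; norm_num)
      calc ‖vs s' - vs s‖ = ‖(vs s' - o z) - (vs s - o z)‖ := by rw [sub_sub_sub_cancel_right]
        _ ≤ ‖vs s' - o z‖ + ‖vs s - o z‖ := norm_sub_le _ _
        _ ≤ 2 * ε := by linarith)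
  have h2 := cell_entropy_partial M n (5 * n) (fun s => ∑ z, u z s * b z s)
    (fun s => Finset.sum_nonneg fun z _ => mul_nonneg (hu z s).le (hb0 z s)) (fun s => by
      rw [← hu1 s]
      exact Finset.sum_le_sum fun z _ => by
        calc u z s * b z s ≤ u z s * 1 := mul_le_mul_of_nonneg_left (hb1 z s) (hu z s).le
          _ = u z s := mul_one _)
  have h3 : ∑ z, ∑ s, lam s * u z s * (if ‖vs s - o z‖ ≤ ε then (1 : ℝ) else 0) =
      ∑ s, lam s * ∑ z, u z s * b z s := by
    rw [Finset.sum_comm]
    refine Finset.sum_congr rfl fun s _ => ?_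
    rw [Finset.mul_sum]
    exact Finset.sum_congr rfl fun z _ => mul_assoc _ _ _
  rw [h3]
  set A := ∑ s, lam s * ∑ z, u z s * b z s with hA
  have hA0 : 0 ≤ A := Finset.sum_nonneg fun s _ => mul_nonneg (M.lam_pos s).le
    (Finset.sum_nonneg fun z _ => mul_nonneg (hu z s).le (hb0 z s))
  have h4 : Real.log m = n * Real.log ((128 * CL) ^ 15 * C1 ^ 6) - 9 * n * Real.log (1 / ε) +
      6 * n * Real.log τ := by
    rw [hmdef, Real.log_mul (by positivity) (by positivity), Real.log_mul (by positivity)
      (by positivity), Real.log_pow, Real.log_pow, Real.log_pow, one_div, Real.log_inv]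
    push_cast
    ring
  have h5 : (((n : ℕ) : ℝ) + ((5 * n : ℕ) : ℝ)) = 6 * n := by push_cast; ring
  rw [h5] at h2
  rw [h4] at h1
  have hl2 : Real.log 2 ≤ 1 := by linarith [Real.log_two_lt_d9]
  have hn0 : (0 : ℝ) ≤ n := Nat.cast_nonneg n
  have h6 : (9 * n * Real.log (1 / ε) -
      (6 * (|C1| + 4) + |Real.log ((128 * CL) ^ 15 * C1 ^ 6)|) * n) ≤
      (6 * n * Real.log τ - (C1 + 4) * (6 * n)) -
      (n * Real.log ((128 * CL) ^ 15 * C1 ^ 6) - 9 * n * Real.log (1 / ε) +
      6 * n * Real.log τ) := by
    have h7 : (n : ℝ) * Real.log ((128 * CL) ^ 15 * C1 ^ 6) ≤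
        n * |Real.log ((128 * CL) ^ 15 * C1 ^ 6)| :=
      mul_le_mul_of_nonneg_left (le_abs_self _) hn0
    have h8 : (n : ℝ) * C1 ≤ n * |C1| := mul_le_mul_of_nonneg_left (le_abs_self _) hn0
    nlinarith
  have h7 := mul_le_mul_of_nonneg_left h6 hA0
  rw [mul_sub] at h7
  linarith
end Vale.Agent.Mem
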