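import Vale.Agent.Mem.PartK0
import Vale.Agent.Mem.PartI2
import Vale.Agent.Mem.PartJ

namespace Vale.Agent.Mem

open Finset

theorem finite_main (CL C1 : ℝ) : ∃ C : ℝ, 0 < C ∧ ∀ {S X Z : Type} [Fintype S] [Fintype X]
    [Fintype Z] {d n : ℕ} {τ : ℝ} {vs : S → E d} {vx : X → E d} {lam : S → ℝ} {gam gam' : X → ℝ}
    {Y : X → S → ℤ} (_ : Model CL C1 d n τ vs vx lam gam gam' Y)
    (F : ℕ → Z → (Fin n → X) → (Fin n → ℤ) → Z) (z0 : Z) (r : ℕ) (_ : 1 ≤ r) (o : Z → E d)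
    (ε : ℝ) (_ : 0 < ε) (_ : ε ≤ 1)
    (_ : 1 / 2 ≤ ∑ z, ∑ s, lam s * ud (prw gam) (plab Y) F z0 r z s *
      (if ‖vs s - o z‖ ≤ ε then 1 else 0))
    (_ : Real.log (Fintype.card Z) + Real.log (4 * r) + 6 ≤ 2 ^ n)
    (_ : C1 * τ * 2 ^ (⌈Real.log (Fintype.card Z) + Real.log (4 * r)⌉₊ + 2) ≤ 1)
    (_ : C1 * τ ≤ ε),
    n * Real.log (1 / ε) ≤ r * (Real.log (Fintype.card Z) / n + C * n) + C * n := by
  obtain ⟨C4, hC4, hwin⟩ := window CL C1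
  obtain ⟨C5, hC5, hlow⟩ := pot_lower CL C1
  refine ⟨C4 + C5 + 2, by positivity, ?_⟩
  intro S X Z _ _ _ d n τ vs vx lam gam gam' Y M F z0 r hr o ε hε hε1 hs h1 h2 h3
  exact finite_core M C4 C5 hC4 hC5
    (fun κ L0 a b u c e K f g h i j => hwin M κ L0 a b u c e K f g h i j) o ε hε hε1
    (fun u a b => hlow M u a b o ε hε hε1 h3) F z0 r hr hs h1 h2

end Vale.Agent.Mem
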