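import Vale.Agent.Mem.Defs2

/-!
# P309, part R2: balls on the sphere and quantised signals
-/

namespace Vale.Agent.Mem

open Finset MeasureTheory ProbabilityTheory
open scoped InnerProductSpace ENNReal

section sphere

variable {d : ℕ}

/-- isometries act transitively on the sphere -/
theorem exists_isometry {u v : E d} (h : ‖u‖ = ‖v‖) : ∃ e : E d ≃ₗᵢ[ℝ] E d, e u = v :=
  ⟨(ℝ ∙ (u - v))ᗮ.reflection, Submodule.reflection_sub h⟩

theorem cap_eq {μ : Measure (E d)} (hμ : IsUniformSphere d μ) {u v : E d} (h : ‖u‖ = ‖v‖) (σ : ℝ) :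
    μ (Metric.closedBall u σ) = μ (Metric.closedBall v σ) := by
  obtain ⟨e, he⟩ := exists_isometry h
  have h1 : e ⁻¹' Metric.closedBall v σ = Metric.closedBall u σ := by
    rw [← he]
    ext x
    simp [Metric.mem_closedBall]
  rw [← h1]
  conv_rhs => rw [← hμ.inv e]
  rw [Measure.map_apply e.continuous.measurable Metric.isClosed_closedBall.measurableSet]

theorem volume_closedBall (x : E d) {r : ℝ} (hr : 0 ≤ r) :
    (volume (Metric.closedBall x r)).toReal = r ^ d * (volume (Metric.ball (0 : E d) 1)).toReal := by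
  rw [Measure.addHaar_closedBall _ _ hr, ENNReal.toReal_mul,
    ENNReal.toReal_ofReal (pow_nonneg hr _)]
  congr 2
  simp

/-- Fubini bound for the mass of a cap -/
theorem cap_le (hd : 1 ≤ d) {μ : Measure (E d)} (hμ : IsUniformSphere d μ) {u : E d}
    (hu : ‖u‖ = 1) {σ : ℝ} (hσ : 0 < σ) (hσ1 : σ ≤ 1) :
    μ.real (Metric.closedBall u σ) * σ ≤ (2 * σ) ^ d := by
  have hp := hμ.prob
  set A : Set (E d) := Metric.closedBall 0 1 \ Metric.ball 0 (1 - σ) with hA
  have hAm : MeasurableSet A :=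
    Metric.isClosed_closedBall.measurableSet.diff Metric.isOpen_ball.measurableSet
  set D : Set (E d × E d) := {p | dist p.1 p.2 ≤ 2 * σ} with hD
  have hDm : MeasurableSet D := (isClosed_le continuous_dist continuous_const).measurableSet
  -- lower bound
  have h1 : μ (Metric.closedBall u σ) * volume A ≤ ((volume.restrict A).prod μ) D := by
    rw [Measure.prod_apply hDm]
    have h2 : ∀ x ∈ A, μ (Metric.closedBall u σ) ≤ μ (Prod.mk x ⁻¹' D) := by
      intro x hx
      have hx1 : ‖x‖ ≤ 1 := by simpa using hx.1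
      have hx2 : 1 - σ ≤ ‖x‖ := by simpa using hx.2
      obtain ⟨x', hx', hxx'⟩ : ∃ x' : E d, ‖x'‖ = 1 ∧ ‖x - x'‖ ≤ σ := by
        by_cases h0 : x = 0
        · refine ⟨u, hu, ?_⟩
          rw [h0, norm_zero] at hx2
          rw [h0, zero_sub, norm_neg, hu]
          linarith
        · have hn : 0 < ‖x‖ := norm_pos_iff.2 h0
          refine ⟨(‖x‖)⁻¹ • x, by rw [norm_smul, norm_inv, norm_norm, inv_mul_cancel₀ hn.ne'], ?_⟩
          have h3 : x - (‖x‖)⁻¹ • x = (1 - (‖x‖)⁻¹) • x := by rw [sub_smul, one_smul]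
          rw [h3, norm_smul, Real.norm_eq_abs, ← abs_of_pos hn, ← abs_mul, abs_of_pos hn, sub_mul,
            one_mul, inv_mul_cancel₀ hn.ne', abs_of_nonpos (by linarith)]
          linarith
      rw [cap_eq hμ (hu.trans hx'.symm) σ]
      refine measure_mono fun y hy => ?_
      have hy' : dist y x' ≤ σ := hy
      show dist x y ≤ 2 * σ
      have h4 : dist x x' ≤ σ := by rw [dist_eq_norm]; exact hxx'
      calc dist x y ≤ dist x x' + dist x' y := dist_triangle _ _ _
        _ ≤ 2 * σ := by rw [dist_comm x' y]; linarith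
    calc μ (Metric.closedBall u σ) * volume A = ∫⁻ _x in A, μ (Metric.closedBall u σ) := by
          rw [setLIntegral_const]
      _ ≤ ∫⁻ x in A, μ (Prod.mk x ⁻¹' D) := setLIntegral_mono' hAm h2
  -- upper bound
  have h5 : ((volume.restrict A).prod μ) D ≤ volume (Metric.closedBall (0 : E d) (2 * σ)) := by
    rw [Measure.prod_apply_symm hDm]
    calc ∫⁻ y, (volume.restrict A) ((fun x => (x, y)) ⁻¹' D) ∂μ ≤
        ∫⁻ _y, volume (Metric.closedBall (0 : E d) (2 * σ)) ∂μ := by
          refine lintegral_mono fun y => ?_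
          have h6 : (fun x : E d => (x, y)) ⁻¹' D = Metric.closedBall y (2 * σ) := rfl
          rw [h6]
          refine (Measure.restrict_apply_le _ _).trans (le_of_eq ?_)
          rw [Measure.addHaar_closedBall_center]
      _ = volume (Metric.closedBall (0 : E d) (2 * σ)) := by
          rw [lintegral_const, measure_univ, mul_one]
  have h7 := h1.trans h5
  -- real numbers
  set v1 := (volume (Metric.ball (0 : E d) 1)).toReal with hv1
  have hv1p : 0 < v1 := ENNReal.toReal_pos (Metric.measure_ball_pos _ _ one_pos).ne'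
    measure_ball_lt_top.ne
  have h8 : (volume A).toReal = v1 - (1 - σ) ^ d * v1 := by
    have h9 : Metric.ball (0 : E d) (1 - σ) ⊆ Metric.closedBall 0 1 :=
      Metric.ball_subset_closedBall.trans (Metric.closedBall_subset_closedBall (by linarith))
    rw [hA, measure_sdiff h9 Metric.isOpen_ball.measurableSet.nullMeasurableSet
      measure_ball_lt_top.ne, ENNReal.toReal_sub_of_le (measure_mono h9)
      measure_closedBall_lt_top.ne, volume_closedBall _ zero_le_one, one_pow, one_mul]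
    congr 1
    by_cases h0 : σ = 1
    · rw [h0, sub_self, Metric.ball_zero, measure_empty, zero_pow (by omega)]
      simp
    · have h10 : 0 < 1 - σ := sub_pos.2 (lt_of_le_of_ne hσ1 h0)
      rw [Measure.addHaar_ball_of_pos _ _ h10, ENNReal.toReal_mul,
        ENNReal.toReal_ofReal (pow_nonneg h10.le _)]
      congr 2
      simp
  have h11 : μ.real (Metric.closedBall u σ) * (v1 - (1 - σ) ^ d * v1) ≤ (2 * σ) ^ d * v1 := by
    rw [← h8, ← volume_closedBall (0 : E d) (by positivity), measureReal_def, ← ENNReal.toReal_mul]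
    exact ENNReal.toReal_mono measure_closedBall_lt_top.ne h7
  have h12 : σ ≤ 1 - (1 - σ) ^ d := by
    have h13 : (1 - σ) ^ d ≤ (1 - σ) ^ 1 :=
      pow_le_pow_of_le_one (by linarith) (by linarith) hd
    rw [pow_one] at h13
    linarith
  have h14 : μ.real (Metric.closedBall u σ) * σ * v1 ≤ (2 * σ) ^ d * v1 := by
    refine le_trans ?_ h11
    have h15 : v1 - (1 - σ) ^ d * v1 = (1 - (1 - σ) ^ d) * v1 := by ring
    rw [h15, ← mul_assoc]
    exact mul_le_mul_of_nonneg_right (mul_le_mul_of_nonneg_left h12 measureReal_nonneg) hv1p.le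
  exact le_of_mul_le_mul_right h14 hv1p

theorem sphere_ball (d : ℕ) (hd : 2 ≤ d) (μ : Measure (E d)) (hμ : IsUniformSphere d μ) (c : E d)
    (ρ : ℝ) (hρ : 0 < ρ) : μ.real (Metric.closedBall c ρ) ≤ (40 * ρ) ^ (d - 1) := by
  have hp := hμ.prob
  obtain ⟨k, rfl⟩ : ∃ k, d = k + 2 := ⟨d - 2, by omega⟩
  by_cases h1 : 1 ≤ 40 * ρ
  · exact measureReal_le_one.trans (one_le_pow₀ h1)
  push Not at h1
  by_cases h2 : ∃ u ∈ Metric.closedBall c ρ, u ∈ Metric.sphere (0 : E (k + 2)) 1
  · obtain ⟨u, hu, hu1⟩ := h2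
    have hu1' : ‖u‖ = 1 := by simpa using hu1
    have h3 : Metric.closedBall c ρ ⊆ Metric.closedBall u (2 * ρ) := by
      refine Metric.closedBall_subset_closedBall' ?_
      rw [dist_comm]
      have : dist u c ≤ ρ := hu
      linarith
    have h4 := cap_le (by omega) hμ hu1' (σ := 2 * ρ) (by positivity) (by linarith)
    have h5 : μ.real (Metric.closedBall u (2 * ρ)) ≤ 2 * (4 * ρ) ^ (k + 1) := by
      have h6 : (2 * (2 * ρ)) ^ (k + 2) = 2 * (4 * ρ) ^ (k + 1) * (2 * ρ) := by
        rw [pow_succ]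
        have : 2 * (2 * ρ) = 4 * ρ := by ring
        rw [this]; ring
      rw [h6] at h4
      exact le_of_mul_le_mul_right h4 (by positivity)
    refine (measureReal_mono h3).trans (h5.trans ?_)
    show 2 * (4 * ρ) ^ (k + 1) ≤ (40 * ρ) ^ (k + 1)
    have h7 : (40 * ρ) ^ (k + 1) = 10 ^ (k + 1) * (4 * ρ) ^ (k + 1) := by
      rw [← mul_pow]; congr 1; ring
    rw [h7]
    refine mul_le_mul_of_nonneg_right ?_ (by positivity)
    calc (2 : ℝ) ≤ 10 ^ 1 := by norm_num
      _ ≤ 10 ^ (k + 1) := pow_le_pow_right₀ (by norm_num) (by omega)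
  · push Not at h2
    have h3 : Metric.closedBall c ρ ⊆ (Metric.sphere (0 : E (k + 2)) 1)ᶜ := fun x hx => h2 x hx
    have h4 : μ.real (Metric.closedBall c ρ) = 0 := by
      rw [measureReal_def, measure_mono_null h3 hμ.supp]; rfl
    rw [h4]
    positivity

end sphere

section signals

/-- removal of the values of measure zero -/
theorem prune {A : Type} [MeasurableSpace A] (μ : Measure A) [IsProbabilityMeasure μ] {k : ℕ}
    (Q0 : A → Fin k) (hQ0 : Measurable Q0) :
    ∃ (N : ℕ) (e : Fin N → Fin k) (Q : A → Fin N), Measurable Q ∧ μ {s | e (Q s) ≠ Q0 s} = 0 ∧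
      ∀ i, 0 < μ.real (Q ⁻¹' {i}) := by
  classical
  set P : Finset (Fin k) := univ.filter fun j => μ (Q0 ⁻¹' {j}) ≠ 0 with hP
  have hnull : μ {s | Q0 s ∉ P} = 0 := by
    have h1 : {s | Q0 s ∉ P} ⊆ ⋃ j ∈ (univ.filter fun j => μ (Q0 ⁻¹' {j}) = 0), Q0 ⁻¹' {j} := by
      intro s hs
      have hs' : Q0 s ∉ P := hs
      rw [hP, Finset.mem_filter, not_and_or] at hs'
      simp only [Set.mem_iUnion, exists_prop, Finset.mem_filter, Finset.mem_univ, true_and]
      refine ⟨Q0 s, ?_, rfl⟩
      rcases hs' with h | h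
      · exact absurd (Finset.mem_univ _) h
      · exact not_not.1 h
    refine measure_mono_null h1 (le_antisymm ((measure_biUnion_finset_le _ _).trans ?_) zero_le)
    rw [Finset.sum_eq_zero]
    intro j hj
    exact (Finset.mem_filter.1 hj).2
  have hne : P.Nonempty := by
    rw [Finset.nonempty_iff_ne_empty]
    intro h0
    have h1 : {s | Q0 s ∉ P} = Set.univ := by
      ext s; simp [h0]
    rw [h1, measure_univ] at hnull
    exact one_ne_zero hnull
  obtain ⟨j0, hj0⟩ := hne
  set f : Fin k → Fin P.card := fun j => if h : j ∈ P then P.equivFin ⟨j, h⟩ else P.equivFin ⟨j0, hj0⟩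
    with hf
  have hfe : ∀ j ∈ P, ((P.equivFin.symm (f j) : P) : Fin k) = j := by
    intro j hj
    rw [hf]
    simp only [dif_pos hj, Equiv.symm_apply_apply]
  refine ⟨P.card, fun i => (P.equivFin.symm i : P), fun s => f (Q0 s),
    (measurable_of_finite f).comp hQ0, ?_, fun i => ?_⟩
  · refine measure_mono_null ?_ hnull
    intro s hs hmem
    exact hs (hfe _ hmem)
  · have hiP : ((P.equivFin.symm i : P) : Fin k) ∈ P := (P.equivFin.symm i).2
    have h1 : Q0 ⁻¹' {((P.equivFin.symm i : P) : Fin k)} ⊆ (fun s => f (Q0 s)) ⁻¹' {i} := by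
      intro s hs
      have hs' : Q0 s = ((P.equivFin.symm i : P) : Fin k) := hs
      show f (Q0 s) = i
      rw [hs', hf]
      simp only [dif_pos hiP, Subtype.coe_eta, Equiv.apply_symm_apply]
    have h2 : 0 < μ (Q0 ⁻¹' {((P.equivFin.symm i : P) : Fin k)}) :=
      pos_iff_ne_zero.2 (Finset.mem_filter.1 hiP).2
    rw [measureReal_def]
    exact ENNReal.toReal_pos (h2.trans_le (measure_mono h1)).ne' (measure_ne_top _ _)

/-- a finite net of the sphere and a measurable choice of a close point -/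
theorem exists_net (d : ℕ) (hd : 1 ≤ d) (r : ℝ) (hr : 0 < r) :
    ∃ (k : ℕ) (t : Fin k → E d) (Q0 : E d → Fin k), Measurable Q0 ∧ (∀ j, ‖t j‖ = 1) ∧
      ∀ s, ‖s‖ = 1 → ‖t (Q0 s) - s‖ < r := by
  classical
  obtain ⟨T, hT, hTf, hcov⟩ := (isCompact_sphere (0 : E d) 1).finite_cover_balls hr
  have hsph : ∃ u : E d, ‖u‖ = 1 := by
    refine ⟨EuclideanSpace.single ⟨0, by omega⟩ 1, by simp⟩
  obtain ⟨u, hu⟩ := hsph
  have hTne : T.Nonempty := by
    have h1 := hcov (show u ∈ Metric.sphere (0 : E d) 1 by simpa using hu)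
    simp only [Set.mem_iUnion] at h1
    obtain ⟨x, hx, _⟩ := h1
    exact ⟨x, hx⟩
  obtain ⟨x0, hx0⟩ := hTne
  set F : Finset (E d) := hTf.toFinset with hF
  set k := F.card with hk
  have hkpos : 0 < k := Finset.card_pos.2 ⟨x0, by rw [hF]; simpa using hx0⟩
  set e : ℕ → E d := fun i => if h : i < k then (F.equivFin.symm ⟨i, h⟩ : F) else x0 with he
  have heT : ∀ i, e i ∈ T := by
    intro i
    rw [he]
    by_cases h : i < k
    · simp only [dif_pos h]
      exact (Set.Finite.mem_toFinset hTf).1 (F.equivFin.symm ⟨i, h⟩).2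
    · simp only [dif_neg h]; exact hx0
  refine ⟨k, fun j => e j, fun s => ⟨SimpleFunc.nearestPtInd e (k - 1) s, ?_⟩, ?_, ?_, ?_⟩
  · have := SimpleFunc.nearestPtInd_le e (k - 1) s
    omega
  · refine measurable_to_countable' fun j => ?_
    have h1 : (fun s => (⟨SimpleFunc.nearestPtInd e (k - 1) s, by
        have := SimpleFunc.nearestPtInd_le e (k - 1) s
        omega⟩ : Fin k)) ⁻¹' {j} = (SimpleFunc.nearestPtInd e (k - 1)) ⁻¹' {(j : ℕ)} := by
      ext s
      simp [Fin.ext_iff]
    rw [h1]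
    exact SimpleFunc.measurableSet_preimage _ _
  · intro j
    have := hT (heT j)
    simpa using this
  · intro s hs
    have h1 := hcov (show s ∈ Metric.sphere (0 : E d) 1 by simpa using hs)
    simp only [Set.mem_iUnion] at h1
    obtain ⟨x, hx, hsx⟩ := h1
    have hxF : x ∈ F := by rw [hF, Set.Finite.mem_toFinset]; exact hx
    set i := F.equivFin ⟨x, hxF⟩ with hi
    have hei : e i = x := by
      have h5 : e i = (F.equivFin.symm ⟨i, i.isLt⟩ : F) := dif_pos i.isLt
      rw [h5]
      show ((F.equivFin.symm (F.equivFin ⟨x, hxF⟩) : F) : E d) = x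
      rw [Equiv.symm_apply_apply]
    have h2 := SimpleFunc.edist_nearestPt_le e s (k := i) (N := k - 1) (by
      have := i.isLt
      omega)
    rw [hei] at h2
    have h3 : edist x s < ENNReal.ofReal r := by
      rw [edist_comm, edist_dist]
      exact (ENNReal.ofReal_lt_ofReal_iff hr).2 hsx
    have h4 := h2.trans_lt h3
    rw [edist_dist, ENNReal.ofReal_lt_ofReal_iff hr, dist_eq_norm] at h4
    exact h4

theorem exists_signals : ∃ CL : ℝ, 1 ≤ CL ∧ ∀ (d n : ℕ), 1 ≤ n → 16 * n ≤ d →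
    ∀ μ : Measure (E d), IsUniformSphere d μ → ∀ τ : ℝ, 0 < τ → ∀ δ : ℝ, 0 < δ →
    ∃ (N : ℕ) (vs : Fin N → E d) (Q : E d → Fin N), Measurable Q ∧ (∀ i, ‖vs i‖ ≤ 1) ∧
    μ {s | δ < ‖vs (Q s) - s‖} = 0 ∧ (∀ i, 0 < μ.real (Q ⁻¹' {i})) ∧
    (∀ (c : E d) (ρ : ℝ), τ ≤ ρ →
      ∑ i, (if ‖vs i - c‖ ≤ ρ then μ.real (Q ⁻¹' {i}) else 0) ≤ (CL * ρ) ^ (15 * n)) := by
  classical
  refine ⟨80, by norm_num, ?_⟩
  intro d n hn hd μ hμ τ hτ δ hδ
  have hp := hμ.prob
  set r := min δ τ with hr
  have hrp : 0 < r := lt_min hδ hτ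
  obtain ⟨k, t, Q0, hQ0, ht, hclose⟩ := exists_net d (by omega) r hrp
  obtain ⟨N, e, Q, hQ, hnull, hpos⟩ := prune μ Q0 hQ0
  -- the exceptional null set
  set B : Set (E d) := {s | e (Q s) ≠ Q0 s} ∪ (Metric.sphere 0 1)ᶜ with hB
  have hB0 : μ B = 0 := measure_union_null hnull hμ.supp
  have hgood : ∀ s, s ∉ B → ‖t (e (Q s)) - s‖ < r := by
    intro s hs
    rw [hB, Set.mem_union, not_or] at hs
    obtain ⟨h1, h2⟩ := hs
    have h1' : e (Q s) = Q0 s := by
      by_contra hc
      exact h1 hc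
    have h2' : ‖s‖ = 1 := by
      have : s ∈ Metric.sphere (0 : E d) 1 := by
        by_contra hc
        exact h2 hc
      simpa using this
    rw [h1']
    exact hclose s h2'
  refine ⟨N, fun i => t (e i), Q, hQ, fun i => (ht _).le, ?_, hpos, ?_⟩
  · refine measure_mono_null ?_ hB0
    intro s hs
    by_contra hc
    have h1 : δ < ‖t (e (Q s)) - s‖ := hs
    exact absurd ((hgood s hc).trans_le (min_le_left _ _)) (not_lt.2 h1.le)
  · intro c ρ hρ
    have hρ0 : 0 < ρ := hτ.trans_le hρ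
    rw [← Finset.sum_filter]
    set I := univ.filter fun i => ‖t (e i) - c‖ ≤ ρ with hI
    have h1 : ∑ i ∈ I, μ.real (Q ⁻¹' {i}) = μ.real (⋃ i ∈ I, Q ⁻¹' {i}) := by
      rw [measureReal_biUnion_finset (fun i _ j _ hij => ?_) fun i _ => hQ (measurableSet_singleton i)]
      rw [Function.onFun, Set.disjoint_left]
      intro a h2 h3
      exact hij (h2.symm.trans h3)
    have h2 : (⋃ i ∈ I, Q ⁻¹' {i}) ⊆ Metric.closedBall c (2 * ρ) ∪ B := by
      intro s hs
      simp only [Set.mem_iUnion] at hs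
      obtain ⟨i, hiI, hsi⟩ := hs
      by_cases hsB : s ∈ B
      · exact Or.inr hsB
      · left
        have h3 := hgood s hsB
        have h4 : Q s = i := hsi
        rw [h4] at h3
        have h5 : ‖t (e i) - c‖ ≤ ρ := (Finset.mem_filter.1 hiI).2
        have h6 : r ≤ ρ := (min_le_right _ _).trans hρ
        rw [Metric.mem_closedBall, dist_eq_norm]
        calc ‖s - c‖ = ‖(t (e i) - c) - (t (e i) - s)‖ := by congr 1; abel
          _ ≤ ‖t (e i) - c‖ + ‖t (e i) - s‖ := norm_sub_le _ _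
          _ ≤ 2 * ρ := by linarith
    have h7 : μ.real (⋃ i ∈ I, Q ⁻¹' {i}) ≤ μ.real (Metric.closedBall c (2 * ρ)) := by
      refine (measureReal_mono h2).trans ((measureReal_union_le _ _).trans ?_)
      have h8 : μ.real B = 0 := by rw [measureReal_def, hB0]; rfl
      rw [h8, add_zero]
    rw [h1]
    refine h7.trans ?_
    by_cases h9 : 1 ≤ 80 * ρ
    · exact measureReal_le_one.trans (one_le_pow₀ h9)
    · push Not at h9
      refine (sphere_ball d (by omega) μ hμ c (2 * ρ) (by positivity)).trans ?_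
      have h10 : 40 * (2 * ρ) = 80 * ρ := by ring
      rw [h10]
      exact pow_le_pow_of_le_one (by positivity) h9.le (by omega)

end signals

end Vale.Agent.Mem
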