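import Vale.Agent.Mem.Defs2

/-!
# P309, part R0: small balls for the standard Gaussian
-/

namespace Vale.Agent.Mem

open Finset MeasureTheory ProbabilityTheory
open scoped InnerProductSpace

/-- removing the component along `e` -/
noncomputable def rmv {d : ℕ} (e : E d) : E d →L[ℝ] E d :=
  ContinuousLinearMap.id ℝ (E d) - (innerSL ℝ e).smulRight e

theorem rmv_apply {d : ℕ} (e x : E d) : rmv e x = x - ⟪e, x⟫_ℝ • e := rfl

theorem indep_rmv {d : ℕ} (e : E d) (he : ‖e‖ = 1) :
    IndepFun (rmv e) (innerSL ℝ e) (stdGaussian (E d)) := by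
  have hG : HasGaussianLaw (fun ω : E d => (rmv e ω, innerSL ℝ e ω)) (stdGaussian (E d)) := by
    have := (IsGaussian.hasGaussianLaw_id (μ := stdGaussian (E d))).map_fun
      ((rmv e).prod (innerSL ℝ e))
    simpa using this
  refine hG.indepFun_of_covariance_inner ?_
  intro x y
  have hee : ⟪e, e⟫_ℝ = 1 := by rw [real_inner_self_eq_norm_sq, he]; norm_num
  have h1 : (fun ω : E d => ⟪x, rmv e ω⟫_ℝ) = fun ω => ⟪x - ⟪x, e⟫_ℝ • e, ω⟫_ℝ := by
    funext ω
    rw [rmv_apply, inner_sub_right, inner_smul_right, inner_sub_left, inner_smul_left]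
    simp only [conj_trivial]
    ring
  have h2 : (fun ω : E d => ⟪y, innerSL ℝ e ω⟫_ℝ) = fun ω => ⟪y • e, ω⟫_ℝ := by
    funext ω
    rw [inner_smul_left, innerSL_apply_apply]
    simp [mul_comm]
  rw [h1, h2, ← covarianceBilin_apply_eq_cov IsGaussian.memLp_two_id, covarianceBilin_stdGaussian]
  rw [innerSL_apply_apply, inner_smul_right, inner_sub_left, inner_smul_left, hee]
  simp

theorem law_inner {d : ℕ} (e : E d) (he : ‖e‖ = 1) :
    (stdGaussian (E d)).map (innerSL ℝ e) = gaussianReal 0 1 := by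
  have h := (IsGaussian.hasGaussianLaw_id (μ := stdGaussian (E d))).map_fun (innerSL ℝ e)
  have h2 := h.map_eq_gaussianReal
  simp only [id] at h2
  rw [integral_strongDual_stdGaussian, variance_dual_stdGaussian] at h2
  simpa [he] using h2

theorem gauss_slab (a c τ : ℝ) (ha : 0 < a) (hτ : 0 < τ) :
    (gaussianReal 0 1).real {t : ℝ | |c + t * a| ≤ τ} ≤ τ / a := by
  have hset : {t : ℝ | |c + t * a| ≤ τ} = Set.Icc ((-τ - c) / a) ((τ - c) / a) := by
    ext t
    simp only [Set.mem_ofPred_eq, Set.mem_Icc, abs_le]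
    rw [div_le_iff₀ ha, le_div_iff₀ ha]
    constructor <;> intro h <;> constructor <;> linarith [h.1, h.2]
  rw [hset, gaussianReal, if_neg one_ne_zero, measureReal_def, withDensity_apply _ measurableSet_Icc]
  have hle : ∫⁻ x in Set.Icc ((-τ - c) / a) ((τ - c) / a), gaussianPDF 0 1 x ≤
      ∫⁻ _x in Set.Icc ((-τ - c) / a) ((τ - c) / a), ENNReal.ofReal (1 / 2) := by
    refine lintegral_mono fun x => ?_
    rw [gaussianPDF]
    refine ENNReal.ofReal_le_ofReal ?_
    rw [gaussianPDFReal]
    have h1 : (2 : ℝ) ≤ √(2 * Real.pi * ((1 : NNReal) : ℝ)) := by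
      rw [Real.le_sqrt (by norm_num) (by positivity)]
      simp
      nlinarith [Real.pi_gt_three]
    have h2 : (√(2 * Real.pi * ((1 : NNReal) : ℝ)))⁻¹ ≤ 1 / 2 := by
      rw [one_div]
      exact inv_anti₀ (by norm_num) h1
    have h3 : Real.exp (-(x - 0) ^ 2 / (2 * ((1 : NNReal) : ℝ))) ≤ 1 := by
      rw [Real.exp_le_one_iff]
      have : 0 ≤ (x - 0) ^ 2 := sq_nonneg _
      have h4 : (0 : ℝ) < 2 * ((1 : NNReal) : ℝ) := by simp
      rw [div_le_iff₀ h4]
      linarith
    calc _ ≤ 1 / 2 * 1 := mul_le_mul h2 h3 (Real.exp_pos _).le (by norm_num)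
      _ = 1 / 2 := by norm_num
  rw [lintegral_const, Measure.restrict_apply MeasurableSet.univ, Set.univ_inter, Real.volume_Icc]
    at hle
  have hlt : ENNReal.ofReal (1 / 2) * ENNReal.ofReal ((τ - c) / a - (-τ - c) / a) ≠ ⊤ :=
    ENNReal.mul_ne_top ENNReal.ofReal_ne_top ENNReal.ofReal_ne_top
  have h5 := ENNReal.toReal_mono hlt hle
  rw [ENNReal.toReal_mul, ENNReal.toReal_ofReal (by norm_num), ENNReal.toReal_ofReal] at h5
  · refine h5.trans (le_of_eq ?_)
    field_simp
    ring
  · rw [← sub_div]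
    apply div_nonneg _ ha.le
    linarith

/-- adding one more direction -/
theorem gauss_step {d : ℕ} (A : Set (E d)) (hA : MeasurableSet A) (e w : E d) (he : ‖e‖ = 1)
    (hAe : ∀ x, rmv e x ∈ A ↔ x ∈ A) (τ : ℝ) (hτ : 0 < τ) (ha : 0 < ⟪e, w⟫_ℝ) :
    (stdGaussian (E d)).real {x | x ∈ A ∧ |⟪x, w⟫_ℝ| ≤ τ} ≤
      (stdGaussian (E d)).real A * (τ / ⟪e, w⟫_ℝ) := by
  set μ := stdGaussian (E d) with hμ
  set a := ⟪e, w⟫_ℝ with haa
  have hind := indep_rmv e he
  rw [indepFun_iff_map_prod_eq_prod_map_map (by fun_prop) (by fun_prop)] at hind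
  rw [law_inner e he] at hind
  -- the set in product coordinates
  let T : Set (E d × ℝ) := {q | q.1 ∈ A ∧ |⟪q.1, w⟫_ℝ + q.2 * a| ≤ τ}
  have hT : MeasurableSet T := by
    refine MeasurableSet.inter (measurable_fst hA) ?_
    have : Measurable fun q : E d × ℝ => |⟪q.1, w⟫_ℝ + q.2 * a| := by fun_prop
    exact this measurableSet_Iic
  have hpre : {x | x ∈ A ∧ |⟪x, w⟫_ℝ| ≤ τ} = (fun x => (rmv e x, innerSL ℝ e x)) ⁻¹' T := by
    ext x
    simp only [Set.mem_ofPred_eq, Set.mem_preimage, T]
    rw [hAe x, innerSL_apply_apply, rmv_apply, inner_sub_left, inner_smul_left]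
    simp only [conj_trivial, ← haa, sub_add_cancel]
  have hpreA : A = (rmv e) ⁻¹' A := by
    ext x
    exact (hAe x).symm
  have hmA : μ.real A = (μ.map (rmv e)).real A := by
    rw [measureReal_def, measureReal_def, Measure.map_apply (by fun_prop) hA, ← hpreA]
  have : IsProbabilityMeasure (μ.map (rmv e)) := Measure.isProbabilityMeasure_map (by fun_prop)
  rw [hpre, measureReal_def, ← Measure.map_apply (by fun_prop) hT, hind,
    Measure.prod_apply hT, hmA]
  have hsec : ∀ y : E d, gaussianReal 0 1 (Prod.mk y ⁻¹' T) ≤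
      A.indicator (fun _ => ENNReal.ofReal (τ / a)) y := by
    intro y
    by_cases hy : y ∈ A
    · rw [Set.indicator_of_mem hy]
      have : Prod.mk y ⁻¹' T = {t : ℝ | |⟪y, w⟫_ℝ + t * a| ≤ τ} := by
        ext t
        simp [T, hy]
      rw [this]
      have h := gauss_slab a (⟪y, w⟫_ℝ) τ ha hτ
      rw [measureReal_def] at h
      rw [← ENNReal.ofReal_toReal (measure_ne_top (gaussianReal 0 1) {t : ℝ | |⟪y, w⟫_ℝ + t * a| ≤ τ})]
      exact ENNReal.ofReal_le_ofReal h
    · have : Prod.mk y ⁻¹' T = ∅ := by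
        ext t
        simp [T, hy]
      rw [this]
      simp
  have hfin := lintegral_mono (μ := μ.map (rmv e)) hsec
  rw [lintegral_indicator_const hA] at hfin
  have h5 := ENNReal.toReal_mono (ENNReal.mul_ne_top ENNReal.ofReal_ne_top (measure_ne_top _ _)) hfin
  rw [ENNReal.toReal_mul, ENNReal.toReal_ofReal (by positivity)] at h5
  rw [measureReal_def, mul_comm]
  exact h5

theorem gauss_small (d p : ℕ) (u : Fin p → E d) (τ : ℝ) (hτ : 0 < τ) :
    (stdGaussian (E d)).real {x | ∀ j, |⟪x, u j⟫_ℝ| ≤ τ} ≤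
      ∏ j, g τ (Metric.infDist (u j) (Submodule.span ℝ (u '' {i | i < j}) : Set (E d))) := by
  induction p with
  | zero => simp
  | succ p ih =>
    have ih' := ih (fun j => u j.castSucc)
    rw [Fin.prod_univ_castSucc]
    have hspan : ∀ j : Fin p, (fun j : Fin p => u j.castSucc) '' {i | i < j} =
        u '' {i | i < j.castSucc} := by
      intro j
      ext y
      constructor
      · rintro ⟨i, hi, rfl⟩
        exact ⟨i.castSucc, by simpa using hi, rfl⟩
      · rintro ⟨i, hi, rfl⟩
        simp only [Set.mem_ofPred_eq] at hi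
        have hip : (i : ℕ) < p := lt_of_lt_of_le (Fin.lt_def.1 hi) (by simp)
        refine ⟨⟨i, hip⟩, ?_, ?_⟩
        · simp only [Set.mem_ofPred_eq, Fin.lt_def]
          simpa [Fin.lt_def] using hi
        · rfl
    simp only [hspan] at ih'
    set P := ∏ j : Fin p, g τ (Metric.infDist (u j.castSucc)
      (Submodule.span ℝ (u '' {i | i < j.castSucc}) : Set (E d))) with hP
    set V := Submodule.span ℝ (u '' {i | i < Fin.last p}) with hV
    let A : Set (E d) := {x | ∀ j : Fin p, |⟪x, u j.castSucc⟫_ℝ| ≤ τ}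
    have hAm : MeasurableSet A := by
      have : A = ⋂ j : Fin p, {x | |⟪x, u j.castSucc⟫_ℝ| ≤ τ} := by
        ext x; simp [A]
      rw [this]
      refine MeasurableSet.iInter fun j => ?_
      have : Measurable fun x : E d => |⟪x, u j.castSucc⟫_ℝ| := by fun_prop
      exact this measurableSet_Iic
    have hset : {x | ∀ j, |⟪x, u j⟫_ℝ| ≤ τ} = {x | x ∈ A ∧ |⟪x, u (Fin.last p)⟫_ℝ| ≤ τ} := by
      ext x
      simp only [Set.mem_ofPred_eq, A]
      exact Fin.forall_fin_succ'
    rw [hset]
    have hsub : (stdGaussian (E d)).real {x | x ∈ A ∧ |⟪x, u (Fin.last p)⟫_ℝ| ≤ τ} ≤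
        (stdGaussian (E d)).real A := measureReal_mono (fun x hx => hx.1)
    by_cases hd : Metric.infDist (u (Fin.last p)) (V : Set (E d)) ≤ τ
    · rw [g, if_pos hd, mul_one]
      exact hsub.trans ih'
    · push Not at hd
      rw [g, if_neg (not_le.2 hd)]
      set w := u (Fin.last p) with hw
      set r := w - V.starProjection w with hr
      have hrV : r ∈ Vᗮ := V.sub_starProjection_mem_orthogonal w
      have hdist : Metric.infDist w (V : Set (E d)) = ‖r‖ := by
        rw [Submodule.starProjection_minimal, Metric.infDist_eq_iInf]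
        simp only [dist_eq_norm]
        rfl
      have hrpos : 0 < ‖r‖ := by rw [← hdist]; linarith
      set e := (‖r‖)⁻¹ • r with he
      have he1 : ‖e‖ = 1 := by
        rw [he, norm_smul, norm_inv, norm_norm, inv_mul_cancel₀ hrpos.ne']
      have heV : e ∈ Vᗮ := Submodule.smul_mem _ _ hrV
      have hew : ⟪e, w⟫_ℝ = ‖r‖ := by
        have h1 : w = r + V.starProjection w := by rw [hr]; abel
        have h2 : ⟪e, V.starProjection w⟫_ℝ = 0 :=
          Submodule.inner_left_of_mem_orthogonal (Submodule.starProjection_apply_mem V w) heV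
        rw [h1, inner_add_right]
        rw [h2, add_zero, he, inner_smul_left, real_inner_self_eq_norm_sq]
        simp only [conj_trivial]
        field_simp
      have hAe : ∀ x, rmv e x ∈ A ↔ x ∈ A := by
        intro x
        have h0 : ∀ j : Fin p, ⟪rmv e x, u j.castSucc⟫_ℝ = ⟪x, u j.castSucc⟫_ℝ := by
          intro j
          have hj : u j.castSucc ∈ V := Submodule.subset_span ⟨j.castSucc, by simp, rfl⟩
          have h2 : ⟪e, u j.castSucc⟫_ℝ = 0 := Submodule.inner_left_of_mem_orthogonal hj heV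
          rw [rmv_apply, inner_sub_left, inner_smul_left, h2]
          simp
        simp only [A, Set.mem_ofPred_eq, h0]
      have hstep := gauss_step A hAm e w he1 hAe τ hτ (by rw [hew]; exact hrpos)
      rw [hew] at hstep
      rw [hdist]
      refine hstep.trans ?_
      exact mul_le_mul_of_nonneg_right ih' (by positivity)

end Vale.Agent.Mem
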