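import Vale.Agent.Mem.R1c
import Vale.Agent.Mem.PartR0

/-!
# P309, part R1: quantised rows
-/

namespace Vale.Agent.Mem

open Finset MeasureTheory ProbabilityTheory
open scoped InnerProductSpace

theorem exists_rows : ∃ C1 : ℝ, 1 ≤ C1 ∧ ∀ (d n : ℕ), 1 ≤ n → 16 * n ≤ d → d ≤ 32 * n →
    ∀ τ : ℝ, 0 < τ → τ ≤ 1 → ∀ δ : ℝ, 0 < δ → ∃ (N : ℕ) (vx : Fin N → E d) (Q : E d → Fin N)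
    (gam' : Fin N → ℝ), Measurable Q ∧
    (stdGaussian (E d)).real {x | δ < ‖vx (Q x) - x‖} ≤ δ ∧
    (∀ x, 0 ≤ gam' x) ∧ ∑ x, gam' x = 1 ∧
    (∀ p : ℕ, p ≤ n → ∀ u : Fin p → E d, (∀ j, ‖u j‖ ≤ 2) →
      ∑ x, (stdGaussian (E d)).real (Q ⁻¹' {x}) *
        (if ∀ j, |⟪vx x, u j⟫_ℝ| ≤ τ then 1 else 0) ≤
      ∏ j, g (C1 * τ) (Metric.infDist (u j) (Submodule.span ℝ (u '' {i | i < j}) : Set (E d)))) ∧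
    (∀ u : E d, ∑ x, (stdGaussian (E d)).real (Q ⁻¹' {x}) * |⟪vx x, u⟫_ℝ| ≤ C1 * ‖u‖) ∧
    (∀ u : E d, ∑ x, gam' x * |⟪vx x, u⟫_ℝ| ≤ C1 * ‖u‖) ∧
    (∀ (σ : ℝ) (u : E d), τ ≤ σ → u ≠ 0 → ‖u‖ ≤ 4 →
      ∑ x, gam' x * (if |⟪vx x, u⟫_ℝ| ≤ σ then 1 else 0) ≤ C1 * σ / ‖u‖) ∧
    (∀ x, gam' x ≠ 0 → ‖vx x‖ ^ 2 ≤ 8 * d) :=
  exists_rows_of (fun d p u τ hτ => gauss_small d p u τ hτ)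

end Vale.Agent.Mem
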