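import Vale.Agent.Mem.R4d
import Vale.Agent.Mem.PartR1
import Vale.Agent.Mem.PartR2

/-!
# P309, part R4: quantisation of a learner
-/

namespace Vale.Agent.Mem

open Finset MeasureTheory ProbabilityTheory
open scoped InnerProductSpace

theorem transfer : ∃ CL C1 : ℝ, 1 ≤ CL ∧ 1 ≤ C1 ∧ ∀ {Z : Type} [Fintype Z] [Nonempty Z]
    (d n : ℕ), 1 ≤ n → 16 * n ≤ d → d ≤ 32 * n → ∀ μ : Measure (E d), IsUniformSphere d μ →
    ∀ F : ℕ → Z → E d → ℝ → Z,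
    (∀ t z z', MeasurableSet {a : E d × ℝ | F t z a.1 a.2 = z'}) →
    ∀ (z0 : Z) (r : ℕ) (o : Z → E d) (ε : ℝ), 0 < ε →
    3 / 5 ≤ ((Measure.pi fun _ : Fin (r * n) => stdGaussian (E d)).prod μ).real
      {a | ‖a.2 - o (run F z0 (r * n) a.1 a.2)‖ ≤ ε} →
    ∀ τ0 : ℝ, 0 < τ0 → ∃ τ : ℝ, 0 < τ ∧ τ ≤ τ0 ∧ ∃ (NS NX : ℕ) (vs : Fin NS → E d)
      (vx : Fin NX → E d) (lam : Fin NS → ℝ) (gam gam' : Fin NX → ℝ) (Y : Fin NX → Fin NS → ℤ)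
      (Fh : ℕ → Z → (Fin n → Fin NX) → (Fin n → ℤ) → Z),
      Model CL C1 d n τ vs vx lam gam gam' Y ∧
      1 / 2 ≤ ∑ z, ∑ s, lam s * ud (prw gam) (plab Y) Fh z0 r z s *
        (if ‖vs s - o z‖ ≤ 2 * ε then 1 else 0) :=
  transfer_of exists_rows exists_signals

end Vale.Agent.Mem
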