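import Vale.Agent.Mem.MainB
import Vale.Agent.Mem.PartK
import Vale.Agent.Mem.PartR2
import Vale.Agent.Mem.PartR4

/-!
# P309: the lower bound for learners with bounded memory
-/

namespace Vale.Agent.Mem

open Finset MeasureTheory ProbabilityTheory
open scoped InnerProductSpace

/-- volume bound -/
theorem success_le {d : ℕ} (hd : 2 ≤ d) (μ : Measure (E d)) (hμ : IsUniformSphere d μ)
    {Z : Type} [Fintype Z] {B : Type} [MeasurableSpace B] (ν : Measure B) [IsProbabilityMeasure ν]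
    (f : B × E d → Z) (o : Z → E d) (ε : ℝ) (hε : 0 < ε) :
    (ν.prod μ).real {a | ‖a.2 - o (f a)‖ ≤ ε} ≤ Fintype.card Z * (40 * ε) ^ (d - 1) := by
  haveI := hμ.prob
  calc (ν.prod μ).real {a | ‖a.2 - o (f a)‖ ≤ ε}
      ≤ (ν.prod μ).real (⋃ z, (Set.univ ×ˢ Metric.closedBall (o z) ε)) := by
        refine measureReal_mono ?_
        intro a ha
        simp only [Set.mem_iUnion, Set.mem_prod, Set.mem_univ, true_and]
        exact ⟨f a, by rw [Metric.mem_closedBall, dist_eq_norm]; exact ha⟩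
    _ ≤ ∑ z, (ν.prod μ).real (Set.univ ×ˢ Metric.closedBall (o z) ε) :=
        measureReal_iUnion_fintype_le _
    _ ≤ ∑ _z : Z, (40 * ε) ^ (d - 1) := by
        refine Finset.sum_le_sum fun z _ => ?_
        rw [measureReal_def, Measure.prod_prod, measure_univ, one_mul, ← measureReal_def]
        exact sphere_ball d hd μ hμ (o z) ε hε
    _ = Fintype.card Z * (40 * ε) ^ (d - 1) := by
        rw [Finset.sum_const, Finset.card_univ, nsmul_eq_mul]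

theorem exists_n0 (B2 B3 : ℝ) : ∃ n0 : ℕ, ∀ n : ℕ, n0 ≤ n →
    B2 * (n : ℝ) ^ 2 + B3 * n + 6 ≤ 2 ^ n := by
  have h2 := tendsto_pow_const_div_const_pow_of_one_lt 2 (one_lt_two (α := ℝ))
  have h1 := tendsto_pow_const_div_const_pow_of_one_lt 1 (one_lt_two (α := ℝ))
  have h0 := tendsto_pow_const_div_const_pow_of_one_lt 0 (one_lt_two (α := ℝ))
  have h := ((h2.const_mul B2).add (h1.const_mul B3)).add (h0.const_mul 6)
  simp only [mul_zero, add_zero] at h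
  have hev := h.eventually (gt_mem_nhds (show (0 : ℝ) < 1 by norm_num))
  obtain ⟨n0, hn0⟩ := Filter.eventually_atTop.1 hev
  refine ⟨n0, fun n hn => ?_⟩
  have := hn0 n hn
  have hp : (0 : ℝ) < 2 ^ n := by positivity
  have e : B2 * ((n : ℝ) ^ 2 / 2 ^ n) + B3 * ((n : ℝ) ^ 1 / 2 ^ n) + 6 * ((n : ℝ) ^ 0 / 2 ^ n) =
      (B2 * (n : ℝ) ^ 2 + B3 * n + 6) / 2 ^ n := by
    field_simp
  rw [e, div_lt_one hp] at this
  exact this.le

theorem log_one_add_mul_le {a b : ℝ} (ha : 0 ≤ a) (hb : 0 ≤ b) :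
    Real.log (1 + a * b) ≤ a + b := by
  have h1 : 1 + a * b ≤ (1 + a) * (1 + b) := by nlinarith [mul_nonneg ha hb]
  have h2 : (1 + a) * (1 + b) ≤ Real.exp a * Real.exp b :=
    mul_le_mul (by linarith [Real.add_one_le_exp a]) (by linarith [Real.add_one_le_exp b])
      (by linarith) (Real.exp_pos _).le
  rw [← Real.exp_add] at h2
  have h3 : 0 < 1 + a * b := by nlinarith [mul_nonneg ha hb]
  calc Real.log (1 + a * b) ≤ Real.log (Real.exp (a + b)) :=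
        Real.log_le_log h3 (h1.trans h2)
    _ = a + b := Real.log_exp _

theorem log_forty : Real.log 40 ≤ 4 := by
  have h1 : 2 * Real.log 40 = Real.log (40 ^ 2) := by
    rw [show (40 : ℝ) ^ 2 = (40 : ℝ) ^ (2 : ℕ) from rfl, Real.log_pow]; push_cast; ring
  have h2 : Real.log (40 ^ 2) ≤ Real.log (2 ^ 11) :=
    Real.log_le_log (by norm_num) (by norm_num)
  have h3 : Real.log ((2 : ℝ) ^ 11) = 11 * Real.log 2 := by
    rw [Real.log_pow]; push_cast; ring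
  linarith [Real.log_two_lt_d9]

theorem num1 {A d ℓ lN : ℝ} (hA : 0 < A) (hd : 16 ≤ d) (hℓ : 3 ≤ ℓ)
    (h1 : lN ≤ A * d ^ 2 + 1 + d + ℓ) (h2 : (d - 1) * ℓ ≤ lN + (d - 1) * 4 + 1) :
    ℓ ≤ 2 * (A + 7) * d := by
  have h3 : (d - 2) * ℓ ≤ A * d ^ 2 + 5 * d + 2 := by linarith
  have h4 : d / 2 * ℓ ≤ (d - 2) * ℓ := mul_le_mul_of_nonneg_right (by linarith) (by linarith)
  have h5 : A * d ^ 2 + 5 * d + 2 ≤ (A + 7) * d ^ 2 := by nlinarith
  have h6 : d / 2 * ℓ ≤ d / 2 * (2 * (A + 7) * d) := by linarith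
  exact le_of_mul_le_mul_left h6 (by linarith)

theorem num2 {A B d n ℓ lN : ℝ} (hA : 0 < A) (hB : 0 < B) (hd : 16 ≤ d) (hn : d ≤ 32 * n)
    (hn1 : 1 ≤ n) (h1 : lN ≤ A * d ^ 2 + 1 + d + ℓ) (h2 : ℓ ≤ B * d) :
    lN ≤ 1024 * (A + B + 2) * n ^ 2 := by
  have h3 : B * d ≤ B * d ^ 2 := by
    apply mul_le_mul_of_nonneg_left _ hB.le; nlinarith
  have h4 : 1 + d ≤ 2 * d ^ 2 := by nlinarith
  have h5 : lN ≤ (A + B + 2) * d ^ 2 := by linarith
  have h6 : d ^ 2 ≤ (32 * n) ^ 2 := by gcongr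
  calc lN ≤ (A + B + 2) * d ^ 2 := h5
    _ ≤ (A + B + 2) * (32 * n) ^ 2 := by gcongr
    _ = 1024 * (A + B + 2) * n ^ 2 := by ring

theorem num3 {c B2 C r ℓ ls : ℝ} (hB2 : 0 < B2) (hC : 0 < C) (hc : 0 < c) (hℓ : 0 ≤ ℓ)
    (hc2 : c ≤ 1 / (64 * (B2 + C))) (hr : r ≤ 32 * c * ℓ + 1) (hls : ls ≤ 1)
    (h : ℓ - ls ≤ r * (B2 + C) + C) : ℓ < 2 * B2 + 4 * C + 3 := by
  have h4 : r * (B2 + C) ≤ (32 * c * ℓ + 1) * (B2 + C) := by gcongr
  have h5 : c * (B2 + C) ≤ 1 / 64 := by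
    have : c * (64 * (B2 + C)) ≤ 1 := by
      rwa [le_div_iff₀ (by positivity)] at hc2
    linarith
  have h6 : (32 * c * ℓ + 1) * (B2 + C) ≤ ℓ / 2 + (B2 + C) := by nlinarith
  linarith

theorem log_card_le {T M d : ℕ} {A ℓ : ℝ} {cZ : ℕ} {N : ℕ} (hℓ : 0 ≤ ℓ)
    (hT : (T : ℝ) ≤ d * ℓ) (hM : (M : ℝ) ≤ A * (d : ℝ) ^ 2) (hZ : cZ ≤ 2 ^ M)
    (hN : N = (T + 1) * (cZ * 2)) (hNpos : 0 < N) :
    Real.log N ≤ A * (d : ℝ) ^ 2 + 1 + d + ℓ := by
  have hlog2 : Real.log 2 ≤ 1 := by linarith [Real.log_two_lt_d9]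
  have hlog2pos : 0 ≤ Real.log 2 := Real.log_nonneg (by norm_num)
  have hlogT : Real.log (T + 1) ≤ d + ℓ := by
    calc Real.log (T + 1) ≤ Real.log (1 + d * ℓ) :=
          Real.log_le_log (by positivity) (by linarith)
      _ ≤ d + ℓ := log_one_add_mul_le (by positivity) hℓ
  have hNle : (N : ℝ) ≤ (T + 1) * (2 ^ M * 2) := by
    rw [hN]
    push_cast
    have : (cZ : ℝ) ≤ 2 ^ M := by exact_mod_cast hZ
    gcongr
  have h0 : (0 : ℝ) ≤ M := Nat.cast_nonneg _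
  have h1 : M * Real.log 2 ≤ A * (d : ℝ) ^ 2 := by nlinarith
  calc Real.log N ≤ Real.log ((T + 1) * (2 ^ M * 2)) :=
        Real.log_le_log (by exact_mod_cast hNpos) hNle
    _ = Real.log (T + 1) + (M * Real.log 2 + Real.log 2) := by
        rw [Real.log_mul (by positivity) (by positivity), Real.log_mul (by positivity)
          (by norm_num), Real.log_pow]
    _ ≤ A * (d : ℝ) ^ 2 + 1 + d + ℓ := by linarith

theorem vol_log {d N : ℕ} (hd : 16 ≤ d) (hNpos : 0 < N) {ε : ℝ} (hε : 0 < ε)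
    (h1 : 2 / 3 ≤ (N : ℝ) * (40 * ε) ^ (d - 1)) :
    ((d : ℝ) - 1) * Real.log (1 / ε) ≤ Real.log N + ((d : ℝ) - 1) * 4 + 1 := by
  have hdr : (16 : ℝ) ≤ d := by exact_mod_cast hd
  have h2 : Real.log (2 / 3) ≤ Real.log (N * (40 * ε) ^ (d - 1)) :=
    Real.log_le_log (by norm_num) h1
  rw [Real.log_mul (by exact_mod_cast hNpos.ne') (by positivity), Real.log_pow,
    Real.log_mul (by norm_num) hε.ne'] at h2
  have h3 : Real.log 40 ≤ 4 := log_forty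
  have h4 : -1 ≤ Real.log (2 / 3) := by
    have : Real.exp (-1) ≤ 2 / 3 := by
      have := Real.exp_neg_one_lt_d9
      linarith
    have := Real.log_le_log (Real.exp_pos _) this
    rwa [Real.log_exp] at this
  have h5 : Real.log (1 / ε) = -Real.log ε := by rw [one_div, Real.log_inv]
  have h6 : ((d - 1 : ℕ) : ℝ) = (d : ℝ) - 1 := by
    rw [Nat.cast_sub (by omega)]; simp
  rw [h6] at h2
  have h7 : ((d : ℝ) - 1) * Real.log 40 ≤ ((d : ℝ) - 1) * 4 :=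
    mul_le_mul_of_nonneg_left h3 (by linarith)
  rw [h5]
  linarith

/-- use of the finite model -/
theorem use_finite {CL C1 C : ℝ} (hC1 : 1 ≤ C1) {d n : ℕ} {Z : Type} [Fintype Z] [Nonempty Z]
    (hfm : ∀ {S X Z : Type} [Fintype S] [Fintype X]
    [Fintype Z] {d n : ℕ} {τ : ℝ} {vs : S → E d} {vx : X → E d} {lam : S → ℝ} {gam gam' : X → ℝ}
    {Y : X → S → ℤ} (_ : Model CL C1 d n τ vs vx lam gam gam' Y)
    (F : ℕ → Z → (Fin n → X) → (Fin n → ℤ) → Z) (z0 : Z) (r : ℕ) (_ : 1 ≤ r) (o : Z → E d)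
    (ε : ℝ) (_ : 0 < ε) (_ : ε ≤ 1)
    (_ : 1 / 2 ≤ ∑ z, ∑ s, lam s * ud (prw gam) (plab Y) F z0 r z s *
      (if ‖vs s - o z‖ ≤ ε then 1 else 0))
    (_ : Real.log (Fintype.card Z) + Real.log (4 * r) + 6 ≤ 2 ^ n)
    (_ : C1 * τ * 2 ^ (⌈Real.log (Fintype.card Z) + Real.log (4 * r)⌉₊ + 2) ≤ 1)
    (_ : C1 * τ ≤ ε),
    n * Real.log (1 / ε) ≤ r * (Real.log (Fintype.card Z) / n + C * n) + C * n)
    (r : ℕ) (hr1 : 1 ≤ r) (o : Z → E d) (ε : ℝ) (hε : 0 < ε) (hε2 : 2 * ε ≤ 1)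
    (hsize : Real.log (Fintype.card Z) + Real.log (4 * r) + 6 ≤ 2 ^ n)
    (htr : ∀ τ0 : ℝ, 0 < τ0 → ∃ τ : ℝ, 0 < τ ∧ τ ≤ τ0 ∧ ∃ (NS NX : ℕ) (vs : Fin NS → E d)
      (vx : Fin NX → E d) (lam : Fin NS → ℝ) (gam gam' : Fin NX → ℝ) (Y : Fin NX → Fin NS → ℤ)
      (Fh : ℕ → Z → (Fin n → Fin NX) → (Fin n → ℤ) → Z) (z0 : Z),
      Model CL C1 d n τ vs vx lam gam gam' Y ∧
      1 / 2 ≤ ∑ z, ∑ s, lam s * ud (prw gam) (plab Y) Fh z0 r z s *
        (if ‖vs s - o z‖ ≤ 2 * ε then 1 else 0)) :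
    n * (Real.log (1 / ε) - Real.log 2) ≤
      r * (Real.log (Fintype.card Z) / n + C * n) + C * n := by
  set τ0 : ℝ := min (1 / (C1 * 2 ^ (⌈Real.log (Fintype.card Z) + Real.log (4 * r)⌉₊ + 2)))
    (2 * ε / C1) with hτ0
  have hC1pos : 0 < C1 := by linarith
  have hτ0pos : 0 < τ0 := by rw [hτ0]; exact lt_min (by positivity) (by positivity)
  obtain ⟨τ, hτ, hττ, NS, NX, vs, vx, lam, gam, gam', Y, Fh, z0, hModel, hsucc⟩ :=
    htr τ0 hτ0pos
  have hτa : C1 * τ * 2 ^ (⌈Real.log (Fintype.card Z) + Real.log (4 * r)⌉₊ + 2) ≤ 1 := by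
    have h1 : τ ≤ 1 / (C1 * 2 ^ (⌈Real.log (Fintype.card Z) + Real.log (4 * r)⌉₊ + 2)) :=
      hττ.trans (min_le_left _ _)
    rw [le_div_iff₀ (by positivity)] at h1
    linarith
  have hτb : C1 * τ ≤ 2 * ε := by
    have h1 : τ ≤ 2 * ε / C1 := hττ.trans (min_le_right _ _)
    rw [le_div_iff₀ hC1pos] at h1
    linarith
  have hfin := hfm hModel Fh z0 r hr1 o (2 * ε) (by positivity) hε2 hsucc hsize hτa hτb
  have hlog : Real.log (1 / (2 * ε)) = Real.log (1 / ε) - Real.log 2 := by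
    rw [one_div, one_div, Real.log_inv, Real.log_inv, Real.log_mul (by norm_num) hε.ne']
    ring
  rwa [hlog] at hfin

/-- **Memory-sample lower bound for noiseless Gaussian linear regression.** -/
theorem lower_bound (A : ℝ) (hA : 0 < A) : ∃ c ε₀ : ℝ, 0 < c ∧ 0 < ε₀ ∧ ∃ d₀ : ℕ,
    ∀ d : ℕ, d₀ ≤ d → ∀ M T : ℕ, (M : ℝ) ≤ A * (d : ℝ) ^ 2 → ∀ ε : ℝ, 0 < ε → ε ≤ ε₀ →
    ∀ (Ω : Type) [MeasurableSpace Ω] (P : Measure Ω) [IsProbabilityMeasure P]
      (μ : Measure (E d)), IsUniformSphere d μ →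
    ∀ (Z : Type) [Fintype Z], Fintype.card Z ≤ 2 ^ M →
    ∀ L : Learner d Ω Z, L.Succeeds P μ T ε → c * d * Real.log (1 / ε) ≤ T := by
  obtain ⟨CL, C1, hCL, hC1, htr⟩ := transfer
  obtain ⟨C, hC, hfm⟩ := finite_main CL C1
  set B : ℝ := 2 * (A + 7) with hB
  set B2 : ℝ := 1024 * (A + B + 2) with hB2
  set B3 : ℝ := 4096 * B + 4 with hB3
  have hBpos : 0 < B := by rw [hB]; linarith
  have hB2pos : 0 < B2 := by rw [hB2]; linarith
  have hB3pos : 0 < B3 := by rw [hB3]; linarith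
  obtain ⟨n0, hn0⟩ := exists_n0 B2 B3
  set c : ℝ := min 1 (1 / (64 * (B2 + C))) with hc
  have hcpos : 0 < c := by rw [hc]; exact lt_min one_pos (by positivity)
  have hc1 : c ≤ 1 := min_le_left _ _
  have hc2 : c ≤ 1 / (64 * (B2 + C)) := min_le_right _ _
  set ℓ₀ : ℝ := 2 * B2 + 4 * C + 3 with hℓ₀
  refine ⟨c, Real.exp (-ℓ₀), hcpos, Real.exp_pos _, max 16 (16 * (n0 + 1)), ?_⟩
  intro d hd M T hM ε hε hεε Ω _ P _ μ hμ Z _ hZ L hL
  haveI := hμ.prob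
  by_contra hcon
  push Not at hcon
  set ℓ : ℝ := Real.log (1 / ε) with hℓ
  have hℓ_ge : ℓ₀ ≤ ℓ := by
    rw [hℓ, one_div, Real.log_inv]
    have := Real.log_le_log hε hεε
    rw [Real.log_exp] at this
    linarith
  have hℓ3 : 3 ≤ ℓ := by rw [hℓ₀] at hℓ_ge; linarith
  have hd16 : 16 ≤ d := le_trans (le_max_left _ _) hd
  have hdr : (16 : ℝ) ≤ d := by exact_mod_cast hd16
  -- the window length
  set n : ℕ := d / 16 with hn
  have hn1 : 1 ≤ n := by omega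
  have h16 : 16 * n ≤ d := by omega
  have h32 : d ≤ 32 * n := by omega
  have hnn0 : n0 ≤ n := by
    have := le_trans (le_max_right _ _) hd
    omega
  have hnr : (1 : ℝ) ≤ n := by exact_mod_cast hn1
  have h32r : (d : ℝ) ≤ 32 * n := by exact_mod_cast h32
  -- reduction to a deterministic learner
  obtain ⟨F, z0, o, hF, hFs⟩ := L.reduce P μ hμ T ε hL
  set N : ℕ := Fintype.card (Fin (T + 1) × Z × Bool) with hN
  have hNpos : 0 < N := Fintype.card_pos_iff.2 ⟨z0⟩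
  have hTc : (T : ℝ) < c * d * ℓ := hcon
  have hTd : (T : ℝ) ≤ d * ℓ := by
    have : c * d * ℓ ≤ 1 * d * ℓ := by gcongr
    linarith
  have hlog2 : Real.log 2 ≤ 1 := by linarith [Real.log_two_lt_d9]
  have hlogN : Real.log N ≤ A * (d : ℝ) ^ 2 + 1 + d + ℓ :=
    log_card_le (by linarith) hTd hM hZ
      (by rw [hN]; simp [Fintype.card_prod, Fintype.card_fin]) hNpos
  have hvol : ((d : ℝ) - 1) * ℓ ≤ Real.log N + ((d : ℝ) - 1) * 4 + 1 :=
    vol_log hd16 hNpos hε ((hFs T le_rfl).trans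
      (success_le (by omega) μ hμ _ (fun a => Mem.run F z0 T a.1 a.2) o ε hε))
  have hℓB : ℓ ≤ B * d := num1 hA hdr hℓ3 hlogN hvol
  have hlogN2 : Real.log N ≤ B2 * (n : ℝ) ^ 2 := num2 hA hBpos hdr h32r hnr hlogN hℓB
  -- number of windows
  set r : ℕ := T / n + 1 with hr
  have hrn : T ≤ r * n := by
    rw [hr]
    have := Nat.lt_div_mul_add (a := T) (b := n) (by omega)
    nlinarith
  have hr1 : 1 ≤ r := Nat.le_add_left 1 _
  have hrle : (r : ℝ) ≤ 32 * c * ℓ + 1 := by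
    have h1 : (r : ℝ) ≤ (T : ℝ) / n + 1 := by
      rw [hr]; push_cast
      have := Nat.cast_div_le (α := ℝ) (m := T) (n := n)
      linarith
    have h2 : (T : ℝ) / n ≤ 32 * c * ℓ := by
      rw [div_le_iff₀ (by linarith)]
      calc (T : ℝ) ≤ c * d * ℓ := hTc.le
        _ ≤ c * (32 * n) * ℓ := by gcongr
        _ = 32 * c * ℓ * n := by ring
    linarith
  have hrB : Real.log (4 * r) ≤ B3 * n := by
    have h1 : (0 : ℝ) < 4 * r := by positivity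
    have h2 := Real.log_le_sub_one_of_pos h1
    have h3 : (r : ℝ) ≤ 32 * ℓ + 1 := by
      have : 32 * c * ℓ ≤ 32 * 1 * ℓ := by gcongr
      linarith
    have h4 : ℓ ≤ B * (32 * n) := hℓB.trans (by gcongr)
    rw [hB3]
    nlinarith
  have hsize : Real.log N + Real.log (4 * r) + 6 ≤ 2 ^ n := by
    have := hn0 n hnn0
    linarith
  haveI : Nonempty (Fin (T + 1) × Z × Bool) := ⟨z0⟩
  have hε2 : 2 * ε ≤ 1 := by
    have h1 : ε ≤ Real.exp (-3) := hεε.trans (Real.exp_le_exp.2 (by rw [hℓ₀]; linarith))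
    have h2 : Real.exp (-3) ≤ Real.exp (-1) := Real.exp_le_exp.2 (by norm_num)
    have h3 := Real.exp_neg_one_lt_d9
    linarith
  have hfin : n * (ℓ - Real.log 2) ≤ r * (Real.log N / n + C * n) + C * n := by
    refine use_finite hC1 hfm r hr1 o ε hε hε2 hsize fun τ0 hτ0 => ?_
    obtain ⟨τ, hτ, hττ, NS, NX, vs, vx, lam, gam, gam', Y, Fh, hModel, hsucc⟩ :=
      htr d n hn1 h16 h32 μ hμ F hF z0 r o ε hε
        (le_trans (by norm_num) (hFs (r * n) hrn)) τ0 hτ0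
    exact ⟨τ, hτ, hττ, NS, NX, vs, vx, lam, gam, gam', Y, Fh, z0, hModel, hsucc⟩
  have h1 : Real.log N / n ≤ B2 * n := by
    rw [div_le_iff₀ (by linarith)]
    calc Real.log N ≤ B2 * (n : ℝ) ^ 2 := hlogN2
      _ = B2 * n * n := by ring
  have h2 : (n : ℝ) * (ℓ - Real.log 2) ≤ n * (r * (B2 + C) + C) := by
    calc (n : ℝ) * (ℓ - Real.log 2) ≤ r * (Real.log N / n + C * n) + C * n := hfin
      _ ≤ r * (B2 * n + C * n) + C * n := by gcongr
      _ = n * (r * (B2 + C) + C) := by ring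
  have h3 : ℓ - Real.log 2 ≤ r * (B2 + C) + C := le_of_mul_le_mul_left h2 (by linarith)
  have h4 := num3 hB2pos hC hcpos (by linarith) hc2 hrle hlog2 h3
  rw [hℓ₀] at hℓ_ge
  linarith

end Vale.Agent.Mem
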