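import Vale.Agent.Mem.Defs

/-!
# P309, part A: one window changes the potential by at most a covariance term
-/

namespace Vale.Agent.Mem

open Finset

section abstract

variable {S W H Z L L' : Type} [Fintype S] [Fintype W] [Fintype H] [Fintype Z]
  [DecidableEq L] [DecidableEq L']

/-- log-sum inequality -/
theorem logsum_le {ι : Type} (t : Finset ι) (a b : ι → ℝ) (ha : ∀ i ∈ t, 0 < a i)
    (hb : ∀ i ∈ t, 0 < b i) :
    (∑ i ∈ t, a i) * Real.log ((∑ i ∈ t, a i) / ∑ i ∈ t, b i) ≤
      ∑ i ∈ t, a i * Real.log (a i / b i) := by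
  rcases t.eq_empty_or_nonempty with h | h
  · subst h; simp
  have hA : 0 < ∑ i ∈ t, a i := Finset.sum_pos ha h
  have hB : 0 < ∑ i ∈ t, b i := Finset.sum_pos hb h
  set A := ∑ i ∈ t, a i with hAdef
  set B := ∑ i ∈ t, b i with hBdef
  have key : ∀ i ∈ t, a i * Real.log (A / B) - a i * Real.log (a i / b i) ≤
      A / B * b i - a i := by
    intro i hi
    have h1 := ha i hi
    have h2 := hb i hi
    have h3 : 0 < (A / B) / (a i / b i) := by positivity
    have h4 := Real.log_le_sub_one_of_pos h3
    rw [Real.log_div (by positivity) (by positivity)] at h4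
    have h5 := mul_le_mul_of_nonneg_left h4 h1.le
    have h6 : a i * ((A / B) / (a i / b i) - 1) = A / B * b i - a i := by
      field_simp
    rw [h6] at h5
    linarith [h5, mul_sub (a i) (Real.log (A / B)) (Real.log (a i / b i))]
  have h7 := Finset.sum_le_sum key
  rw [Finset.sum_sub_distrib, Finset.sum_sub_distrib, ← Finset.sum_mul, ← Finset.mul_sum,
    ← hAdef, ← hBdef] at h7
  have h8 : A / B * B = A := by field_simp
  rw [h8] at h7
  linarith

omit [Fintype W] [Fintype H] in
theorem cell_pos (lam : S → ℝ) (hlam : ∀ s, 0 < lam s) (lab : W → S → L) (labh : H → S → L')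
    (f : S → ℝ) (hf : ∀ s, 0 < f s) (x : W) (h : H) (s : S) : 0 < cell lam lab labh f x h s := by
  unfold cell
  apply Finset.sum_pos'
  · intro s' _
    split_ifs
    · exact (mul_pos (hlam s') (hf s')).le
    · exact le_refl _
  · exact ⟨s, Finset.mem_univ _, by simpa using mul_pos (hlam s) (hf s)⟩

omit [Fintype W] [Fintype H] in
theorem cell_congr (lam : S → ℝ) (lab : W → S → L) (labh : H → S → L')
    (f : S → ℝ) (x : W) (h : H) (s s' : S) (h1 : lab x s' = lab x s) (h2 : labh h s' = labh h s) :
    cell lam lab labh f x h s' = cell lam lab labh f x h s := by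
  unfold cell
  rw [h1, h2]

omit [Fintype W] [Fintype H] in
/-- symmetry of the cell relation -/
theorem sum_cell_swap (lam : S → ℝ) (lab : W → S → L) (labh : H → S → L')
    (f w : S → ℝ) (x : W) (h : H) :
    ∑ s, w s * cell lam lab labh f x h s =
      ∑ s', lam s' * f s' * ∑ s, if lab x s = lab x s' ∧ labh h s = labh h s' then w s else 0 := by
  unfold cell
  simp_rw [Finset.mul_sum]
  rw [Finset.sum_comm]
  refine Finset.sum_congr rfl fun s' _ => Finset.sum_congr rfl fun s _ => ?_
  by_cases hc : lab x s' = lab x s ∧ labh h s' = labh h s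
  · rw [if_pos hc, if_pos ⟨hc.1.symm, hc.2.symm⟩]; ring
  · rw [if_neg hc, if_neg (fun h' => hc ⟨h'.1.symm, h'.2.symm⟩)]; ring

omit [Fintype W] [Fintype H] in
/-- (A2): data processing in the signal -/
theorem cell_logsum (lam : S → ℝ) (hlam : ∀ s, 0 < lam s) (lab : W → S → L) (labh : H → S → L')
    (q v : S → ℝ) (hq : ∀ s, 0 < q s) (hv : ∀ s, 0 < v s) (x : W) (h : H) :
    ∑ s, lam s * (q s * (Real.log (cell lam lab labh q x h s) -
        Real.log (cell lam lab labh v x h s))) ≤
      ∑ s, lam s * (q s * (Real.log (q s) - Real.log (v s))) := by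
  have cq := cell_pos lam hlam lab labh q hq x h
  have cv := cell_pos lam hlam lab labh v hv x h
  have key : ∀ s ∈ (Finset.univ : Finset S),
      lam s * (q s * (Real.log (cell lam lab labh q x h s) -
        Real.log (cell lam lab labh v x h s))) -
      lam s * (q s * (Real.log (q s) - Real.log (v s))) ≤
      lam s * v s / cell lam lab labh v x h s * cell lam lab labh q x h s - lam s * q s := by
    intro s _
    have h1 := hlam s
    have h2 := hq s
    have h3 := hv s
    have h4 := cq s
    have h5 := cv s
    have h6 : 0 < (cell lam lab labh q x h s / cell lam lab labh v x h s) / (q s / v s) := by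
      positivity
    have h7 := Real.log_le_sub_one_of_pos h6
    rw [Real.log_div (by positivity) (by positivity), Real.log_div h4.ne' h5.ne',
      Real.log_div h2.ne' h3.ne'] at h7
    have h8 := mul_le_mul_of_nonneg_left h7 (mul_pos h1 h2).le
    have h9 : lam s * q s * ((cell lam lab labh q x h s / cell lam lab labh v x h s) /
        (q s / v s) - 1) =
        lam s * v s / cell lam lab labh v x h s * cell lam lab labh q x h s - lam s * q s := by
      field_simp
    rw [h9] at h8
    linarith [h8]
  have h10 := Finset.sum_le_sum key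
  rw [Finset.sum_sub_distrib, Finset.sum_sub_distrib,
    sum_cell_swap lam lab labh q (fun s => lam s * v s / cell lam lab labh v x h s) x h] at h10
  have h11 : ∀ s' : S, (∑ s, if lab x s = lab x s' ∧ labh h s = labh h s' then
      lam s * v s / cell lam lab labh v x h s else 0) = 1 := by
    intro s'
    have h12 : (∑ s, if lab x s = lab x s' ∧ labh h s = labh h s' then
      lam s * v s / cell lam lab labh v x h s else 0) =
      (∑ s, if lab x s = lab x s' ∧ labh h s = labh h s' then lam s * v s else 0) /
        cell lam lab labh v x h s' := by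
      rw [Finset.sum_div]
      refine Finset.sum_congr rfl fun s _ => ?_
      by_cases hc : lab x s = lab x s' ∧ labh h s = labh h s'
      · rw [if_pos hc, if_pos hc, cell_congr lam lab labh v x h s' s hc.1 hc.2]
      · rw [if_neg hc, if_neg hc, zero_div]
    rw [h12]
    exact div_self (cv s').ne'
  simp_rw [h11, mul_one] at h10
  linarith

omit [Fintype W] [Fintype H] in
/-- (A1): data processing in the state, pointwise -/
theorem state_logsum (lam : S → ℝ) (hlam : ∀ s, 0 < lam s) (lab : W → S → L) (labh : H → S → L')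
    (κ : Z → W → L → Z → ℝ) (hκ : ∀ z x l z', 0 < κ z x l z')
    (hκ1 : ∀ z x l, ∑ z', κ z x l z' = 1) (u : Z → S → ℝ) (hu : ∀ z s, 0 < u z s)
    (x : W) (h : H) (s : S) :
    ∑ z', qn lab κ u x z' s * (Real.log (qn lab κ u x z' s) -
        Real.log (cell lam lab labh (qn lab κ u x z') x h s)) ≤
      ∑ z, u z s * (Real.log (u z s) - Real.log (cell lam lab labh (u z) x h s)) := by
  have hc : ∀ z', cell lam lab labh (qn lab κ u x z') x h s =
      ∑ z, κ z x (lab x s) z' * cell lam lab labh (u z) x h s := by
    intro z'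
    unfold cell qn
    simp_rw [Finset.mul_sum]
    rw [Finset.sum_comm]
    refine Finset.sum_congr rfl fun s' _ => ?_
    by_cases hh : lab x s' = lab x s ∧ labh h s' = labh h s
    · simp only [if_pos hh]
      refine Finset.sum_congr rfl fun z _ => ?_
      rw [hh.1]; ring
    · simp only [if_neg hh, mul_zero, Finset.sum_const_zero]
  have key : ∀ z' ∈ (Finset.univ : Finset Z),
      qn lab κ u x z' s * (Real.log (qn lab κ u x z' s) -
        Real.log (cell lam lab labh (qn lab κ u x z') x h s)) ≤
      ∑ z, κ z x (lab x s) z' * (u z s * (Real.log (u z s) -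
        Real.log (cell lam lab labh (u z) x h s))) := by
    intro z' _
    have h1 := logsum_le (Finset.univ : Finset Z) (fun z => u z s * κ z x (lab x s) z')
      (fun z => κ z x (lab x s) z' * cell lam lab labh (u z) x h s)
      (fun z _ => mul_pos (hu z s) (hκ z x _ z'))
      (fun z _ => mul_pos (hκ z x _ z') (cell_pos lam hlam lab labh (u z) (hu z) x h s))
    have hne : (Finset.univ : Finset Z).Nonempty := ⟨z', Finset.mem_univ _⟩
    have h2 : 0 < qn lab κ u x z' s :=
      Finset.sum_pos (fun z _ => mul_pos (hu z s) (hκ z x _ z')) hne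
    have h3 : 0 < cell lam lab labh (qn lab κ u x z') x h s := by
      apply cell_pos lam hlam
      intro s'
      exact Finset.sum_pos (fun z _ => mul_pos (hu z s') (hκ z x _ z')) hne
    rw [← hc z'] at h1
    change qn lab κ u x z' s * Real.log (qn lab κ u x z' s / _) ≤ _ at h1
    rw [Real.log_div h2.ne' h3.ne'] at h1
    refine h1.trans (le_of_eq (Finset.sum_congr rfl fun z _ => ?_))
    have h4 := hu z s
    have h5 := hκ z x (lab x s) z'
    have h6 := cell_pos lam hlam lab labh (u z) (hu z) x h s
    have h7 : u z s * κ z x (lab x s) z' / (κ z x (lab x s) z' * cell lam lab labh (u z) x h s) =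
        u z s / cell lam lab labh (u z) x h s := by
      field_simp
    rw [h7, Real.log_div h4.ne' h6.ne']
    ring
  refine (Finset.sum_le_sum key).trans (le_of_eq ?_)
  rw [Finset.sum_comm]
  refine Finset.sum_congr rfl fun z _ => ?_
  rw [← Finset.sum_mul, hκ1, one_mul]

/-- **Part A.** -/
theorem pot_step (lam : S → ℝ) (gam : W → ℝ) (eta : H → ℝ) (lab : W → S → L) (labh : H → S → L')
    (hlam : ∀ s, 0 < lam s) (hgam : ∀ x, 0 ≤ gam x) (hg1 : ∑ x, gam x = 1)
    (heta : ∀ h, 0 ≤ eta h) (κ : Z → W → L → Z → ℝ) (hκ : ∀ z x l z', 0 < κ z x l z')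
    (hκ1 : ∀ z x l, ∑ z', κ z x l z' = 1) (u : Z → S → ℝ) (hu : ∀ z s, 0 < u z s)
    (hu1 : ∀ s, ∑ z, u z s = 1) :
    pot lam gam eta lab labh (un gam lab κ u) - pot lam gam eta lab labh u ≤
      ∑ h, eta h * ∑ x, gam x * ∑ s, lam s * ∑ z',
        (qn lab κ u x z' s - un gam lab κ u z' s) *
          Real.log (cell lam lab labh (un gam lab κ u z') x h s) := by
  classical
  set v := un gam lab κ u with hv
  have hqpos : ∀ x z' s, 0 < qn lab κ u x z' s := fun x z' s =>
    Finset.sum_pos (fun z _ => mul_pos (hu z s) (hκ z x _ z')) ⟨z', Finset.mem_univ _⟩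
  obtain ⟨x0, hx0⟩ : ∃ x0, 0 < gam x0 := by
    by_contra hcon
    push Not at hcon
    have : ∑ x, gam x ≤ 0 := Finset.sum_nonpos fun x _ => hcon x
    linarith
  have hvpos : ∀ z' s, 0 < v z' s := by
    intro z' s
    apply Finset.sum_pos'
    · exact fun x _ => mul_nonneg (hgam x) (hqpos x z' s).le
    · exact ⟨x0, Finset.mem_univ _, mul_pos hx0 (hqpos x0 z' s)⟩
  have hq1 : ∀ x s, ∑ z', qn lab κ u x z' s = 1 := by
    intro x s
    unfold qn
    rw [Finset.sum_comm]
    simp_rw [← Finset.mul_sum, hκ1, mul_one]
    exact hu1 s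
  have hv1 : ∀ s, ∑ z', v z' s = 1 := by
    intro s
    rw [hv]
    unfold un
    rw [Finset.sum_comm]
    simp_rw [← Finset.mul_sum, hq1, mul_one]
    exact hg1
  have c1pos := cell_pos lam hlam lab labh (fun _ => (1 : ℝ)) (fun _ => one_pos)
  have hsplit : ∀ (f : Z → S → ℝ), (∀ z s, 0 < f z s) → (∀ s, ∑ z, f z s = 1) → ∀ h x s,
      ∑ z, f z s * Real.log (f z s * cell lam lab labh (fun _ => 1) x h s /
        cell lam lab labh (f z) x h s) =
      ∑ z, f z s * (Real.log (f z s) - Real.log (cell lam lab labh (f z) x h s)) +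
        Real.log (cell lam lab labh (fun _ => 1) x h s) := by
    intro f hf hf1 h x s
    have h1 : Real.log (cell lam lab labh (fun _ => 1) x h s) =
        ∑ z, f z s * Real.log (cell lam lab labh (fun _ => 1) x h s) := by
      rw [← Finset.sum_mul, hf1, one_mul]
    rw [h1, ← Finset.sum_add_distrib]
    refine Finset.sum_congr rfl fun z _ => ?_
    have h2 := hf z s
    have h3 := c1pos x h s
    have h4 := cell_pos lam hlam lab labh (f z) (hf z) x h s
    rw [Real.log_div (mul_pos h2 h3).ne' h4.ne', Real.log_mul h2.ne' h3.ne']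
    ring
  have hlow : ∀ h x, ∑ s, lam s * (∑ z', qn lab κ u x z' s *
        (Real.log (v z' s) - Real.log (cell lam lab labh (v z') x h s)) +
        Real.log (cell lam lab labh (fun _ => 1) x h s)) ≤
      ∑ s, lam s * ∑ z, u z s * Real.log (u z s * cell lam lab labh (fun _ => 1) x h s /
        cell lam lab labh (u z) x h s) := by
    intro h x
    have h1 : ∑ s, lam s * (∑ z', qn lab κ u x z' s *
        (Real.log (qn lab κ u x z' s) - Real.log (cell lam lab labh (qn lab κ u x z') x h s)) +
        Real.log (cell lam lab labh (fun _ => 1) x h s)) ≤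
        ∑ s, lam s * ∑ z, u z s * Real.log (u z s * cell lam lab labh (fun _ => 1) x h s /
        cell lam lab labh (u z) x h s) := by
      refine Finset.sum_le_sum fun s _ => ?_
      rw [hsplit u hu hu1 h x s]
      exact mul_le_mul_of_nonneg_left
        (add_le_add_left (state_logsum lam hlam lab labh κ hκ hκ1 u hu x h s) _) (hlam s).le
    refine le_trans ?_ h1
    simp_rw [mul_add, Finset.sum_add_distrib]
    refine add_le_add_left ?_ _
    simp_rw [Finset.mul_sum]
    rw [Finset.sum_comm, Finset.sum_comm (s := (Finset.univ : Finset S))]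
    refine Finset.sum_le_sum fun z' _ => ?_
    have h2 := cell_logsum lam hlam lab labh (fun s => qn lab κ u x z' s) (v z')
      (fun s => hqpos x z' s) (hvpos z') x h
    have h3 : ∀ s, lam s * (qn lab κ u x z' s * (Real.log (qn lab κ u x z' s) -
          Real.log (cell lam lab labh (qn lab κ u x z') x h s))) -
        lam s * (qn lab κ u x z' s * (Real.log (v z' s) -
          Real.log (cell lam lab labh (v z') x h s))) =
        lam s * (qn lab κ u x z' s * (Real.log (qn lab κ u x z' s) - Real.log (v z' s))) -
        lam s * (qn lab κ u x z' s * (Real.log (cell lam lab labh (qn lab κ u x z') x h s) -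
          Real.log (cell lam lab labh (v z') x h s))) := fun s => by ring
    have h4 : 0 ≤ ∑ s, (lam s * (qn lab κ u x z' s * (Real.log (qn lab κ u x z' s) -
          Real.log (cell lam lab labh (qn lab κ u x z') x h s))) -
        lam s * (qn lab κ u x z' s * (Real.log (v z' s) -
          Real.log (cell lam lab labh (v z') x h s)))) := by
      simp_rw [h3]
      rw [Finset.sum_sub_distrib]
      linarith [h2]
    rw [Finset.sum_sub_distrib] at h4
    linarith
  have hpotu : ∑ h, eta h * ∑ x, gam x * ∑ s, lam s * (∑ z', qn lab κ u x z' s *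
        (Real.log (v z' s) - Real.log (cell lam lab labh (v z') x h s)) +
        Real.log (cell lam lab labh (fun _ => 1) x h s)) ≤ pot lam gam eta lab labh u := by
    unfold pot
    refine Finset.sum_le_sum fun h _ => mul_le_mul_of_nonneg_left ?_ (heta h)
    exact Finset.sum_le_sum fun x _ => mul_le_mul_of_nonneg_left (hlow h x) (hgam x)
  have hpotv : pot lam gam eta lab labh v = ∑ h, eta h * ∑ x, gam x * ∑ s, lam s *
      (∑ z', v z' s * (Real.log (v z' s) - Real.log (cell lam lab labh (v z') x h s)) +
        Real.log (cell lam lab labh (fun _ => 1) x h s)) := by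
    unfold pot
    refine Finset.sum_congr rfl fun h _ => ?_
    congr 1
    refine Finset.sum_congr rfl fun x _ => ?_
    congr 1
    refine Finset.sum_congr rfl fun s _ => ?_
    rw [hsplit v hvpos hv1 h x s]
  have hzero : ∀ h : H, ∑ x, gam x * ∑ s, lam s * ∑ z',
      (v z' s - qn lab κ u x z' s) * Real.log (v z' s) = 0 := by
    intro _
    simp_rw [Finset.mul_sum]
    rw [Finset.sum_comm]
    refine Finset.sum_eq_zero fun s _ => ?_
    rw [Finset.sum_comm]
    refine Finset.sum_eq_zero fun z' _ => ?_
    have h1 : ∀ x, gam x * (lam s * ((v z' s - qn lab κ u x z' s) * Real.log (v z' s))) =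
        lam s * Real.log (v z' s) * v z' s * gam x -
        lam s * Real.log (v z' s) * (gam x * qn lab κ u x z' s) := fun x => by ring
    simp_rw [h1]
    rw [Finset.sum_sub_distrib, ← Finset.mul_sum, ← Finset.mul_sum, hg1]
    change _ - _ * v z' s = 0
    ring
  have hdiff : ∀ h, ∑ x, gam x * ∑ s, lam s *
      (∑ z', v z' s * (Real.log (v z' s) - Real.log (cell lam lab labh (v z') x h s)) +
        Real.log (cell lam lab labh (fun _ => 1) x h s)) -
      ∑ x, gam x * ∑ s, lam s * (∑ z', qn lab κ u x z' s *
        (Real.log (v z' s) - Real.log (cell lam lab labh (v z') x h s)) +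
        Real.log (cell lam lab labh (fun _ => 1) x h s)) =
      ∑ x, gam x * ∑ s, lam s * ∑ z', (qn lab κ u x z' s - v z' s) *
          Real.log (cell lam lab labh (v z') x h s) := by
    intro h
    have h1 := hzero h
    rw [← Finset.sum_sub_distrib, ← add_zero (∑ x, gam x * ∑ s, lam s * ∑ z',
      (qn lab κ u x z' s - v z' s) * Real.log (cell lam lab labh (v z') x h s)), ← h1,
      ← Finset.sum_add_distrib]
    refine Finset.sum_congr rfl fun x _ => ?_
    rw [← mul_sub, ← mul_add, ← Finset.sum_sub_distrib, ← Finset.sum_add_distrib]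
    congr 1
    refine Finset.sum_congr rfl fun s _ => ?_
    rw [← mul_sub, ← mul_add, add_sub_add_right_eq_sub, ← Finset.sum_sub_distrib,
      ← Finset.sum_add_distrib]
    congr 1
    refine Finset.sum_congr rfl fun z' _ => ?_
    ring
  rw [hpotv]
  refine (sub_le_sub_left hpotu _).trans (le_of_eq ?_)
  rw [← Finset.sum_sub_distrib]
  refine Finset.sum_congr rfl fun h _ => ?_
  rw [← mul_sub, hdiff]

end abstract

end Vale.Agent.Mem
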