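import Vale.Agent.Mem.Defs

/-!
# P309, part C: lower bound for the entropy of the cells
-/

namespace Vale.Agent.Mem

open Finset
open scoped InnerProductSpace

namespace PC

/-- discrete Laplace kernel -/
noncomputable def fk (σ : ℝ) (t : ℤ) : ℝ := Real.exp (-(|(t : ℝ)| / σ)) / (3 * σ)

theorem fk_pos {σ : ℝ} (hσ : 1 ≤ σ) (t : ℤ) : 0 < fk σ t := by
  have : 0 < σ := by linarith
  rw [fk]; positivity

theorem fk_log {σ : ℝ} (hσ : 1 ≤ σ) (t : ℤ) :
    Real.log (fk σ t) = -(|(t : ℝ)| / σ) - Real.log (3 * σ) := by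
  have : 0 < σ := by linarith
  rw [fk, Real.log_div (Real.exp_pos _).ne' (by positivity), Real.log_exp]

theorem fk_sum {σ : ℝ} (hσ : 1 ≤ σ) (T : Finset ℤ) : ∑ t ∈ T, fk σ t ≤ 1 := by
  have hσ0 : 0 < σ := by linarith
  set q := Real.exp (-(1 / σ)) with hq
  have hq0 : 0 ≤ q := (Real.exp_pos _).le
  have hq1 : q < 1 := by
    rw [hq, Real.exp_lt_one_iff]
    have : 0 < 1 / σ := by positivity
    linarith
  have hpow : ∀ n : ℕ, Real.exp (-((n : ℝ) / σ)) = q ^ n := by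
    intro n
    rw [hq, ← Real.exp_nat_mul]
    congr 1
    ring
  obtain ⟨F, hF⟩ : ∃ F : ℤ → ℝ, ∀ t, F t = Real.exp (-(|(t : ℝ)| / σ)) := ⟨_, fun t => rfl⟩
  have h1 : HasSum (fun n : ℕ => F (n : ℤ)) (1 - q)⁻¹ := by
    have h := hasSum_geometric_of_lt_one hq0 hq1
    have e : (fun n : ℕ => F (n : ℤ)) = fun n => q ^ n := by
      funext n
      rw [hF, Int.cast_natCast, Nat.abs_cast]
      exact hpow n
    rw [e]; exact h
  have h2 : HasSum (fun n : ℕ => F (-((n : ℤ) + 1))) (q * (1 - q)⁻¹) := by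
    have h := (hasSum_geometric_of_lt_one hq0 hq1).mul_left q
    have e : (fun n : ℕ => F (-((n : ℤ) + 1))) = fun n => q * q ^ n := by
      funext n
      have h3 : |((-((n : ℤ) + 1) : ℤ) : ℝ)| = ((n + 1 : ℕ) : ℝ) := by
        push_cast
        rw [abs_neg]
        exact abs_of_nonneg (by positivity)
      rw [hF, h3, hpow (n + 1), pow_succ, mul_comm]
    rw [e]; exact h
  have h3 := HasSum.of_nat_of_neg_add_one h1 h2
  have h4 := sum_le_hasSum T (fun t _ => by rw [hF]; exact (Real.exp_pos _).le) h3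
  have hq2 : q ≤ σ / (σ + 1) := by
    have h5 : 1 + 1 / σ ≤ Real.exp (1 / σ) := by
      have := Real.add_one_le_exp (1 / σ)
      linarith
    rw [hq, Real.exp_neg]
    have h6 : (Real.exp (1 / σ))⁻¹ ≤ (1 + 1 / σ)⁻¹ := inv_anti₀ (by positivity) h5
    refine h6.trans (le_of_eq ?_)
    field_simp
  have hq3 : 1 / (σ + 1) ≤ 1 - q := by
    have : 1 - σ / (σ + 1) = 1 / (σ + 1) := by field_simp; ring
    linarith
  have hq4 : (1 - q)⁻¹ ≤ σ + 1 := by
    have h6 : (1 - q)⁻¹ ≤ (1 / (σ + 1))⁻¹ := inv_anti₀ (by positivity) hq3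
    rwa [one_div, inv_inv] at h6
  have hq5 : q * (1 - q)⁻¹ = (1 - q)⁻¹ - 1 := by
    have : 1 - q ≠ 0 := by linarith
    field_simp
    ring
  have h7 : ∑ t ∈ T, fk σ t = (∑ t ∈ T, F t) / (3 * σ) := by
    rw [Finset.sum_div]
    refine Finset.sum_congr rfl fun t _ => ?_
    rw [hF, fk]
  rw [h7, div_le_one (by positivity)]
  rw [hq5] at h4
  linarith

theorem fk_vec_sum {σ : ℝ} (hσ : 1 ≤ σ) {w : ℕ} (T : Finset (Fin w → ℤ)) (c : Fin w → ℤ) :
    ∑ L ∈ T, ∏ i, fk σ (L i - c i) ≤ 1 := by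
  classical
  have hsub : T ⊆ Fintype.piFinset (fun i => T.image (fun L => L i)) := by
    intro L hL
    rw [Fintype.mem_piFinset]
    intro i
    exact Finset.mem_image_of_mem _ hL
  calc ∑ L ∈ T, ∏ i, fk σ (L i - c i) ≤
      ∑ L ∈ Fintype.piFinset (fun i => T.image (fun L => L i)), ∏ i, fk σ (L i - c i) :=
        Finset.sum_le_sum_of_subset_of_nonneg hsub
          (fun L _ _ => Finset.prod_nonneg fun i _ => (fk_pos hσ _).le)
    _ = ∏ i, ∑ t ∈ T.image (fun L => L i), fk σ (t - c i) :=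
        (Finset.prod_univ_sum (fun i => T.image (fun L => L i)) (fun i t => fk σ (t - c i))).symm
    _ ≤ 1 := by
        refine Finset.prod_le_one (fun i _ => Finset.sum_nonneg fun t _ => (fk_pos hσ _).le) ?_
        intro i _
        have : ∑ t ∈ T.image (fun L => L i), fk σ (t - c i) =
            ∑ t ∈ (T.image (fun L => L i)).image (fun t => t - c i), fk σ t := by
          refine (Finset.sum_image (g := fun t => t - c i) (f := fk σ) ?_).symm
          intro a _ b _ h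
          simpa using h
        rw [this]
        exact fk_sum hσ _

section phi

variable {S : Type} [Fintype S] {w k : ℕ}

/-- the reference density on label vectors -/
noncomputable def Phi (P : S → ℝ) (σ : ℕ → ℝ) (K : ℕ) (y : S → (Fin w → ℤ) × (Fin k → ℤ))
    (L : (Fin w → ℤ) × (Fin k → ℤ)) : ℝ :=
  ((K : ℝ) + 1)⁻¹ * ∑ j ∈ Finset.range (K + 1), ∑ s', P s' *
    ((∏ i, fk (σ j) (L.1 i - (y s').1 i)) * ∏ i, fk (σ j) (L.2 i - (y s').2 i))

theorem Phi_sum (P : S → ℝ) (hP : ∀ s, 0 ≤ P s) (hP1 : ∑ s, P s = 1) (σ : ℕ → ℝ)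
    (hσ : ∀ j, 1 ≤ σ j) (K : ℕ) (y : S → (Fin w → ℤ) × (Fin k → ℤ))
    (T : Finset ((Fin w → ℤ) × (Fin k → ℤ))) : ∑ L ∈ T, Phi P σ K y L ≤ 1 := by
  classical
  have h1 : ∀ (j : ℕ) (s' : S), ∑ L ∈ T, ((∏ i, fk (σ j) (L.1 i - (y s').1 i)) *
      ∏ i, fk (σ j) (L.2 i - (y s').2 i)) ≤ 1 := by
    intro j s'
    have hsub : T ⊆ T.image Prod.fst ×ˢ T.image Prod.snd := by
      intro L hL
      rw [Finset.mem_product]
      exact ⟨Finset.mem_image_of_mem _ hL, Finset.mem_image_of_mem _ hL⟩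
    have hnn1 : ∀ L : Fin w → ℤ, 0 ≤ ∏ i, fk (σ j) (L i - (y s').1 i) :=
      fun L => Finset.prod_nonneg fun i _ => (fk_pos (hσ j) _).le
    have hnn2 : ∀ L : Fin k → ℤ, 0 ≤ ∏ i, fk (σ j) (L i - (y s').2 i) :=
      fun L => Finset.prod_nonneg fun i _ => (fk_pos (hσ j) _).le
    calc _ ≤ ∑ L ∈ T.image Prod.fst ×ˢ T.image Prod.snd, ((∏ i, fk (σ j) (L.1 i - (y s').1 i)) *
          ∏ i, fk (σ j) (L.2 i - (y s').2 i)) :=
          Finset.sum_le_sum_of_subset_of_nonneg hsub fun L _ _ => mul_nonneg (hnn1 _) (hnn2 _)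
      _ = (∑ L ∈ T.image Prod.fst, ∏ i, fk (σ j) (L i - (y s').1 i)) *
          ∑ L ∈ T.image Prod.snd, ∏ i, fk (σ j) (L i - (y s').2 i) := by
          rw [Finset.sum_mul_sum, Finset.sum_product]
      _ ≤ 1 * 1 := mul_le_mul (fk_vec_sum (hσ j) _ _) (fk_vec_sum (hσ j) _ _)
          (Finset.sum_nonneg fun L _ => hnn2 L) zero_le_one
      _ = 1 := one_mul 1
  unfold Phi
  rw [← Finset.mul_sum, Finset.sum_comm]
  have h2 : ∀ j ∈ Finset.range (K + 1), ∑ L ∈ T, ∑ s', P s' *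
      ((∏ i, fk (σ j) (L.1 i - (y s').1 i)) * ∏ i, fk (σ j) (L.2 i - (y s').2 i)) ≤ 1 := by
    intro j _
    rw [Finset.sum_comm, ← hP1]
    refine Finset.sum_le_sum fun s' _ => ?_
    rw [← Finset.mul_sum]
    calc _ ≤ P s' * 1 := mul_le_mul_of_nonneg_left (h1 j s') (hP s')
      _ = P s' := mul_one _
  have h3 := Finset.sum_le_sum h2
  rw [Finset.sum_const, Finset.card_range, nsmul_eq_mul, mul_one] at h3
  push_cast at h3
  rw [inv_mul_le_iff₀ (by positivity), mul_one]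
  exact h3

theorem Phi_pos [Nonempty S] (P : S → ℝ) (hP : ∀ s, 0 < P s) (σ : ℕ → ℝ)
    (hσ : ∀ j, 1 ≤ σ j) (K : ℕ) (y : S → (Fin w → ℤ) × (Fin k → ℤ))
    (L : (Fin w → ℤ) × (Fin k → ℤ)) : 0 < Phi P σ K y L := by
  unfold Phi
  refine mul_pos (by positivity) (Finset.sum_pos (fun j _ => Finset.sum_pos (fun s _ => ?_)
    Finset.univ_nonempty) ⟨0, by simp⟩)
  exact mul_pos (hP s) (mul_pos (Finset.prod_pos fun i _ => fk_pos (hσ j) _)
    (Finset.prod_pos fun i _ => fk_pos (hσ j) _))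

/-- Gibbs inequality for one realisation of the rows -/
theorem gibbs (P : S → ℝ) (hP : ∀ s, 0 < P s) (y : S → (Fin w → ℤ) × (Fin k → ℤ))
    (Q : (Fin w → ℤ) × (Fin k → ℤ) → ℝ) (hQ : ∀ T : Finset _, ∑ L ∈ T, Q L ≤ 1) :
    ∑ s, P s * (Q (y s) / ∑ s', if y s' = y s then P s' else 0) ≤ 1 := by
  classical
  refine le_trans (le_of_eq ?_) (hQ (Finset.univ.image y))
  rw [← Finset.sum_fiberwise_of_maps_to (s := Finset.univ) (t := Finset.univ.image y)
    (g := y) (fun s _ => Finset.mem_image_of_mem y (Finset.mem_univ s))]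
  refine Finset.sum_congr rfl fun L hL => ?_
  obtain ⟨s0, _, hs0⟩ := Finset.mem_image.1 hL
  have h1 : ∑ s with y s = L, P s * (Q (y s) / ∑ s', if y s' = y s then P s' else 0) =
      ∑ s with y s = L, P s * (Q L / ∑ s', if y s' = L then P s' else 0) := by
    refine Finset.sum_congr rfl fun s hs => ?_
    rw [(Finset.mem_filter.1 hs).2]
  rw [h1, ← Finset.sum_mul, ← Finset.sum_filter (fun s' => y s' = L)]
  have h2 : 0 < ∑ s with y s = L, P s :=
    Finset.sum_pos (fun s _ => hP s) ⟨s0, by simp [hs0]⟩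
  field_simp

theorem gibbs_log (P : S → ℝ) (hP : ∀ s, 0 < P s) (y : S → (Fin w → ℤ) × (Fin k → ℤ))
    (Q : (Fin w → ℤ) × (Fin k → ℤ) → ℝ) (hQ0 : ∀ L, 0 < Q L)
    (hQ : ∀ T : Finset _, ∑ L ∈ T, Q L ≤ 1)
    (ψ : S → ℝ) (hψ0 : ∀ s, 0 ≤ ψ s) (hψ1 : ∀ s, ψ s ≤ 1) :
    (∑ s, P s * (ψ s * Real.log (Q (y s)))) + (∑ s, P s * ψ s) - 1 ≤
      ∑ s, P s * (ψ s * Real.log (∑ s', if y s' = y s then P s' else 0)) := by
  have hg := gibbs P hP y Q hQ
  have hc : ∀ s, 0 < ∑ s', if y s' = y s then P s' else 0 := by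
    intro s
    refine Finset.sum_pos' (fun s' _ => ?_) ⟨s, Finset.mem_univ s, by simp [hP s]⟩
    split_ifs
    · exact (hP s').le
    · exact le_rfl
  have h1 : ∀ s, P s * (ψ s * Real.log (Q (y s))) + P s * ψ s -
      P s * (Q (y s) / ∑ s', if y s' = y s then P s' else 0) ≤
      P s * (ψ s * Real.log (∑ s', if y s' = y s then P s' else 0)) := by
    intro s
    set c := ∑ s', if y s' = y s then P s' else 0 with hcdef
    have hcs : 0 < c := hc s
    have h2 : Real.log (Q (y s) / c) ≤ Q (y s) / c - 1 :=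
      Real.log_le_sub_one_of_pos (div_pos (hQ0 _) hcs)
    rw [Real.log_div (hQ0 _).ne' hcs.ne'] at h2
    have h3 : 0 < Q (y s) / c := div_pos (hQ0 _) hcs
    have h4 : ψ s * (Real.log (Q (y s)) + 1 - Real.log c) ≤ Q (y s) / c := by
      calc ψ s * (Real.log (Q (y s)) + 1 - Real.log c) ≤ ψ s * (Q (y s) / c) :=
            mul_le_mul_of_nonneg_left (by linarith) (hψ0 s)
        _ ≤ 1 * (Q (y s) / c) := mul_le_mul_of_nonneg_right (hψ1 s) h3.le
        _ = _ := one_mul _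
    have h5 := mul_le_mul_of_nonneg_left h4 (hP s).le
    nlinarith
  have h6 := Finset.sum_le_sum fun s (_ : s ∈ Finset.univ) => h1 s
  rw [Finset.sum_sub_distrib, Finset.sum_add_distrib] at h6
  linarith

end phi

end PC

end Vale.Agent.Mem
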