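import Vale.Agent.Mem.Defs

/-!
# P309, part D: moments over independent rows
-/

namespace Vale.Agent.Mem

open Finset
open scoped InnerProductSpace

theorem g_nonneg' {τ : ℝ} (hτ : 0 < τ) (t : ℝ) : 0 ≤ g τ t := by
  unfold g
  split_ifs with h
  · exact zero_le_one
  · push Not at h
    exact div_nonneg hτ.le (by linarith)

section moment

variable {S X : Type} [Fintype S] [Fintype X]

/-- the factor of the `j`-th point -/
noncomputable def fac {d : ℕ} (τ1 : ℝ) {k : ℕ} (u : Fin k → E d) (j : Fin k) : ℝ :=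
  g τ1 (Metric.infDist (u j) (Submodule.span ℝ (u '' {i | i < j}) : Set (E d)))

theorem fac_castSucc {d : ℕ} (τ1 : ℝ) {k : ℕ} (u : Fin (k + 1) → E d) (j : Fin k) :
    fac τ1 u j.castSucc = fac τ1 (fun i : Fin k => u i.castSucc) j := by
  unfold fac
  have h : u '' {i | i < j.castSucc} = (fun i : Fin k => u i.castSucc) '' {i | i < j} := by
    ext v
    constructor
    · rintro ⟨i, hi, rfl⟩
      have hi' : i < j.castSucc := hi
      have hne : i ≠ Fin.last k := by
        rintro rfl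
        exact absurd hi' (not_lt.2 (Fin.le_last _))
      obtain ⟨i', rfl⟩ := Fin.exists_castSucc_eq.2 hne
      exact ⟨i', Fin.castSucc_lt_castSucc_iff.1 hi', rfl⟩
    · rintro ⟨i, hi, rfl⟩
      exact ⟨i.castSucc, Fin.castSucc_lt_castSucc_iff.2 hi, rfl⟩
  rw [h]

theorem fac_last {d : ℕ} (τ1 : ℝ) {k : ℕ} (u : Fin (k + 1) → E d) :
    fac τ1 u (Fin.last k) = g τ1 (Metric.infDist (u (Fin.last k))
      (Submodule.span ℝ (Set.range fun i : Fin k => u i.castSucc) : Set (E d))) := by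
  unfold fac
  have h : u '' {i | i < Fin.last k} = Set.range fun i : Fin k => u i.castSucc := by
    ext v
    constructor
    · rintro ⟨i, hi, rfl⟩
      have hi' : i < Fin.last k := hi
      obtain ⟨i', rfl⟩ := Fin.exists_castSucc_eq.2 hi'.ne
      exact ⟨i', rfl⟩
    · rintro ⟨i, rfl⟩
      exact ⟨i.castSucc, Fin.castSucc_lt_last i, rfl⟩
  rw [h]

/-- summation over the points, from the last one to the first one -/
theorem sum_fac {d : ℕ} (a w : ℕ) (τ1 : ℝ) (hτ1 : 0 < τ1) (p : S → E d) (c : S → ℝ)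
    (hc : ∀ s, 0 ≤ c s) (Q : ℝ)
    (hQ : ∀ V : Submodule ℝ (E d), Module.finrank ℝ V ≤ a →
      ∑ s, c s * g τ1 (Metric.infDist (p s) (V : Set (E d))) ^ w ≤ Q) (k : ℕ) (hk : k ≤ a) :
    ∑ f : Fin k → S, ∏ j, (c (f j) * fac τ1 (fun i => p (f i)) j ^ w) ≤ Q ^ k := by
  have hQ0 : 0 ≤ Q := by
    refine le_trans (Finset.sum_nonneg fun s _ => ?_) (hQ ⊥ (by simp))
    exact mul_nonneg (hc s) (pow_nonneg (g_nonneg' hτ1 _) _)
  induction k with
  | zero => simp
  | succ k ih =>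
    have ih' := ih (by omega)
    rw [← (Fin.snocEquiv fun _ : Fin (k + 1) => S).sum_comp, Fintype.sum_prod_type]
    have h1 : ∀ (s : S) (f : Fin k → S),
        ∏ j : Fin (k + 1), (c ((Fin.snocEquiv fun _ : Fin (k + 1) => S) (s, f) j) *
          fac τ1 (fun i => p ((Fin.snocEquiv fun _ : Fin (k + 1) => S) (s, f) i)) j ^ w) =
        (∏ j : Fin k, (c (f j) * fac τ1 (fun i => p (f i)) j ^ w)) *
          (c s * g τ1 (Metric.infDist (p s)
            (Submodule.span ℝ (Set.range fun i : Fin k => p (f i)) : Set (E d))) ^ w) := by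
      intro s f
      rw [Fin.prod_univ_castSucc, fac_last]
      have h2 : ∀ j : Fin k, (Fin.snocEquiv fun _ : Fin (k + 1) => S) (s, f) j.castSucc = f j :=
        fun j => by simp [Fin.snocEquiv]
      have h3 : (Fin.snocEquiv fun _ : Fin (k + 1) => S) (s, f) (Fin.last k) = s := by
        simp [Fin.snocEquiv]
      simp only [fac_castSucc, h2, h3]
    simp only [h1]
    rw [Finset.sum_comm]
    have h4 : ∀ f : Fin k → S, ∑ s, (∏ j : Fin k, (c (f j) * fac τ1 (fun i => p (f i)) j ^ w)) *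
          (c s * g τ1 (Metric.infDist (p s)
            (Submodule.span ℝ (Set.range fun i : Fin k => p (f i)) : Set (E d))) ^ w) ≤
        (∏ j : Fin k, (c (f j) * fac τ1 (fun i => p (f i)) j ^ w)) * Q := by
      intro f
      rw [← Finset.mul_sum]
      refine mul_le_mul_of_nonneg_left (hQ _ ?_) ?_
      · have h5 := finrank_range_le_card (R := ℝ) (fun i : Fin k => p (f i))
        rw [Set.finrank, Fintype.card_fin] at h5
        omega
      · exact Finset.prod_nonneg fun j _ => mul_nonneg (hc _) (pow_nonneg (g_nonneg' hτ1 _) _)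
    calc ∑ f : Fin k → S, ∑ s, (∏ j : Fin k, (c (f j) * fac τ1 (fun i => p (f i)) j ^ w)) *
          (c s * g τ1 (Metric.infDist (p s)
            (Submodule.span ℝ (Set.range fun i : Fin k => p (f i)) : Set (E d))) ^ w)
        ≤ ∑ f : Fin k → S, (∏ j : Fin k, (c (f j) * fac τ1 (fun i => p (f i)) j ^ w)) * Q :=
          Finset.sum_le_sum fun f _ => h4 f
      _ = (∑ f : Fin k → S, ∏ j : Fin k, (c (f j) * fac τ1 (fun i => p (f i)) j ^ w)) * Q := by
          rw [Finset.sum_mul]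
      _ ≤ Q ^ k * Q := mul_le_mul_of_nonneg_right ih' hQ0
      _ = Q ^ (k + 1) := (pow_succ _ _).symm

/-- PART D. -/
theorem moment {d : ℕ} (a w : ℕ) (vx : X → E d) (gam : X → ℝ) (hgam : ∀ x, 0 ≤ gam x)
    (hg1 : ∑ x, gam x = 1) (τ τ1 : ℝ) (hτ1 : 0 < τ1)
    (hsmall : ∀ p : ℕ, p ≤ a → ∀ u : Fin p → E d, (∀ j, ‖u j‖ ≤ 2) →
      ∑ x, gam x * (if ∀ j, |⟪vx x, u j⟫_ℝ| ≤ τ then 1 else 0) ≤
        ∏ j, g τ1 (Metric.infDist (u j) (Submodule.span ℝ (u '' {i | i < j}) : Set (E d))))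
    (p : S → E d) (hp : ∀ s, ‖p s‖ ≤ 2) (c : S → ℝ) (hc : ∀ s, 0 ≤ c s) (Q : ℝ)
    (hQ : ∀ V : Submodule ℝ (E d), Module.finrank ℝ V ≤ a →
      ∑ s, c s * g τ1 (Metric.infDist (p s) (V : Set (E d))) ^ w ≤ Q) :
    ∑ x : Fin w → X, prw gam x *
      (∑ s, c s * (if ∀ i, |⟪vx (x i), p s⟫_ℝ| ≤ τ then 1 else 0)) ^ a ≤ Q ^ a := by
  classical
  have _ := hg1
  have h1 : ∀ x : Fin w → X, prw gam x *
      (∑ s, c s * (if ∀ i, |⟪vx (x i), p s⟫_ℝ| ≤ τ then 1 else 0)) ^ a =
      ∑ f : Fin a → S, (∏ j, c (f j)) *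
        ∏ i, (gam (x i) * (if ∀ j, |⟪vx (x i), p (f j)⟫_ℝ| ≤ τ then 1 else 0)) := by
    intro x
    rw [Fintype.sum_pow, Finset.mul_sum]
    refine Finset.sum_congr rfl fun f _ => ?_
    rw [Finset.prod_mul_distrib, Finset.prod_mul_distrib, prw]
    have h2 : ∏ j, (if ∀ i, |⟪vx (x i), p (f j)⟫_ℝ| ≤ τ then (1 : ℝ) else 0) =
        ∏ i, (if ∀ j, |⟪vx (x i), p (f j)⟫_ℝ| ≤ τ then (1 : ℝ) else 0) := by
      have h3 : ∀ (k l : ℕ) (R : Fin k → Fin l → Prop) [∀ i j, Decidable (R i j)],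
          ∏ i, (if ∀ j, R i j then (1 : ℝ) else 0) = if ∀ i j, R i j then 1 else 0 := by
        intro k l R _
        by_cases h : ∀ i j, R i j
        · rw [if_pos h]
          exact Finset.prod_eq_one fun i _ => if_pos (h i)
        · rw [if_neg h]
          push Not at h
          obtain ⟨i, j, hij⟩ := h
          exact Finset.prod_eq_zero (Finset.mem_univ i) (if_neg fun h' => hij (h' j))
      rw [h3, h3]
      exact if_congr forall_comm rfl rfl
    rw [h2]
    ring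
  simp only [h1]
  rw [Finset.sum_comm]
  refine le_trans (Finset.sum_le_sum fun f _ => ?_) (sum_fac a w τ1 hτ1 p c hc Q hQ a le_rfl)
  have h5 := Fintype.sum_pow
    (fun x => gam x * (if ∀ j, |⟪vx x, p (f j)⟫_ℝ| ≤ τ then (1 : ℝ) else 0)) w
  rw [← Finset.mul_sum, Finset.prod_mul_distrib, ← h5]
  refine mul_le_mul_of_nonneg_left ?_ (Finset.prod_nonneg fun j _ => hc _)
  rw [Finset.prod_pow]
  refine pow_le_pow_left₀ ?_ (hsmall a le_rfl (fun j => p (f j)) fun j => hp _) w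
  exact Finset.sum_nonneg fun x _ => mul_nonneg (hgam x) (by split_ifs <;> norm_num)

end moment

end Vale.Agent.Mem
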