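import Vale.Agent.Mem.Defs2

/-!
# P309, part K (core): smoothing the chain and telescoping the potential
-/

namespace Vale.Agent.Mem

open Finset

section chain

variable {S W Z L : Type} [Fintype S] [Fintype W] [Fintype Z]

/-- smoothed transition kernel -/
noncomputable def ksm (θ : ℝ) (F : Z → W → L → Z) (z : Z) (x : W) (l : L) (z' : Z) : ℝ :=
  (1 - θ) * (open Classical in if F z x l = z' then 1 else 0) + θ / Fintype.card Z

/-- occupation probabilities of the smoothed chain -/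
noncomputable def us (θ : ℝ) (gam : W → ℝ) (lab : W → S → L) (F : ℕ → Z → W → L → Z) (z0 : Z) :
    ℕ → Z → S → ℝ
  | 0 => fun z _ => (1 - θ) * (open Classical in if z = z0 then 1 else 0) + θ / Fintype.card Z
  | i + 1 => un gam lab (ksm θ (F i)) (us θ gam lab F z0 i)

omit [Fintype W] in
theorem ksm_sum (θ : ℝ) (F : Z → W → L → Z) (z : Z) (x : W) (l : L) :
    ∑ z', ksm θ F z x l z' = 1 := by
  classical
  have hN : (Fintype.card Z : ℝ) ≠ 0 := by
    have : 0 < Fintype.card Z := Fintype.card_pos_iff.mpr ⟨z⟩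
    exact_mod_cast this.ne'
  unfold ksm
  rw [Finset.sum_add_distrib, ← Finset.mul_sum, Finset.sum_ite_eq, if_pos (Finset.mem_univ _),
    Finset.sum_const, Finset.card_univ, nsmul_eq_mul]
  field_simp
  ring

omit [Fintype W] in
theorem ksm_lower (θ : ℝ) (hθ1 : θ ≤ 1) (F : Z → W → L → Z) (z : Z) (x : W) (l : L)
    (z' : Z) : θ / Fintype.card Z ≤ ksm θ F z x l z' := by
  unfold ksm
  have h1 : 0 ≤ (1 - θ) * (open Classical in if F z x l = z' then (1 : ℝ) else 0) := by
    apply mul_nonneg (by linarith)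
    split_ifs <;> norm_num
  linarith

omit [Fintype S] in
theorem ud_nonneg (gam : W → ℝ) (hgam : ∀ x, 0 ≤ gam x) (lab : W → S → L)
    (F : ℕ → Z → W → L → Z) (z0 : Z) (i : ℕ) (z : Z) (s : S) : 0 ≤ ud gam lab F z0 i z s := by
  induction i generalizing z with
  | zero => simp only [ud]; split_ifs <;> norm_num
  | succ i ih =>
    simp only [ud]
    refine Finset.sum_nonneg fun x _ => mul_nonneg (hgam x) (Finset.sum_nonneg fun z' _ => ?_)
    apply mul_nonneg (ih z')
    split_ifs <;> norm_num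

omit [Fintype S] in
theorem us_pos (θ : ℝ) (hθ : 0 < θ) (hθ1 : θ ≤ 1) (gam : W → ℝ) (hgam : ∀ x, 0 ≤ gam x)
    (hg1 : ∑ x, gam x = 1) (lab : W → S → L) (F : ℕ → Z → W → L → Z) (z0 : Z) (i : ℕ)
    (z : Z) (s : S) : 0 < us θ gam lab F z0 i z s := by
  have hN : (0 : ℝ) < Fintype.card Z := by
    have : 0 < Fintype.card Z := Fintype.card_pos_iff.mpr ⟨z⟩
    exact_mod_cast this
  obtain ⟨x0, hx0⟩ : ∃ x0, 0 < gam x0 := by
    by_contra hcon
    push Not at hcon
    have : ∑ x, gam x ≤ 0 := Finset.sum_nonpos fun x _ => hcon x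
    linarith
  induction i generalizing z with
  | zero =>
    simp only [us]
    have h1 : 0 ≤ (1 - θ) * (open Classical in if z = z0 then (1 : ℝ) else 0) := by
      apply mul_nonneg (by linarith)
      split_ifs <;> norm_num
    have h2 : 0 < θ / Fintype.card Z := by positivity
    linarith
  | succ i ih =>
    simp only [us]
    unfold un qn
    have hk : ∀ (z'' : Z) (x : W), 0 < ksm θ (F i) z'' x (lab x s) z := fun z'' x =>
      lt_of_lt_of_le (by positivity) (ksm_lower θ hθ1 (F i) z'' x (lab x s) z)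
    have h3 : ∀ x, 0 < ∑ z'', us θ gam lab F z0 i z'' s * ksm θ (F i) z'' x (lab x s) z :=
      fun x => Finset.sum_pos (fun z'' _ => mul_pos (ih z'') (hk z'' x)) ⟨z, Finset.mem_univ _⟩
    apply Finset.sum_pos'
    · exact fun x _ => mul_nonneg (hgam x) (h3 x).le
    · exact ⟨x0, Finset.mem_univ _, mul_pos hx0 (h3 x0)⟩

omit [Fintype S] in
theorem us_sum (θ : ℝ) (gam : W → ℝ) (hg1 : ∑ x, gam x = 1) (lab : W → S → L)
    (F : ℕ → Z → W → L → Z) (z0 : Z) (i : ℕ) (s : S) : ∑ z, us θ gam lab F z0 i z s = 1 := by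
  classical
  have hN : (Fintype.card Z : ℝ) ≠ 0 := by
    have : 0 < Fintype.card Z := Fintype.card_pos_iff.mpr ⟨z0⟩
    exact_mod_cast this.ne'
  induction i with
  | zero =>
    simp only [us]
    rw [Finset.sum_add_distrib, ← Finset.mul_sum, Finset.sum_ite_eq', if_pos (Finset.mem_univ _),
      Finset.sum_const, Finset.card_univ, nsmul_eq_mul]
    field_simp
    ring
  | succ i ih =>
    simp only [us]
    unfold un qn
    rw [Finset.sum_comm]
    simp_rw [← Finset.mul_sum]
    have h1 : ∀ x, ∑ z', ∑ z, us θ gam lab F z0 i z s * ksm θ (F i) z x (lab x s) z' = 1 := by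
      intro x
      rw [Finset.sum_comm]
      simp_rw [← Finset.mul_sum, ksm_sum, mul_one]
      exact ih
    simp_rw [h1, mul_one]
    exact hg1

omit [Fintype S] in
theorem us_ge (θ : ℝ) (hθ : 0 < θ) (hθ1 : θ ≤ 1) (gam : W → ℝ) (hgam : ∀ x, 0 ≤ gam x)
    (hg1 : ∑ x, gam x = 1) (lab : W → S → L) (F : ℕ → Z → W → L → Z) (z0 : Z) (i : ℕ)
    (z : Z) (s : S) : (1 - θ) ^ (i + 1) * ud gam lab F z0 i z s ≤ us θ gam lab F z0 i z s := by
  have h0 : 0 ≤ 1 - θ := by linarith
  induction i generalizing z with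
  | zero =>
    simp only [us, ud, zero_add, pow_one]
    have h2 : 0 ≤ θ / Fintype.card Z := by positivity
    linarith
  | succ i ih =>
    simp only [us, ud]
    unfold un qn
    rw [Finset.mul_sum]
    refine Finset.sum_le_sum fun x _ => ?_
    rw [← mul_assoc, mul_comm _ (gam x), mul_assoc]
    refine mul_le_mul_of_nonneg_left ?_ (hgam x)
    rw [Finset.mul_sum]
    refine Finset.sum_le_sum fun z' _ => ?_
    have h3 : (1 - θ) * (open Classical in if F i z' x (lab x s) = z then (1 : ℝ) else 0) ≤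
        ksm θ (F i) z' x (lab x s) z := by
      unfold ksm
      have h2 : 0 ≤ θ / Fintype.card Z := by positivity
      linarith
    have h4 : 0 ≤ (1 - θ) * (open Classical in if F i z' x (lab x s) = z then (1 : ℝ) else 0) := by
      apply mul_nonneg h0
      split_ifs <;> norm_num
    calc (1 - θ) ^ (i + 1 + 1) * (ud gam lab F z0 i z' s *
          (open Classical in if F i z' x (lab x s) = z then (1 : ℝ) else 0)) =
        ((1 - θ) ^ (i + 1) * ud gam lab F z0 i z' s) *
          ((1 - θ) * (open Classical in if F i z' x (lab x s) = z then (1 : ℝ) else 0)) := by ring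
      _ ≤ us θ gam lab F z0 i z' s * ksm θ (F i) z' x (lab x s) z :=
        mul_le_mul (ih z') h3 h4 (us_pos θ hθ hθ1 gam hgam hg1 lab F z0 i z' s).le

end chain

section potzero

variable {S W H Z L L' : Type} [Fintype S] [Fintype W] [Fintype H] [Fintype Z]
  [DecidableEq L] [DecidableEq L']

/-- the potential of a state distribution which does not depend on the signal vanishes -/
theorem pot_const (lam : S → ℝ) (hlam : ∀ s, 0 < lam s) (gam : W → ℝ) (eta : H → ℝ)
    (lab : W → S → L) (labh : H → S → L') (u : Z → S → ℝ) (f : Z → ℝ) (hf : ∀ z, 0 < f z)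
    (hu : ∀ z s, u z s = f z) : pot lam gam eta lab labh u = 0 := by
  unfold pot
  refine Finset.sum_eq_zero fun h _ => ?_
  refine mul_eq_zero_of_right _ (Finset.sum_eq_zero fun x _ => ?_)
  refine mul_eq_zero_of_right _ (Finset.sum_eq_zero fun s _ => ?_)
  refine mul_eq_zero_of_right _ (Finset.sum_eq_zero fun z _ => ?_)
  have h1 : cell lam lab labh (u z) x h s = u z s * cell lam lab labh (fun _ => 1) x h s := by
    unfold cell
    rw [Finset.mul_sum]
    refine Finset.sum_congr rfl fun s' _ => ?_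
    rw [hu, hu]
    split_ifs <;> ring
  have h2 : 0 < cell lam lab labh (fun _ => 1) x h s := by
    unfold cell
    apply Finset.sum_pos'
    · intro s' _
      split_ifs
      · exact (mul_pos (hlam s') one_pos).le
      · exact le_refl _
    · exact ⟨s, Finset.mem_univ _, by simpa using hlam s⟩
  have h3 : 0 < u z s := by rw [hu]; exact hf z
  rw [h1, div_self (mul_pos h3 h2).ne', Real.log_one, mul_zero]

end potzero

theorem prw_nonneg {X : Type} (gam : X → ℝ) (hgam : ∀ x, 0 ≤ gam x) {w : ℕ} (x : Fin w → X) :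
    0 ≤ prw gam x := Finset.prod_nonneg fun i _ => hgam _

theorem prw_sum {X : Type} [Fintype X] (gam : X → ℝ) (hg1 : ∑ x, gam x = 1) (w : ℕ) :
    ∑ x : Fin w → X, prw gam x = 1 := by
  classical
  unfold prw
  rw [← Fintype.piFinset_univ, Finset.sum_prod_piFinset]
  simp [hg1]

section finite
variable {S X Z : Type} [Fintype S] [Fintype X] [Fintype Z]

/-- telescoping and the final estimate -/
theorem finite_core {CL C1 : ℝ} {d n : ℕ} {τ : ℝ} {vs : S → E d} {vx : X → E d} {lam : S → ℝ}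
    {gam gam' : X → ℝ} {Y : X → S → ℤ} (M : Model CL C1 d n τ vs vx lam gam gam' Y)
    (C4 C5 : ℝ) (hC4 : 0 < C4) (hC5 : 0 < C5)
    (hwin : ∀ (κ : Z → (Fin n → X) → (Fin n → ℤ) → Z → ℝ) (L0 : ℝ)
      (_ : ∀ z x l z', Real.exp (-L0) ≤ κ z x l z') (_ : ∀ z x l, ∑ z', κ z x l z' = 1)
      (u : Z → S → ℝ) (_ : ∀ z s, 0 < u z s) (_ : ∀ s, ∑ z, u z s = 1) (K : ℕ)
      (_ : 1 ≤ L0) (_ : L0 ≤ 9 * n * K * Real.log 2) (_ : (K : ℝ) + 3 ≤ 2 ^ n)
      (_ : L0 ≤ 2 ^ n) (_ : C1 * τ ≤ rad K),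
      pot lam (prw gam (w := n)) (prw gam' (w := 5 * n)) (plab Y) (plab Y)
        (un (prw gam (w := n)) (plab Y) κ u)
        - pot lam (prw gam (w := n)) (prw gam' (w := 5 * n)) (plab Y) (plab Y) u ≤
        Real.log (Fintype.card Z) / n + C4 * n)
    (o : Z → E d) (ε : ℝ) (hε : 0 < ε) (hε1 : ε ≤ 1)
    (hlow : ∀ (u : Z → S → ℝ) (_ : ∀ z s, 0 < u z s) (_ : ∀ s, ∑ z, u z s = 1),
      (∑ z, ∑ s, lam s * u z s * (if ‖vs s - o z‖ ≤ ε then 1 else 0)) *
        (9 * n * Real.log (1 / ε) - C5 * n) - 2 ≤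
      pot lam (prw gam (w := n)) (prw gam' (w := 5 * n)) (plab Y) (plab Y) u)
    (F : ℕ → Z → (Fin n → X) → (Fin n → ℤ) → Z) (z0 : Z) (r : ℕ) (hr : 1 ≤ r)
    (hsucc : 1 / 2 ≤ ∑ z, ∑ s, lam s * ud (prw gam) (plab Y) F z0 r z s *
      (if ‖vs s - o z‖ ≤ ε then 1 else 0))
    (h1 : Real.log (Fintype.card Z) + Real.log (4 * r) + 6 ≤ 2 ^ n)
    (h2 : C1 * τ * 2 ^ (⌈Real.log (Fintype.card Z) + Real.log (4 * r)⌉₊ + 2) ≤ 1) :
    n * Real.log (1 / ε) ≤ r * (Real.log (Fintype.card Z) / n + (C4 + C5 + 2) * n) +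
      (C4 + C5 + 2) * n := by
  have hN : (0 : ℝ) < Fintype.card Z := by
    have : 0 < Fintype.card Z := Fintype.card_pos_iff.mpr ⟨z0⟩
    exact_mod_cast this
  have hN1 : (1 : ℝ) ≤ Fintype.card Z := by
    have : 0 < Fintype.card Z := Fintype.card_pos_iff.mpr ⟨z0⟩
    exact_mod_cast this
  have hr' : (1 : ℝ) ≤ r := by exact_mod_cast hr
  have hn : (1 : ℝ) ≤ n := by exact_mod_cast M.hn
  set θ : ℝ := 1 / (4 * r) with hθdef
  have hθ : 0 < θ := by positivity
  have hθ1 : θ ≤ 1 := by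
    rw [hθdef, div_le_one (by positivity)]; linarith
  set L0 : ℝ := Real.log (Fintype.card Z) + Real.log (4 * r) with hL0
  have hlogN : 0 ≤ Real.log (Fintype.card Z) := Real.log_nonneg hN1
  have hlog4 : 1 ≤ Real.log (4 * r) := by
    rw [Real.le_log_iff_exp_le (by positivity)]
    have := Real.exp_one_lt_d9
    linarith
  have hL01 : 1 ≤ L0 := by linarith
  have hexp : Real.exp (-L0) = θ / Fintype.card Z := by
    rw [hL0, Real.exp_neg, Real.exp_add, Real.exp_log hN, Real.exp_log (by positivity), hθdef]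
    field_simp
  set K := ⌈L0⌉₊ with hK
  have hK1 : L0 ≤ K := Nat.le_ceil _
  have hK2 : (K : ℝ) < L0 + 1 := Nat.ceil_lt_add_one (by linarith)
  have hlog2 : (1 : ℝ) / 2 ≤ Real.log 2 := by
    have := Real.log_two_gt_d9
    linarith
  have hA : L0 ≤ 9 * n * K * Real.log 2 := by
    have hK0 : (0 : ℝ) ≤ K := by positivity
    have h3 : (1 : ℝ) ≤ 9 * n * Real.log 2 := by nlinarith
    calc L0 ≤ K := hK1
      _ ≤ (9 * n * Real.log 2) * K := by nlinarith
      _ = _ := by ring
  have hB : (K : ℝ) + 3 ≤ 2 ^ n := by linarith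
  have hC : L0 ≤ 2 ^ n := by linarith
  have hD : C1 * τ ≤ rad K := by
    unfold rad
    rw [le_div_iff₀ (by positivity)]
    have hC1 := M.hC1
    have hτ := M.hτ
    have h3 : 0 < C1 * τ * 2 ^ K := by positivity
    have h4 : C1 * τ * 2 ^ (K + 2) = 4 * (C1 * τ * 2 ^ K) := by ring
    rw [h4] at h2
    linarith
  have hpn : ∀ x : Fin n → X, 0 ≤ prw gam x := prw_nonneg gam M.gam_nonneg
  have hp1 : ∑ x : Fin n → X, prw gam x = 1 := prw_sum gam M.gam_sum n
  set U := us θ (prw gam (w := n)) (plab Y) F z0 with hU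
  have hUpos : ∀ i z s, 0 < U i z s := fun i z s =>
    us_pos θ hθ hθ1 (prw gam) hpn hp1 (plab Y) F z0 i z s
  have hUsum : ∀ i s, ∑ z, U i z s = 1 := fun i s =>
    us_sum θ (prw gam) hp1 (plab Y) F z0 i s
  set Φ := fun i : ℕ => pot lam (prw gam (w := n)) (prw gam' (w := 5 * n)) (plab Y) (plab Y) (U i)
    with hΦ
  have hΦ0 : Φ 0 = 0 := by
    refine pot_const lam M.lam_pos _ _ _ _ (U 0)
      (fun z => (1 - θ) * (open Classical in if z = z0 then 1 else 0) + θ / Fintype.card Z) ?_ ?_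
    · intro z
      have h3 : 0 ≤ (1 - θ) * (open Classical in if z = z0 then (1 : ℝ) else 0) := by
        apply mul_nonneg (by linarith)
        split_ifs <;> norm_num
      have h4 : 0 < θ / Fintype.card Z := by positivity
      linarith
    · intro z s
      rfl
  have hstep : ∀ i, Φ (i + 1) - Φ i ≤ Real.log (Fintype.card Z) / n + C4 * n := by
    intro i
    refine hwin (ksm θ (F i)) L0 ?_ ?_ (U i) (hUpos i) (hUsum i) K hL01 hA hB hC hD
    · intro z x l z'
      rw [hexp]
      exact ksm_lower θ hθ1 (F i) z x l z'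
    · exact fun z x l => ksm_sum θ (F i) z x l
  have htel : ∀ i : ℕ, Φ i ≤ i * (Real.log (Fintype.card Z) / n + C4 * n) := by
    intro i
    induction i with
    | zero => simp [hΦ0]
    | succ i ih =>
      have := hstep i
      push_cast
      linarith
  have hpow : (1 : ℝ) / 2 ≤ (1 - θ) ^ (r + 1) := by
    have h3 := one_add_mul_le_pow (a := -θ) (by linarith) (r + 1)
    have h4 : ((r + 1 : ℕ) : ℝ) * θ ≤ 1 / 2 := by
      rw [hθdef, mul_one_div, div_le_div_iff₀ (by positivity) (by norm_num)]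
      push_cast
      linarith
    have h5 : (1 : ℝ) + -θ = 1 - θ := by ring
    rw [h5] at h3
    have h6 : (1 : ℝ) + ((r + 1 : ℕ) : ℝ) * -θ = 1 - ((r + 1 : ℕ) : ℝ) * θ := by ring
    rw [h6] at h3
    linarith
  have hsuccU : 1 / 4 ≤ ∑ z, ∑ s, lam s * U r z s * (if ‖vs s - o z‖ ≤ ε then 1 else 0) := by
    have h3 : (1 - θ) ^ (r + 1) * ∑ z, ∑ s, lam s * ud (prw gam) (plab Y) F z0 r z s *
        (if ‖vs s - o z‖ ≤ ε then 1 else 0) ≤
        ∑ z, ∑ s, lam s * U r z s * (if ‖vs s - o z‖ ≤ ε then 1 else 0) := by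
      rw [Finset.mul_sum]
      refine Finset.sum_le_sum fun z _ => ?_
      rw [Finset.mul_sum]
      refine Finset.sum_le_sum fun s _ => ?_
      have h4 := us_ge θ hθ hθ1 (prw gam (w := n)) hpn hp1 (plab Y) F z0 r z s
      have h5 := (M.lam_pos s).le
      have h6 := mul_le_mul_of_nonneg_left h4 h5
      have h7 : (0 : ℝ) ≤ (if ‖vs s - o z‖ ≤ ε then 1 else 0) := by split_ifs <;> norm_num
      calc (1 - θ) ^ (r + 1) * (lam s * ud (prw gam) (plab Y) F z0 r z s *
            (if ‖vs s - o z‖ ≤ ε then 1 else 0)) =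
          lam s * ((1 - θ) ^ (r + 1) * ud (prw gam) (plab Y) F z0 r z s) *
            (if ‖vs s - o z‖ ≤ ε then 1 else 0) := by ring
        _ ≤ _ := mul_le_mul_of_nonneg_right h6 h7
    refine le_trans ?_ h3
    have h8 : (0 : ℝ) < (1 - θ) ^ (r + 1) := by linarith
    nlinarith
  have hfin := hlow (U r) (hUpos r) (hUsum r)
  have hup := htel r
  change _ ≤ Φ r at hfin
  set P := ∑ z, ∑ s, lam s * U r z s * (if ‖vs s - o z‖ ≤ ε then 1 else 0) with hP
  have hle : 0 ≤ Real.log (1 / ε) := Real.log_nonneg (by rw [le_div_iff₀ hε]; linarith)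
  have hnl : 0 ≤ n * Real.log (1 / ε) := by positivity
  have hq : 0 ≤ Real.log (Fintype.card Z) / n := by positivity
  have hr0 : (0 : ℝ) ≤ r := by linarith
  have hrn : 0 ≤ (r : ℝ) * ((C5 + 2) * n) := by positivity
  have hrq : 0 ≤ (r : ℝ) * (Real.log (Fintype.card Z) / n) := by positivity
  have hrc : 0 ≤ (r : ℝ) * (C4 * n) := by positivity
  have hcn : 0 ≤ C4 * n := by positivity
  have h5n : 0 ≤ C5 * n := by positivity
  have e1 : (r : ℝ) * (Real.log (Fintype.card Z) / n + (C4 + C5 + 2) * n) =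
      r * (Real.log (Fintype.card Z) / n) + r * (C4 * n) + r * ((C5 + 2) * n) := by ring
  have e2 : (r : ℝ) * (Real.log (Fintype.card Z) / n + C4 * n) =
      r * (Real.log (Fintype.card Z) / n) + r * (C4 * n) := by ring
  rw [e1]
  rw [e2] at hup
  have e3 : 9 * n * Real.log (1 / ε) - C5 * n = 9 * (n * Real.log (1 / ε)) - C5 * n := by ring
  rw [e3] at hfin
  have e4 : (C4 + C5 + 2) * (n : ℝ) = C4 * n + C5 * n + 2 * n := by ring
  rw [e4]
  generalize n * Real.log (1 / ε) = Lg at *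
  generalize (r : ℝ) * (Real.log (Fintype.card Z) / n) = Q1 at *
  generalize (r : ℝ) * (C4 * n) = Q2 at *
  generalize (r : ℝ) * ((C5 + 2) * n) = Q3 at *
  generalize C5 * (n : ℝ) = Q5 at *
  generalize C4 * (n : ℝ) = Q4 at *
  by_cases hc : 0 ≤ 9 * Lg - Q5
  · have h9 : 1 / 4 * (9 * Lg - Q5) ≤ P * (9 * Lg - Q5) :=
      mul_le_mul_of_nonneg_right hsuccU hc
    linarith
  · push Not at hc
    linarith

end finite

end Vale.Agent.Mem
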