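import Vale.Agent.Mem.Defs

/-!
# P309, part R3: finite-valued measurable functions are locally constant on a large compact set
-/

namespace Vale.Agent.Mem

open MeasureTheory Finset

/-- finitely many pairwise disjoint compact sets are at positive distance -/
theorem exists_sep {A Z : Type} [MetricSpace A] [Fintype Z] (K : Z → Set A)
    (hK : ∀ z, IsCompact (K z)) (hd : ∀ z z', z ≠ z' → Disjoint (K z) (K z')) :
    ∃ η : ℝ, 0 < η ∧ ∀ z z', z ≠ z' → ∀ a ∈ K z, ∀ b ∈ K z', η < dist a b := by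
  classical
  have h : ∀ p : Z × Z, ∃ η : ℝ, 0 < η ∧ (p.1 ≠ p.2 → ∀ a ∈ K p.1, ∀ b ∈ K p.2, η < dist a b) := by
    rintro ⟨z, z'⟩
    by_cases hz : z = z'
    · exact ⟨1, one_pos, fun h => absurd hz h⟩
    · obtain ⟨r, hr, h⟩ := (hd z z' hz).exists_thickenings (hK z) (hK z').isClosed
      refine ⟨r / 2, by positivity, fun _ a ha b hb => ?_⟩
      by_contra hlt
      have hlt' : dist a b ≤ r / 2 := not_lt.1 hlt
      have h1 : b ∈ Metric.thickening r (K z) :=
        Metric.mem_thickening_iff.2 ⟨a, ha, by rw [dist_comm]; linarith⟩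
      have h2 : b ∈ Metric.thickening r (K z') :=
        Metric.mem_thickening_iff.2 ⟨b, hb, by rw [dist_self]; exact hr⟩
      exact Set.disjoint_left.1 h h1 h2
  choose η hη hη' using h
  rcases isEmpty_or_nonempty Z with hZ | hZ
  · exact ⟨1, one_pos, fun z => (IsEmpty.false z).elim⟩
  · obtain ⟨p, hp⟩ := Finite.exists_min η
    exact ⟨η p, hη p, fun z z' hz a ha b hb => (hp (z, z')).trans_lt (hη' (z, z') hz a ha b hb)⟩

theorem approx_fun {A Z : Type} [MetricSpace A] [MeasurableSpace A] [BorelSpace A]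
    [SecondCountableTopology A] [CompleteSpace A] [Fintype Z] [Nonempty Z]
    (ν : Measure A) [IsProbabilityMeasure ν] (f : A → Z) (hf : ∀ z, MeasurableSet (f ⁻¹' {z}))
    (δ : ℝ) (hδ : 0 < δ) : ∃ (K : Set A) (η : ℝ) (fh : A → Z), MeasurableSet K ∧ 0 < η ∧
      ν.real Kᶜ ≤ δ ∧ ∀ a ∈ K, ∀ b, dist a b ≤ η → fh b = f a := by
  classical
  have hN : (0 : ℝ) < Fintype.card Z := by exact_mod_cast Fintype.card_pos
  have hε : ENNReal.ofReal (δ / Fintype.card Z) ≠ 0 := by
    simp only [ne_eq, ENNReal.ofReal_eq_zero, not_le]; positivity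
  have h : ∀ z, ∃ K : Set A, K ⊆ f ⁻¹' {z} ∧ IsCompact K ∧
      ν (f ⁻¹' {z} \ K) < ENNReal.ofReal (δ / Fintype.card Z) :=
    fun z => (hf z).exists_isCompact_sdiff_lt (measure_ne_top _ _) hε
  choose K hKf hKc hKm using h
  obtain ⟨η, hη, hsep⟩ := exists_sep K hKc (fun z z' hz => by
    rw [Set.disjoint_left]
    intro a ha ha'
    exact hz ((hKf z ha : f a = z).symm.trans (hKf z' ha')))
  refine ⟨⋃ z, K z, η / 2, fun b => if h : ∃ z, ∃ a ∈ K z, dist a b ≤ η / 2 then h.choose else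
    Classical.arbitrary Z, ?_, by positivity, ?_, ?_⟩
  · exact MeasurableSet.iUnion fun z => (hKc z).isClosed.measurableSet
  · have hsub : (⋃ z, K z)ᶜ ⊆ ⋃ z, (f ⁻¹' {z} \ K z) := by
      intro a ha
      simp only [Set.mem_compl_iff, Set.mem_iUnion, not_exists] at ha
      simp only [Set.mem_iUnion]
      exact ⟨f a, rfl, ha (f a)⟩
    calc ν.real (⋃ z, K z)ᶜ ≤ ν.real (⋃ z, (f ⁻¹' {z} \ K z)) := measureReal_mono hsub
      _ ≤ ∑ z, ν.real (f ⁻¹' {z} \ K z) := measureReal_iUnion_fintype_le _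
      _ ≤ ∑ z : Z, δ / Fintype.card Z := by
          refine Finset.sum_le_sum fun z _ => ?_
          rw [measureReal_def]
          refine (ENNReal.toReal_mono ENNReal.ofReal_ne_top (hKm z).le).trans ?_
          rw [ENNReal.toReal_ofReal (by positivity)]
      _ = δ := by rw [Finset.sum_const, Finset.card_univ, nsmul_eq_mul]; field_simp
  · intro a ha b hab
    simp only [Set.mem_iUnion] at ha
    obtain ⟨z, hz⟩ := ha
    have hex : ∃ z, ∃ a ∈ K z, dist a b ≤ η / 2 := ⟨z, a, hz, hab⟩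
    simp only [dif_pos hex]
    obtain ⟨a', ha', hab'⟩ := hex.choose_spec
    by_contra hne
    have hne' : hex.choose ≠ z := fun h => hne (h.trans (hKf z hz : f a = z).symm)
    have h1 := hsep _ _ hne' a' ha' a hz
    have h2 : dist a' a ≤ dist a' b + dist a b := by
      rw [dist_comm a b]; exact dist_triangle a' b a
    linarith

end Vale.Agent.Mem
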