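import Vale.Agent.Mem.PartR2

/-!
# P309, part R1, first file: moments of the standard Gaussian and quantised rows
-/

namespace Vale.Agent.Mem

open Finset MeasureTheory ProbabilityTheory
open scoped InnerProductSpace ENNReal

section moments

variable {d : ℕ}

theorem integrable_inner_sq (u : E d) :
    Integrable (fun x : E d => ⟪x, u⟫_ℝ ^ 2) (stdGaussian (E d)) := by
  have h1 : MemLp (innerSL ℝ u) 2 (stdGaussian (E d)) :=
    IsGaussian.memLp_dual _ _ 2 (by norm_num)
  have h2 := h1.integrable_sq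
  refine h2.congr (Filter.Eventually.of_forall fun x => ?_)
  simp only [innerSL_apply_apply, real_inner_comm]

theorem integral_inner_sq (u : E d) :
    ∫ x : E d, ⟪x, u⟫_ℝ ^ 2 ∂(stdGaussian (E d)) = ‖u‖ ^ 2 := by
  have h1 : MemLp (innerSL ℝ u) 2 (stdGaussian (E d)) :=
    IsGaussian.memLp_dual _ _ 2 (by norm_num)
  have h2 := variance_eq_sub h1
  rw [variance_dual_stdGaussian, integral_strongDual_stdGaussian, innerSL_apply_norm] at h2
  have h3 : ∫ x : E d, ⟪x, u⟫_ℝ ^ 2 ∂(stdGaussian (E d)) =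
      ∫ x : E d, ((innerSL ℝ u : E d → ℝ) ^ 2) x ∂(stdGaussian (E d)) := by
    refine integral_congr_ae (Filter.Eventually.of_forall fun x => ?_)
    simp only [Pi.pow_apply, innerSL_apply_apply, real_inner_comm]
  rw [h3, h2]
  ring

theorem integrable_abs_inner (u : E d) :
    Integrable (fun x : E d => |⟪x, u⟫_ℝ|) (stdGaussian (E d)) := by
  have h1 : MemLp (innerSL ℝ u) 1 (stdGaussian (E d)) :=
    IsGaussian.memLp_dual _ _ 1 (by norm_num)
  have h2 := (memLp_one_iff_integrable.1 h1).abs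
  refine h2.congr (Filter.Eventually.of_forall fun x => ?_)
  simp only [innerSL_apply_apply, real_inner_comm]

theorem integral_abs_inner_le (u : E d) :
    ∫ x : E d, |⟪x, u⟫_ℝ| ∂(stdGaussian (E d)) ≤ ‖u‖ := by
  by_cases hu : u = 0
  · simp [hu]
  have hn : 0 < ‖u‖ := norm_pos_iff.2 hu
  have h1 : ∀ x : E d, |⟪x, u⟫_ℝ| ≤ ⟪x, u⟫_ℝ ^ 2 * (1 / (2 * ‖u‖)) + ‖u‖ / 2 := by
    intro x
    have h2 := sq_nonneg (|⟪x, u⟫_ℝ| - ‖u‖)
    have h3 : ⟪x, u⟫_ℝ ^ 2 * (1 / (2 * ‖u‖)) + ‖u‖ / 2 - |⟪x, u⟫_ℝ| =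
        (|⟪x, u⟫_ℝ| - ‖u‖) ^ 2 * (1 / (2 * ‖u‖)) := by
      rw [← sq_abs ⟪x, u⟫_ℝ]
      field_simp
      ring
    have h4 : 0 ≤ (|⟪x, u⟫_ℝ| - ‖u‖) ^ 2 * (1 / (2 * ‖u‖)) := mul_nonneg h2 (by positivity)
    linarith
  have h5 : Integrable (fun x : E d => ⟪x, u⟫_ℝ ^ 2 * (1 / (2 * ‖u‖)) + ‖u‖ / 2)
      (stdGaussian (E d)) := ((integrable_inner_sq u).mul_const _).add (integrable_const _)
  refine (integral_mono (integrable_abs_inner u) h5 h1).trans (le_of_eq ?_)
  rw [integral_add ((integrable_inner_sq u).mul_const _) (integrable_const _),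
    integral_mul_const, integral_inner_sq]
  simp only [integral_const, probReal_univ, smul_eq_mul, one_mul]
  field_simp
  ring

theorem norm_sq_eq_sum (x : E d) :
    ‖x‖ ^ 2 = ∑ i : Fin d, ⟪x, EuclideanSpace.single i (1 : ℝ)⟫_ℝ ^ 2 := by
  rw [EuclideanSpace.real_norm_sq_eq]
  refine Finset.sum_congr rfl fun i _ => ?_
  rw [real_inner_comm, EuclideanSpace.inner_single_left]
  simp

theorem integrable_norm_sq : Integrable (fun x : E d => ‖x‖ ^ 2) (stdGaussian (E d)) := by
  simp only [norm_sq_eq_sum]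
  exact integrable_finsetSum _ fun i _ => integrable_inner_sq _

theorem integral_norm_sq : ∫ x : E d, ‖x‖ ^ 2 ∂(stdGaussian (E d)) = d := by
  simp only [norm_sq_eq_sum]
  rw [integral_finsetSum _ fun i _ => integrable_inner_sq _]
  simp only [integral_inner_sq]
  simp

theorem norm_tail (hd : 1 ≤ d) :
    (stdGaussian (E d)).real {x | 2 * (d : ℝ) ≤ ‖x‖ ^ 2} ≤ 1 / 2 := by
  have h1 := mul_meas_ge_le_integral_of_nonneg (μ := stdGaussian (E d))
    (f := fun x : E d => ‖x‖ ^ 2) (Filter.Eventually.of_forall fun x => sq_nonneg _)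
    integrable_norm_sq (2 * (d : ℝ))
  rw [integral_norm_sq] at h1
  have hd' : (0 : ℝ) < d := by exact_mod_cast hd
  have h2 : (2 * (d : ℝ)) * (stdGaussian (E d)).real {x | 2 * (d : ℝ) ≤ ‖x‖ ^ 2} ≤
      (2 * (d : ℝ)) * (1 / 2) := by
    refine h1.trans (le_of_eq (by ring))
  exact le_of_mul_le_mul_left h2 (by positivity)

end moments

section sums

variable {A : Type} [MeasurableSpace A] (γ : Measure A) [IsProbabilityMeasure γ] {N : ℕ}

theorem sum_ind (Q : A → Fin N) (hQ : Measurable Q) (P : Fin N → Prop) [DecidablePred P] :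
    ∑ x, γ.real (Q ⁻¹' {x}) * (if P x then 1 else 0) = γ.real {y | P (Q y)} := by
  have h1 : {y | P (Q y)} = ⋃ i ∈ univ.filter P, Q ⁻¹' {i} := by
    ext y; simp
  rw [h1, measureReal_biUnion_finset (fun i _ j _ hij => ?_) fun i _ => hQ (measurableSet_singleton i),
    Finset.sum_filter]
  · refine Finset.sum_congr rfl fun x _ => ?_
    by_cases h : P x
    · rw [if_pos h, if_pos h, mul_one]
    · rw [if_neg h, if_neg h, mul_zero]
  · rw [Function.onFun, Set.disjoint_left]
    intro a h2 h3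
    exact hij (h2.symm.trans h3)

theorem sum_eq_integral (Q : A → Fin N) (hQ : Measurable Q) (F : Fin N → ℝ) :
    ∑ x, γ.real (Q ⁻¹' {x}) * F x = ∫ y, F (Q y) ∂γ := by
  have h1 : IsProbabilityMeasure (γ.map Q) := Measure.isProbabilityMeasure_map hQ.aemeasurable
  have h2 := integral_map (μ := γ) hQ.aemeasurable (f := F)
    (measurable_of_finite F).aestronglyMeasurable
  rw [← h2, integral_fintype (Integrable.of_finite)]
  refine Finset.sum_congr rfl fun x _ => ?_
  rw [smul_eq_mul, measureReal_def, measureReal_def, Measure.map_apply hQ (measurableSet_singleton x)]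

end sums

end Vale.Agent.Mem
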