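import Vale.Agent.Mem.R4b
import Vale.Agent.Mem.PartR3

/-!
# P309, part R4, third file: choice of the quantisation
-/

namespace Vale.Agent.Mem

open Finset MeasureTheory ProbabilityTheory
open scoped InnerProductSpace

theorem exists_pos_le {ι : Type} [Finite ι] (η : ι → ℝ) (h : ∀ i, 0 < η i) :
    ∃ η0 : ℝ, 0 < η0 ∧ ∀ i, η0 ≤ η i := by
  rcases isEmpty_or_nonempty ι with hι | hι
  · exact ⟨1, one_pos, fun i => (IsEmpty.false i).elim⟩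
  · obtain ⟨i, hi⟩ := Finite.exists_min η
    exact ⟨η i, h i, hi⟩

theorem exists_radius {A : Type} [NormedAddCommGroup A] [MeasurableSpace A] [BorelSpace A]
    [SecondCountableTopology A] [CompleteSpace A] (γ : Measure A) [IsProbabilityMeasure γ]
    (δ : ℝ) (hδ : 0 < δ) : ∃ R : ℝ, 0 ≤ R ∧ γ.real {x | R < ‖x‖} ≤ δ := by
  have hε : ENNReal.ofReal δ ≠ 0 := by
    simp only [ne_eq, ENNReal.ofReal_eq_zero, not_le]; exact hδ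
  obtain ⟨K, _, hK, hKm⟩ := (MeasurableSet.univ (α := A)).exists_isCompact_sdiff_lt (μ := γ)
    (measure_ne_top _ _) hε
  obtain ⟨R, hR⟩ := hK.isBounded.exists_norm_le
  refine ⟨max R 0, le_max_right _ _, ?_⟩
  have h1 : {x : A | max R 0 < ‖x‖} ⊆ Set.univ \ K := by
    intro x hx
    refine ⟨Set.mem_univ x, fun hxK => ?_⟩
    have h2 : max R 0 < ‖x‖ := hx
    exact absurd (hR x hxK) (not_le.2 (lt_of_le_of_lt (le_max_left _ _) h2))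
  refine (measureReal_mono h1).trans ?_
  rw [measureReal_def]
  refine (ENNReal.toReal_mono ENNReal.ofReal_ne_top hKm.le).trans ?_
  rw [ENNReal.toReal_ofReal hδ.le]

variable {d : ℕ} {Z : Type} [Fintype Z] [Nonempty Z]

theorem measurable_data : Measurable fun a : E d × E d => (a.1, ⟪a.1, a.2⟫_ℝ) :=
  measurable_fst.prodMk (measurable_fst.inner measurable_snd)

/-- one step of the learner is insensitive to a fine quantisation -/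
theorem step_bad (μ : Measure (E d)) [IsProbabilityMeasure μ] (Ft : Z → E d → ℝ → Z)
    (hFt : ∀ z z', MeasurableSet {a : E d × ℝ | Ft z a.1 a.2 = z'}) (δ : ℝ) (hδ : 0 < δ) :
    ∃ (η : ℝ) (fh : Z → E d × ℝ → Z), 0 < η ∧ ∀ b : E d × E d → E d × ℝ,
      ((stdGaussian (E d)).prod μ).real {a | ¬ ∀ z, Ft z a.1 ⟪a.1, a.2⟫_ℝ = fh z (b a)} ≤
        δ + ((stdGaussian (E d)).prod μ).real {a | η < dist (a.1, ⟪a.1, a.2⟫_ℝ) (b a)} := by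
  classical
  set m := (stdGaussian (E d)).prod μ with hm
  set ν := m.map fun a : E d × E d => (a.1, ⟪a.1, a.2⟫_ℝ) with hν
  have hνp : IsProbabilityMeasure ν := Measure.isProbabilityMeasure_map measurable_data.aemeasurable
  have hN : (0 : ℝ) < Fintype.card Z := by exact_mod_cast Fintype.card_pos
  have h : ∀ z : Z, ∃ (K : Set (E d × ℝ)) (η : ℝ) (fh : E d × ℝ → Z), MeasurableSet K ∧ 0 < η ∧
      ν.real Kᶜ ≤ δ / Fintype.card Z ∧ ∀ a ∈ K, ∀ b, dist a b ≤ η → fh b = Ft z a.1 a.2 := fun z =>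
    approx_fun ν (fun a => Ft z a.1 a.2) (fun z' => hFt z z') (δ / Fintype.card Z) (by positivity)
  choose K η fh hK hη hKm hfh using h
  obtain ⟨η0, hη0, hη0'⟩ := exists_pos_le η hη
  refine ⟨η0, fh, hη0, fun b => ?_⟩
  have hsub : {a : E d × E d | ¬ ∀ z, Ft z a.1 ⟪a.1, a.2⟫_ℝ = fh z (b a)} ⊆
      (⋃ z, (fun a : E d × E d => (a.1, ⟪a.1, a.2⟫_ℝ)) ⁻¹' (K z)ᶜ) ∪
        {a | η0 < dist (a.1, ⟪a.1, a.2⟫_ℝ) (b a)} := by
    intro a ha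
    by_cases h1 : η0 < dist (a.1, ⟪a.1, a.2⟫_ℝ) (b a)
    · exact Or.inr h1
    · left
      push Not at h1
      have ha' : ¬ ∀ z, Ft z a.1 ⟪a.1, a.2⟫_ℝ = fh z (b a) := ha
      push Not at ha'
      obtain ⟨z, hz⟩ := ha'
      rw [Set.mem_iUnion]
      refine ⟨z, fun hmem => hz ?_⟩
      exact (hfh z _ hmem (b a) (h1.trans (hη0' z))).symm
  refine (measureReal_mono hsub).trans ((measureReal_union_le _ _).trans ?_)
  refine add_le_add ?_ le_rfl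
  refine (measureReal_iUnion_fintype_le _).trans ?_
  have h2 : ∀ z : Z, m.real ((fun a : E d × E d => (a.1, ⟪a.1, a.2⟫_ℝ)) ⁻¹' (K z)ᶜ) ≤
      δ / Fintype.card Z := by
    intro z
    refine le_trans (le_of_eq ?_) (hKm z)
    rw [hν, measureReal_def, measureReal_def, Measure.map_apply measurable_data (hK z).compl]
  refine (Finset.sum_le_sum fun z _ => h2 z).trans (le_of_eq ?_)
  rw [Finset.sum_const, Finset.card_univ, nsmul_eq_mul]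
  field_simp

theorem floor_close {τ : ℝ} (hτ : 0 < τ) (a : ℝ) : |a - τ * (⌊a / τ⌋ : ℝ)| ≤ τ := by
  have h1 := Int.floor_le (a / τ)
  have h2 := Int.lt_floor_add_one (a / τ)
  have h3 : a / τ * τ = a := by field_simp
  rw [abs_le]
  constructor <;> nlinarith

/-- the quantised data are close to the data -/
theorem data_close {y s y' s' : E d} {R δx δs τ η : ℝ} (hτ : 0 < τ) (hR : 0 ≤ R)
    (hy : ‖y‖ ≤ R) (hyy : ‖y' - y‖ ≤ δx) (hss : ‖s' - s‖ ≤ δs) (hs' : ‖s'‖ ≤ 1)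
    (h1 : δx ≤ η / 4) (h2 : R * δs ≤ η / 4) (h3 : τ ≤ η / 4) :
    dist ((y, ⟪y, s⟫_ℝ) : E d × ℝ) (y', τ * (⌊⟪y', s'⟫_ℝ / τ⌋ : ℝ)) ≤ η := by
  have hη : 0 < η := by linarith
  rw [Prod.dist_eq]
  refine max_le ?_ ?_
  · rw [dist_eq_norm, norm_sub_rev]
    linarith
  · rw [Real.dist_eq]
    have e1 : |⟪y, s⟫_ℝ - ⟪y', s'⟫_ℝ| ≤ R * δs + δx := by
      have e2 : ⟪y, s⟫_ℝ - ⟪y', s'⟫_ℝ = -⟪y, s' - s⟫_ℝ - ⟪y' - y, s'⟫_ℝ := by
        rw [inner_sub_right, inner_sub_left]; ring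
      rw [e2]
      have e3 : |⟪y, s' - s⟫_ℝ| ≤ R * δs :=
        (abs_real_inner_le_norm _ _).trans (mul_le_mul hy hss (norm_nonneg _) hR)
      have e4 : |⟪y' - y, s'⟫_ℝ| ≤ δx := by
        refine (abs_real_inner_le_norm _ _).trans ?_
        calc ‖y' - y‖ * ‖s'‖ ≤ ‖y' - y‖ * 1 := mul_le_mul_of_nonneg_left hs' (norm_nonneg _)
          _ ≤ δx := by linarith
      have e5 := abs_sub (-⟪y, s' - s⟫_ℝ) ⟪y' - y, s'⟫_ℝ
      rw [abs_neg] at e5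
      linarith
    have e6 := floor_close hτ ⟪y', s'⟫_ℝ
    have e7 : ⟪y, s⟫_ℝ - τ * (⌊⟪y', s'⟫_ℝ / τ⌋ : ℝ) = (⟪y, s⟫_ℝ - ⟪y', s'⟫_ℝ) +
        (⟪y', s'⟫_ℝ - τ * (⌊⟪y', s'⟫_ℝ / τ⌋ : ℝ)) := by ring
    rw [e7]
    refine (abs_add_le _ _).trans ?_
    linarith

/-- statement of `exists_rows` -/
def ExistsRows : Prop := ∃ C1 : ℝ, 1 ≤ C1 ∧ ∀ (d n : ℕ), 1 ≤ n → 16 * n ≤ d → d ≤ 32 * n →
    ∀ τ : ℝ, 0 < τ → τ ≤ 1 → ∀ δ : ℝ, 0 < δ → ∃ (N : ℕ) (vx : Fin N → E d) (Q : E d → Fin N)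
    (gam' : Fin N → ℝ), Measurable Q ∧
    (stdGaussian (E d)).real {x | δ < ‖vx (Q x) - x‖} ≤ δ ∧
    (∀ x, 0 ≤ gam' x) ∧ ∑ x, gam' x = 1 ∧
    (∀ p : ℕ, p ≤ n → ∀ u : Fin p → E d, (∀ j, ‖u j‖ ≤ 2) →
      ∑ x, (stdGaussian (E d)).real (Q ⁻¹' {x}) *
        (if ∀ j, |⟪vx x, u j⟫_ℝ| ≤ τ then 1 else 0) ≤
      ∏ j, g (C1 * τ) (Metric.infDist (u j) (Submodule.span ℝ (u '' {i | i < j}) : Set (E d)))) ∧
    (∀ u : E d, ∑ x, (stdGaussian (E d)).real (Q ⁻¹' {x}) * |⟪vx x, u⟫_ℝ| ≤ C1 * ‖u‖) ∧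
    (∀ u : E d, ∑ x, gam' x * |⟪vx x, u⟫_ℝ| ≤ C1 * ‖u‖) ∧
    (∀ (σ : ℝ) (u : E d), τ ≤ σ → u ≠ 0 → ‖u‖ ≤ 4 →
      ∑ x, gam' x * (if |⟪vx x, u⟫_ℝ| ≤ σ then 1 else 0) ≤ C1 * σ / ‖u‖) ∧
    (∀ x, gam' x ≠ 0 → ‖vx x‖ ^ 2 ≤ 8 * d)

/-- statement of `exists_signals` -/
def ExistsSignals : Prop := ∃ CL : ℝ, 1 ≤ CL ∧ ∀ (d n : ℕ), 1 ≤ n → 16 * n ≤ d →
    ∀ μ : Measure (E d), IsUniformSphere d μ → ∀ τ : ℝ, 0 < τ → ∀ δ : ℝ, 0 < δ →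
    ∃ (N : ℕ) (vs : Fin N → E d) (Q : E d → Fin N), Measurable Q ∧ (∀ i, ‖vs i‖ ≤ 1) ∧
    μ {s | δ < ‖vs (Q s) - s‖} = 0 ∧ (∀ i, 0 < μ.real (Q ⁻¹' {i})) ∧
    (∀ (c : E d) (ρ : ℝ), τ ≤ ρ →
      ∑ i, (if ‖vs i - c‖ ≤ ρ then μ.real (Q ⁻¹' {i}) else 0) ≤ (CL * ρ) ^ (15 * n))

theorem sum_law {A : Type} [MeasurableSpace A] (γ : Measure A) [IsProbabilityMeasure γ] {N : ℕ}
    (Q : A → Fin N) (hQ : Measurable Q) : ∑ i, γ.real (Q ⁻¹' {i}) = 1 := by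
  have h1 : (⋃ i ∈ (univ : Finset (Fin N)), Q ⁻¹' {i}) = Set.univ := by
    ext a; simp
  rw [← measureReal_biUnion_finset (fun i _ j _ hij => ?_) fun i _ => hQ (measurableSet_singleton i),
    h1, probReal_univ]
  rw [Function.onFun, Set.disjoint_left]
  intro a h2 h3
  exact hij (h2.symm.trans h3)

end Vale.Agent.Mem
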