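import Vale.Agent.Mem.R1a
import Vale.Agent.Mem.R4c

/-!
# P309, part R1, second file: quantised rows, given the small ball estimate
-/

namespace Vale.Agent.Mem

open Finset MeasureTheory ProbabilityTheory
open scoped InnerProductSpace ENNReal

/-- a finite net of a compact set and a measurable choice of a close point -/
theorem exists_net' {d : ℕ} (K : Set (E d)) (hK : IsCompact K) (hne : K.Nonempty) (r : ℝ)
    (hr : 0 < r) :
    ∃ (k : ℕ) (t : Fin k → E d) (Q0 : E d → Fin k), Measurable Q0 ∧ (∀ j, t j ∈ K) ∧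
      ∀ s ∈ K, ‖t (Q0 s) - s‖ < r := by
  classical
  obtain ⟨T, hT, hTf, hcov⟩ := hK.finite_cover_balls hr
  obtain ⟨u, hu⟩ := hne
  have hTne : T.Nonempty := by
    have h1 := hcov hu
    simp only [Set.mem_iUnion] at h1
    obtain ⟨x, hx, _⟩ := h1
    exact ⟨x, hx⟩
  obtain ⟨x0, hx0⟩ := hTne
  set F : Finset (E d) := hTf.toFinset with hF
  set k := F.card with hk
  have hkpos : 0 < k := Finset.card_pos.2 ⟨x0, by rw [hF]; simpa using hx0⟩
  set e : ℕ → E d := fun i => if h : i < k then (F.equivFin.symm ⟨i, h⟩ : F) else x0 with he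
  have heT : ∀ i, e i ∈ T := by
    intro i
    rw [he]
    by_cases h : i < k
    · simp only [dif_pos h]
      exact (Set.Finite.mem_toFinset hTf).1 (F.equivFin.symm ⟨i, h⟩).2
    · simp only [dif_neg h]; exact hx0
  refine ⟨k, fun j => e j, fun s => ⟨SimpleFunc.nearestPtInd e (k - 1) s, ?_⟩, ?_, ?_, ?_⟩
  · have := SimpleFunc.nearestPtInd_le e (k - 1) s
    omega
  · refine measurable_to_countable' fun j => ?_
    have h1 : (fun s => (⟨SimpleFunc.nearestPtInd e (k - 1) s, by
        have := SimpleFunc.nearestPtInd_le e (k - 1) s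
        omega⟩ : Fin k)) ⁻¹' {j} = (SimpleFunc.nearestPtInd e (k - 1)) ⁻¹' {(j : ℕ)} := by
      ext s
      simp [Fin.ext_iff]
    rw [h1]
    exact SimpleFunc.measurableSet_preimage _ _
  · intro j
    exact hT (heT j)
  · intro s hs
    have h1 := hcov hs
    simp only [Set.mem_iUnion] at h1
    obtain ⟨x, hx, hsx⟩ := h1
    have hxF : x ∈ F := by rw [hF, Set.Finite.mem_toFinset]; exact hx
    set i := F.equivFin ⟨x, hxF⟩ with hi
    have hei : e i = x := by
      have h5 : e i = (F.equivFin.symm ⟨i, i.isLt⟩ : F) := dif_pos i.isLt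
      rw [h5]
      show ((F.equivFin.symm (F.equivFin ⟨x, hxF⟩) : F) : E d) = x
      rw [Equiv.symm_apply_apply]
    have h2 := SimpleFunc.edist_nearestPt_le e s (k := i) (N := k - 1) (by
      have := i.isLt
      omega)
    rw [hei] at h2
    have h3 : edist x s < ENNReal.ofReal r := by
      rw [edist_comm, edist_dist]
      exact (ENNReal.ofReal_lt_ofReal_iff hr).2 hsx
    have h4 := h2.trans_lt h3
    rw [edist_dist, ENNReal.ofReal_lt_ofReal_iff hr, dist_eq_norm] at h4
    exact h4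

/-- measurable finite quantisation of the space: fine on a ball, `0` outside -/
theorem exists_quant (d : ℕ) (R r : ℝ) (hR : 0 ≤ R) (hr : 0 < r) :
    ∃ (N : ℕ) (vx : Fin N → E d) (Q : E d → Fin N), Measurable Q ∧
      (∀ x, ‖x‖ ≤ R → ‖vx (Q x) - x‖ < r) ∧ (∀ x, R < ‖x‖ → vx (Q x) = 0) := by
  classical
  obtain ⟨k, t, Q0, hQ0, ht, hclose⟩ := exists_net' (Metric.closedBall (0 : E d) R)
    (isCompact_closedBall _ _) ⟨0, by simpa using hR⟩ r hr
  refine ⟨k + 1, Fin.snoc t 0, fun x => if ‖x‖ ≤ R then (Q0 x).castSucc else Fin.last k, ?_, ?_, ?_⟩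
  · refine Measurable.ite (measurableSet_le measurable_norm measurable_const) ?_ measurable_const
    exact (measurable_of_finite _).comp hQ0
  · intro x hx
    have h1 : (fun x => if ‖x‖ ≤ R then (Q0 x).castSucc else Fin.last k) x = (Q0 x).castSucc :=
      if_pos hx
    rw [h1, Fin.snoc_castSucc]
    exact hclose x (by simpa using hx)
  · intro x hx
    have h1 : (fun x => if ‖x‖ ≤ R then (Q0 x).castSucc else Fin.last k) x = Fin.last k :=
      if_neg (not_le.2 hx)
    rw [h1, Fin.snoc_last]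

theorem g_mono {τ τ' t : ℝ} (hτ : 0 < τ) (h : τ ≤ τ') : g τ t ≤ g τ' t := by
  unfold g
  by_cases h1 : t ≤ τ
  · rw [if_pos h1, if_pos (h1.trans h)]
  · push Not at h1
    rw [if_neg (not_le.2 h1)]
    by_cases h2 : t ≤ τ'
    · rw [if_pos h2, div_le_one (hτ.trans h1)]; exact h1.le
    · rw [if_neg h2]
      exact div_le_div_of_nonneg_right h (hτ.trans h1).le

theorem g_nn {τ : ℝ} (hτ : 0 < τ) (t : ℝ) : 0 ≤ g τ t := by
  unfold g
  split_ifs with h
  · exact zero_le_one
  · push Not at h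
    exact div_nonneg hτ.le (by linarith)

theorem prod_ineq {n p : ℕ} (hpn : p ≤ n) {τ : ℝ} (hτ : 0 < τ) (hτ1 : τ ≤ 1) (t : Fin p → ℝ)
    (ht : ∀ j, t j ≤ 2) {x : ℝ} (hx1 : x ≤ 1) (hx : x ≤ ∏ j, g (2 * τ) (t j) + τ ^ n / 2) :
    x ≤ ∏ j, g (4 * τ) (t j) := by
  by_cases h : ∀ j, t j ≤ 4 * τ
  · have h1 : ∏ j, g (4 * τ) (t j) = 1 := Finset.prod_eq_one fun j _ => if_pos (h j)
    rw [h1]; exact hx1
  · push Not at h
    obtain ⟨j0, hj0⟩ := h
    have ht0 : 0 < t j0 := by linarith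
    have h1 : ∏ j, g (2 * τ) (t j) ≤ (1 / 2) * ∏ j, g (4 * τ) (t j) := by
      rw [← Finset.mul_prod_erase univ _ (Finset.mem_univ j0),
        ← Finset.mul_prod_erase univ (fun j => g (4 * τ) (t j)) (Finset.mem_univ j0), ← mul_assoc]
      have h2 : g (2 * τ) (t j0) = 1 / 2 * g (4 * τ) (t j0) := by
        unfold g
        rw [if_neg (by linarith), if_neg (not_le.2 hj0)]
        ring
      rw [h2]
      refine mul_le_mul_of_nonneg_left ?_ (mul_nonneg (by norm_num) (g_nn (by positivity) _))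
      exact Finset.prod_le_prod (fun j _ => g_nn (by positivity) _)
        fun j _ => g_mono (by positivity) (by linarith)
    have h3 : τ ^ n ≤ ∏ j, g (4 * τ) (t j) := by
      have h4 : ∀ j, τ ≤ g (4 * τ) (t j) := by
        intro j
        unfold g
        by_cases h5 : t j ≤ 4 * τ
        · rw [if_pos h5]; exact hτ1
        · rw [if_neg h5]
          push Not at h5
          have h6 : 0 < t j := by linarith
          rw [le_div_iff₀ h6]
          have := ht j
          nlinarith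
      calc τ ^ n ≤ τ ^ p := pow_le_pow_of_le_one hτ.le hτ1 hpn
        _ = ∏ _j : Fin p, τ := by rw [Finset.prod_const, Finset.card_univ, Fintype.card_fin]
        _ ≤ ∏ j, g (4 * τ) (t j) := Finset.prod_le_prod (fun j _ => hτ.le) fun j _ => h4 j
    linarith

/-- statement of `gauss_small` -/
def GaussSmall : Prop := ∀ (d p : ℕ) (u : Fin p → E d) (τ : ℝ), 0 < τ →
    (stdGaussian (E d)).real {x | ∀ j, |⟪x, u j⟫_ℝ| ≤ τ} ≤
      ∏ j, g τ (Metric.infDist (u j) (Submodule.span ℝ (u '' {i | i < j}) : Set (E d)))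

theorem gauss_one (hG : GaussSmall) {d : ℕ} (u : E d) (hu : u ≠ 0) {σ : ℝ} (hσ : 0 < σ) :
    (stdGaussian (E d)).real {x | |⟪x, u⟫_ℝ| ≤ σ} ≤ σ / ‖u‖ := by
  have h1 := hG d 1 (fun _ => u) σ hσ
  have h2 : {x : E d | ∀ _j : Fin 1, |⟪x, u⟫_ℝ| ≤ σ} = {x | |⟪x, u⟫_ℝ| ≤ σ} := by
    ext x
    exact ⟨fun h => h 0, fun h _ => h⟩
  rw [h2, Fin.prod_univ_one] at h1
  have h3 : {i : Fin 1 | i < 0} = ∅ := by
    ext i
    simp
  have h4 : Metric.infDist u
      ((Submodule.span ℝ ((fun _ : Fin 1 => u) '' {i | i < 0}) : Submodule ℝ (E d)) : Set (E d)) =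
      ‖u‖ := by
    rw [h3, Set.image_empty, Submodule.span_empty, Submodule.bot_coe, Metric.infDist_singleton,
      dist_zero_right]
  rw [h4] at h1
  refine h1.trans ?_
  unfold g
  have hn : 0 < ‖u‖ := norm_pos_iff.2 hu
  split_ifs with h5
  · rw [le_div_iff₀ hn, one_mul]; exact h5
  · exact le_refl _

end Vale.Agent.Mem
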