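import Vale.Agent.Mem.R1b

/-!
# P309, part R1, third file: assembly of the quantised rows
-/

namespace Vale.Agent.Mem

open Finset MeasureTheory ProbabilityTheory
open scoped InnerProductSpace ENNReal

section quant

variable {d N : ℕ} {vx : Fin N → E d} {Q : E d → Fin N} {R r : ℝ}

theorem quant_inner (hr : 0 < r) (h1 : ∀ x, ‖x‖ ≤ R → ‖vx (Q x) - x‖ < r)
    (h2 : ∀ x, R < ‖x‖ → vx (Q x) = 0) (x u : E d) :
    |⟪vx (Q x), u⟫_ℝ| ≤ |⟪x, u⟫_ℝ| + r * ‖u‖ := by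
  by_cases hx : ‖x‖ ≤ R
  · have h3 : ⟪vx (Q x), u⟫_ℝ = ⟪x, u⟫_ℝ + ⟪vx (Q x) - x, u⟫_ℝ := by
      rw [inner_sub_left]; ring
    rw [h3]
    refine (abs_add_le _ _).trans (add_le_add le_rfl ?_)
    exact (abs_real_inner_le_norm _ _).trans
      (mul_le_mul_of_nonneg_right (h1 x hx).le (norm_nonneg _))
  · push Not at hx
    rw [h2 x hx, inner_zero_left, abs_zero]
    positivity

theorem quant_inner' (h1 : ∀ x, ‖x‖ ≤ R → ‖vx (Q x) - x‖ < r) {x : E d} (hx : ‖x‖ ≤ R)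
    (u : E d) : |⟪x, u⟫_ℝ| ≤ |⟪vx (Q x), u⟫_ℝ| + r * ‖u‖ := by
  have h3 : ⟪x, u⟫_ℝ = ⟪vx (Q x), u⟫_ℝ - ⟪vx (Q x) - x, u⟫_ℝ := by
    rw [inner_sub_left]; ring
  rw [h3]
  refine (abs_sub _ _).trans (add_le_add le_rfl ?_)
  exact (abs_real_inner_le_norm _ _).trans (mul_le_mul_of_nonneg_right (h1 x hx).le (norm_nonneg _))

/-- bound of the first absolute moments -/
theorem quant_abs (hQ : Measurable Q) (hr : 0 < r) (hr1 : r ≤ 1)
    (h1 : ∀ x, ‖x‖ ≤ R → ‖vx (Q x) - x‖ < r)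
    (h2 : ∀ x, R < ‖x‖ → vx (Q x) = 0) (u : E d) :
    ∑ x, (stdGaussian (E d)).real (Q ⁻¹' {x}) * |⟪vx x, u⟫_ℝ| ≤ 2 * ‖u‖ := by
  rw [sum_eq_integral _ Q hQ fun x => |⟪vx x, u⟫_ℝ|]
  have h3 : Integrable (fun x : E d => |⟪x, u⟫_ℝ| + r * ‖u‖) (stdGaussian (E d)) :=
    (integrable_abs_inner u).add (integrable_const _)
  have h4 : Measurable fun y : E d => |⟪vx (Q y), u⟫_ℝ| :=
    (measurable_of_finite (fun i : Fin N => |⟪vx i, u⟫_ℝ|)).comp hQ
  have h5 : Integrable (fun y : E d => |⟪vx (Q y), u⟫_ℝ|) (stdGaussian (E d)) := by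
    refine h3.mono' h4.aestronglyMeasurable (Filter.Eventually.of_forall fun x => ?_)
    rw [Real.norm_eq_abs, abs_abs]
    exact quant_inner hr h1 h2 x u
  refine (integral_mono h5 h3 fun x => quant_inner hr h1 h2 x u).trans ?_
  rw [integral_add (integrable_abs_inner u) (integrable_const _)]
  simp only [integral_const, probReal_univ, smul_eq_mul, one_mul]
  have h6 := integral_abs_inner_le u
  have h7 : r * ‖u‖ ≤ 1 * ‖u‖ := mul_le_mul_of_nonneg_right hr1 (norm_nonneg _)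
  linarith

/-- a quantised row is not too long with probability at least `1/2` -/
theorem quant_norm (hd : 1 ≤ d) (hr1 : r ≤ 1)
    (h1 : ∀ x, ‖x‖ ≤ R → ‖vx (Q x) - x‖ < r) (h2 : ∀ x, R < ‖x‖ → vx (Q x) = 0) :
    (stdGaussian (E d)).real {y | ¬ ‖vx (Q y)‖ ^ 2 ≤ 8 * d} ≤ 1 / 2 := by
  refine (measureReal_mono ?_).trans (norm_tail hd)
  intro y hy
  have hy' : ¬ ‖vx (Q y)‖ ^ 2 ≤ 8 * d := hy
  push Not at hy'
  have hd' : (1 : ℝ) ≤ d := by exact_mod_cast hd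
  show 2 * (d : ℝ) ≤ ‖y‖ ^ 2
  by_cases hR : ‖y‖ ≤ R
  · have h3 : ‖vx (Q y)‖ ≤ ‖y‖ + r := by
      have h4 : vx (Q y) = y + (vx (Q y) - y) := by abel
      rw [h4]
      exact (norm_add_le _ _).trans (add_le_add le_rfl (h1 y hR).le)
    have h5 : ‖vx (Q y)‖ ^ 2 ≤ 2 * ‖y‖ ^ 2 + 2 := by
      have h6 : ‖vx (Q y)‖ ≤ ‖y‖ + 1 := h3.trans (by linarith)
      have h7 : ‖vx (Q y)‖ ^ 2 ≤ (‖y‖ + 1) ^ 2 := pow_le_pow_left₀ (norm_nonneg _) h6 2
      nlinarith [sq_nonneg (‖y‖ - 1)]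
    linarith
  · push Not at hR
    rw [h2 y hR, norm_zero] at hy'
    have : (0 : ℝ) ≤ 8 * d := by positivity
    norm_num at hy'
    linarith

end quant

theorem exists_rows_of (hG : GaussSmall) : ExistsRows := by
  classical
  refine ⟨16, by norm_num, ?_⟩
  intro d n hn hd _ τ hτ hτ1 δ hδ
  have hd1 : 1 ≤ d := by omega
  set γ := stdGaussian (E d) with hγ
  set δ2 : ℝ := min δ (τ ^ n / 2) with hδ2
  have hδ2p : 0 < δ2 := lt_min hδ (by positivity)
  obtain ⟨R, hR0, hR⟩ := exists_radius γ δ2 hδ2p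
  set r : ℝ := min δ (τ / 4) with hr
  have hrp : 0 < r := lt_min hδ (by positivity)
  have hrτ : r ≤ τ / 4 := min_le_right _ _
  have hr1 : r ≤ 1 := hrτ.trans (by linarith)
  obtain ⟨N, vx, Q, hQ, h1, h2⟩ := exists_quant d R r hR0 hrp
  set gam : Fin N → ℝ := fun x => γ.real (Q ⁻¹' {x}) with hgam
  have hgam0 : ∀ x, 0 ≤ gam x := fun x => measureReal_nonneg
  set G : Fin N → Prop := fun x => ‖vx x‖ ^ 2 ≤ 8 * d with hGdef
  set Zc : ℝ := ∑ x, gam x * (if G x then 1 else 0) with hZ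
  have hZ2 : 1 / 2 ≤ Zc := by
    have e1 := sum_ind γ Q hQ G
    have e2 := sum_ind γ Q hQ fun x => ¬ G x
    have e3 : γ.real {y | ¬ G (Q y)} ≤ 1 / 2 := quant_norm hd1 hr1 h1 h2
    have e4 : ∑ x, gam x * (if G x then 1 else 0) + ∑ x, gam x * (if ¬ G x then 1 else 0) = 1 := by
      have e6 : ∑ x, gam x = 1 := sum_law γ Q hQ
      rw [← Finset.sum_add_distrib]
      refine (Finset.sum_congr rfl fun x _ => ?_).trans e6
      by_cases h : G x
      · rw [if_pos h, if_neg (not_not.2 h), mul_one, mul_zero, add_zero]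
      · rw [if_neg h, if_pos h, mul_one, mul_zero, zero_add]
    rw [hZ]
    have e5 : ∑ x, gam x * (if ¬ G x then (1 : ℝ) else 0) ≤ 1 / 2 := by
      refine le_trans (le_of_eq ?_) e3
      exact e2
    linarith
  have hZp : 0 < Zc := by linarith
  set gam' : Fin N → ℝ := fun x => gam x * (if G x then 1 else 0) / Zc with hgam'
  have hgam'0 : ∀ x, 0 ≤ gam' x := fun x =>
    div_nonneg (mul_nonneg (hgam0 x) (by split_ifs <;> norm_num)) hZp.le
  have hgam'2 : ∀ x, gam' x ≤ 2 * gam x := by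
    intro x
    rw [hgam']
    simp only
    rw [div_le_iff₀ hZp]
    have h3 : gam x * (if G x then (1 : ℝ) else 0) ≤ gam x := by
      split_ifs
      · rw [mul_one]
      · rw [mul_zero]; exact hgam0 x
    have h4 : gam x ≤ 2 * gam x * Zc := by nlinarith [hgam0 x]
    exact h3.trans h4
  have hbadR : γ.real {x | R < ‖x‖} ≤ δ2 := hR
  refine ⟨N, vx, Q, gam', hQ, ?_, hgam'0, ?_, ?_, ?_, ?_, ?_, ?_⟩
  · refine (measureReal_mono ?_).trans (hbadR.trans (min_le_left _ _))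
    intro x hx
    have hx' : δ < ‖vx (Q x) - x‖ := hx
    by_contra hc
    have hc' : ‖x‖ ≤ R := not_lt.1 hc
    have h3 := (h1 x hc').trans_le (min_le_left _ _)
    linarith
  · rw [hgam']
    simp only
    rw [← Finset.sum_div, div_self hZp.ne']
  · intro p hp u hu
    have h3 := sum_ind γ Q hQ fun x => ∀ j, |⟪vx x, u j⟫_ℝ| ≤ τ
    have h4 : γ.real {y | ∀ j, |⟪vx (Q y), u j⟫_ℝ| ≤ τ} ≤
        ∏ j, g (2 * τ) (Metric.infDist (u j)
          (Submodule.span ℝ (u '' {i | i < j}) : Set (E d))) + τ ^ n / 2 := by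
      have h5 : {y : E d | ∀ j, |⟪vx (Q y), u j⟫_ℝ| ≤ τ} ⊆
          {y | ∀ j, |⟪y, u j⟫_ℝ| ≤ 2 * τ} ∪ {y | R < ‖y‖} := by
        intro y hy
        by_cases hyR : ‖y‖ ≤ R
        · left
          intro j
          have h6 := quant_inner' h1 hyR (u j)
          have h7 : |⟪vx (Q y), u j⟫_ℝ| ≤ τ := hy j
          have h8 : r * ‖u j‖ ≤ τ / 4 * 2 := mul_le_mul hrτ (hu j) (norm_nonneg _) (by positivity)
          linarith
        · right
          exact not_le.1 hyR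
      refine (measureReal_mono h5).trans ((measureReal_union_le _ _).trans ?_)
      exact add_le_add (hG d p u (2 * τ) (by positivity)) (hbadR.trans (min_le_right _ _))
    have h9 := prod_ineq hp hτ hτ1 (fun j => Metric.infDist (u j)
      (Submodule.span ℝ (u '' {i | i < j}) : Set (E d))) (fun j => by
        refine (Metric.infDist_le_dist_of_mem (Submodule.zero_mem _)).trans ?_
        rw [dist_zero_right]; exact hu j) measureReal_le_one h4
    rw [h3]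
    refine h9.trans ?_
    exact Finset.prod_le_prod (fun j _ => g_nn (by positivity) _)
      fun j _ => g_mono (by positivity) (by linarith)
  · intro u
    refine (quant_abs hQ hrp hr1 h1 h2 u).trans ?_
    nlinarith [norm_nonneg u]
  · intro u
    have h3 : ∑ x, gam' x * |⟪vx x, u⟫_ℝ| ≤ ∑ x, 2 * gam x * |⟪vx x, u⟫_ℝ| :=
      Finset.sum_le_sum fun x _ => mul_le_mul_of_nonneg_right (hgam'2 x) (abs_nonneg _)
    have h4 : ∑ x, 2 * gam x * |⟪vx x, u⟫_ℝ| = 2 * ∑ x, gam x * |⟪vx x, u⟫_ℝ| := by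
      rw [Finset.mul_sum]
      exact Finset.sum_congr rfl fun x _ => by ring
    have h5 := quant_abs hQ hrp hr1 h1 h2 u
    rw [h4] at h3
    nlinarith [norm_nonneg u]
  · intro σ u hσ hu hu4
    have hσp : 0 < σ := hτ.trans_le hσ
    have hn0 : 0 < ‖u‖ := norm_pos_iff.2 hu
    have h3 : ∑ x, gam' x * (if |⟪vx x, u⟫_ℝ| ≤ σ then 1 else 0) ≤
        ∑ x, 2 * gam x * (if |⟪vx x, u⟫_ℝ| ≤ σ then 1 else 0) :=
      Finset.sum_le_sum fun x _ => mul_le_mul_of_nonneg_right (hgam'2 x)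
        (by split_ifs <;> norm_num)
    have h4 : ∑ x, 2 * gam x * (if |⟪vx x, u⟫_ℝ| ≤ σ then (1 : ℝ) else 0) =
        2 * ∑ x, gam x * (if |⟪vx x, u⟫_ℝ| ≤ σ then 1 else 0) := by
      rw [Finset.mul_sum]
      exact Finset.sum_congr rfl fun x _ => by ring
    have h5 := sum_ind γ Q hQ fun x => |⟪vx x, u⟫_ℝ| ≤ σ
    have h6 : γ.real {y | |⟪vx (Q y), u⟫_ℝ| ≤ σ} ≤ 2 * σ / ‖u‖ + τ ^ n / 2 := by
      have h7 : {y : E d | |⟪vx (Q y), u⟫_ℝ| ≤ σ} ⊆
          {y | |⟪y, u⟫_ℝ| ≤ 2 * σ} ∪ {y | R < ‖y‖} := by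
        intro y hy
        by_cases hyR : ‖y‖ ≤ R
        · left
          have h8 := quant_inner' h1 hyR u
          have h9 : |⟪vx (Q y), u⟫_ℝ| ≤ σ := hy
          have h10 : r * ‖u‖ ≤ τ / 4 * 4 := mul_le_mul hrτ hu4 (norm_nonneg _) (by positivity)
          show |⟪y, u⟫_ℝ| ≤ 2 * σ
          linarith
        · right
          exact not_le.1 hyR
      refine (measureReal_mono h7).trans ((measureReal_union_le _ _).trans ?_)
      exact add_le_add (gauss_one hG u hu (by positivity)) (hbadR.trans (min_le_right _ _))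
    have h11 : τ ^ n / 2 ≤ 2 * σ / ‖u‖ := by
      have h12 : τ ^ n ≤ τ := by
        calc τ ^ n ≤ τ ^ 1 := pow_le_pow_of_le_one hτ.le hτ1 hn
          _ = τ := pow_one _
      rw [le_div_iff₀ hn0]
      have h13 : τ ^ n / 2 * ‖u‖ ≤ σ / 2 * 4 := by
        refine mul_le_mul ?_ hu4 (norm_nonneg _) (by positivity)
        linarith
      linarith
    have h14 : ∑ x, gam x * (if |⟪vx x, u⟫_ℝ| ≤ σ then (1 : ℝ) else 0) ≤ 4 * σ / ‖u‖ := by
      refine le_trans (le_of_eq h5) (h6.trans ?_)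
      have h15 : 4 * σ / ‖u‖ = 2 * σ / ‖u‖ + 2 * σ / ‖u‖ := by ring
      linarith
    rw [h4] at h3
    refine h3.trans ?_
    have h16 : 16 * σ / ‖u‖ = 4 * (4 * σ / ‖u‖) := by ring
    have h17 : 0 ≤ 4 * σ / ‖u‖ := by positivity
    rw [h16]
    linarith
  · intro x hx
    by_contra hc
    apply hx
    rw [hgam']
    simp only
    rw [if_neg hc, mul_zero, zero_div]

end Vale.Agent.Mem
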