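import Vale.Agent.Mem.Defs2

/-!
# P309, part R4, first file: the discrete chain
-/

namespace Vale.Agent.Mem

open Finset

section discrete

variable {S X Z : Type}

/-- run of a quantised learner -/
def dr (Fq : ℕ → Z → X → ℤ → Z) (Y : X → S → ℤ) (z0 : Z) : (T : ℕ) → (Fin T → X) → S → Z
  | 0, _, _ => z0
  | T + 1, x, s => Fq T (dr Fq Y z0 T (Fin.init x) s) (x (Fin.last T)) (Y (x (Fin.last T)) s)

/-- run of a quantised learner during one window which starts at the time `t0` in the state `z` -/
def wr (Fq : ℕ → Z → X → ℤ → Z) (t0 : ℕ) (z : Z) : (k : ℕ) → (Fin k → X) → (Fin k → ℤ) → Z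
  | 0, _, _ => z
  | k + 1, x, l =>
    Fq (t0 + k) (wr Fq t0 z k (Fin.init x) (Fin.init l)) (x (Fin.last k)) (l (Fin.last k))

theorem init_append {m k : ℕ} (u : Fin m → X) (x : Fin (k + 1) → X) :
    Fin.init (n := m + k) (α := fun _ => X) (Fin.append (m := m) (n := k + 1) u x) =
      Fin.append u (Fin.init x : Fin k → X) := by
  funext i
  refine Fin.addCases (fun i => ?_) (fun i => ?_) i
  · rw [Fin.append_left]
    change Fin.append u x (Fin.castAdd (k + 1) i) = u i
    rw [Fin.append_left]
  · rw [Fin.append_right]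
    change Fin.append u x (Fin.natAdd m i.castSucc) = x i.castSucc
    rw [Fin.append_right]

theorem append_last {m k : ℕ} (u : Fin m → X) (x : Fin (k + 1) → X) :
    Fin.append (m := m) (n := k + 1) u x (Fin.last (m + k)) = x (Fin.last k) := by
  change Fin.append u x (Fin.natAdd m (Fin.last k)) = x (Fin.last k)
  rw [Fin.append_right]

theorem dr_append (Fq : ℕ → Z → X → ℤ → Z) (Y : X → S → ℤ) (z0 : Z) {m k : ℕ} (u : Fin m → X)
    (x : Fin k → X) (s : S) :
    dr Fq Y z0 (m + k) (Fin.append u x) s = wr Fq m (dr Fq Y z0 m u s) k x (plab Y x s) := by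
  induction k with
  | zero =>
    have : Fin.append u x = u := by
      funext i
      exact Fin.append_left u x i
    rw [this]
    rfl
  | succ k ih =>
    change Fq (m + k) (dr Fq Y z0 (m + k) (Fin.init (n := m + k) (α := fun _ => X)
        (Fin.append (m := m) (n := k + 1) u x)) s)
      (Fin.append (m := m) (n := k + 1) u x (Fin.last (m + k)))
      (Y (Fin.append (m := m) (n := k + 1) u x (Fin.last (m + k))) s) = _
    rw [init_append, append_last, ih]
    rfl

variable [Fintype X] [Fintype Z]

/-- occupation probabilities of the quantised learner -/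
noncomputable def UU (gam : X → ℝ) (Fq : ℕ → Z → X → ℤ → Z) (Y : X → S → ℤ) (z0 : Z) (T : ℕ)
    (z : Z) (s : S) : ℝ :=
  ∑ x : Fin T → X, prw gam x * (open Classical in if dr Fq Y z0 T x s = z then 1 else 0)

omit [Fintype X] [Fintype Z] in
theorem prw_append (gam : X → ℝ) {m k : ℕ} (u : Fin m → X) (x : Fin k → X) :
    prw gam (Fin.append u x) = prw gam u * prw gam x := by
  unfold prw
  rw [Fin.prod_univ_add]
  simp only [Fin.append_left, Fin.append_right]

theorem UU_add (gam : X → ℝ) (Fq : ℕ → Z → X → ℤ → Z) (Y : X → S → ℤ) (z0 : Z) (m k : ℕ)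
    (z' : Z) (s : S) :
    UU gam Fq Y z0 (m + k) z' s = ∑ x : Fin k → X, prw gam x * ∑ z, UU gam Fq Y z0 m z s *
      (open Classical in if wr Fq m z k x (plab Y x s) = z' then 1 else 0) := by
  classical
  unfold UU
  rw [← (Fin.appendEquiv m k).sum_comp, Fintype.sum_prod_type, Finset.sum_comm]
  refine Finset.sum_congr rfl fun x _ => ?_
  have h1 : ∀ u : Fin m → X, prw gam ((Fin.appendEquiv m k) (u, x)) *
      (if dr Fq Y z0 (m + k) ((Fin.appendEquiv m k) (u, x)) s = z' then (1 : ℝ) else 0) =
      prw gam x * ∑ z, (prw gam u * (if dr Fq Y z0 m u s = z then (1 : ℝ) else 0)) *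
        (if wr Fq m z k x (plab Y x s) = z' then 1 else 0) := by
    intro u
    change prw gam (Fin.append u x) *
      (if dr Fq Y z0 (m + k) (Fin.append u x) s = z' then (1 : ℝ) else 0) = _
    rw [prw_append, dr_append, Finset.sum_eq_single (dr Fq Y z0 m u s)]
    · rw [if_pos rfl]; ring
    · intro z _ hz
      rw [if_neg (Ne.symm hz)]; ring
    · intro h; exact absurd (Finset.mem_univ _) h
  rw [Finset.sum_congr rfl fun u _ => h1 u, ← Finset.mul_sum, Finset.sum_comm]
  congr 1
  refine Finset.sum_congr rfl fun z _ => ?_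
  rw [Finset.sum_mul]

theorem UU_eq_ud (gam : X → ℝ) (Fq : ℕ → Z → X → ℤ → Z) (Y : X → S → ℤ) (z0 : Z) (n r : ℕ)
    (z : Z) (s : S) :
    UU gam Fq Y z0 (r * n) z s =
      ud (prw gam (w := n)) (plab Y) (fun i z x l => wr Fq (i * n) z n x l) z0 r z s := by
  classical
  induction r generalizing z with
  | zero =>
    rw [Nat.zero_mul]
    unfold UU ud
    rw [Fintype.sum_unique]
    have h0 : prw gam (default : Fin 0 → X) = 1 := by
      unfold prw
      rw [Finset.univ_eq_empty, Finset.prod_empty]
    rw [h0, one_mul]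
    exact if_congr (eq_comm : z0 = z ↔ z = z0) rfl rfl
  | succ r ih =>
    rw [Nat.succ_mul, UU_add, ud]
    simp only [ih]

end discrete

end Vale.Agent.Mem
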