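import Vale.Agent.Mem.R4a

/-!
# P309, part R4, second file: the quantised run and the real run
-/

namespace Vale.Agent.Mem

open Finset MeasureTheory ProbabilityTheory
open scoped InnerProductSpace

section law

variable {A B : Type} [MeasurableSpace A] [MeasurableSpace B]

/-- probability of a singleton for quantised independent samples and an independent signal -/
theorem real_singleton (γ : Measure A) [IsProbabilityMeasure γ] (μ : Measure B)
    [IsProbabilityMeasure μ] {N NS : ℕ} (Q : A → Fin N) (Qs : B → Fin NS)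
    (T : ℕ) (x : Fin T → Fin N) (s : Fin NS) :
    ((Measure.pi fun _ : Fin T => γ).prod μ).real
      {a | (fun t => Q (a.1 t)) = x ∧ Qs a.2 = s} =
      prw (fun i => γ.real (Q ⁻¹' {i})) x * μ.real (Qs ⁻¹' {s}) := by
  have h1 : {a : (Fin T → A) × B | (fun t => Q (a.1 t)) = x ∧ Qs a.2 = s} =
      (Set.univ.pi fun t => Q ⁻¹' {x t}) ×ˢ (Qs ⁻¹' {s}) := by
    ext a
    constructor
    · rintro ⟨h1, h2⟩
      refine ⟨fun t _ => ?_, h2⟩
      exact congrFun h1 t
    · rintro ⟨h1, h2⟩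
      exact ⟨funext fun t => h1 t (Set.mem_univ t), h2⟩
  rw [h1, measureReal_prod_prod, measureReal_def, Measure.pi_pi, ENNReal.toReal_prod]
  rfl

/-- law of the quantised samples and of the quantised signal -/
theorem real_law (γ : Measure A) [IsProbabilityMeasure γ] (μ : Measure B)
    [IsProbabilityMeasure μ] {N NS : ℕ} (Q : A → Fin N) (hQ : Measurable Q) (Qs : B → Fin NS)
    (hQs : Measurable Qs) (T : ℕ) (R : (Fin T → Fin N) → Fin NS → Prop) [∀ x s, Decidable (R x s)] :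
    ((Measure.pi fun _ : Fin T => γ).prod μ).real {a | R (fun t => Q (a.1 t)) (Qs a.2)} =
      ∑ x : Fin T → Fin N, ∑ s, prw (fun i => γ.real (Q ⁻¹' {i})) x * μ.real (Qs ⁻¹' {s}) *
        (if R x s then 1 else 0) := by
  classical
  set m := (Measure.pi fun _ : Fin T => γ).prod μ with hm
  set P : Finset ((Fin T → Fin N) × Fin NS) := univ.filter fun p => R p.1 p.2 with hP
  have hmeas : ∀ p : (Fin T → Fin N) × Fin NS,
      MeasurableSet {a : (Fin T → A) × B | (fun t => Q (a.1 t)) = p.1 ∧ Qs a.2 = p.2} := by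
    intro p
    have h1 : Measurable fun a : (Fin T → A) × B => ((fun t => Q (a.1 t)), Qs a.2) := by
      refine Measurable.prodMk (measurable_pi_lambda _ fun t => ?_) (hQs.comp measurable_snd)
      exact hQ.comp ((measurable_pi_apply t).comp measurable_fst)
    have h2 : {a : (Fin T → A) × B | (fun t => Q (a.1 t)) = p.1 ∧ Qs a.2 = p.2} =
        (fun a : (Fin T → A) × B => ((fun t => Q (a.1 t)), Qs a.2)) ⁻¹' {p} := by
      ext a
      exact ⟨fun h => Prod.ext h.1 h.2, fun h => ⟨congrArg Prod.fst h, congrArg Prod.snd h⟩⟩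
    rw [h2]
    exact h1 (measurableSet_singleton p)
  have h3 : {a : (Fin T → A) × B | R (fun t => Q (a.1 t)) (Qs a.2)} =
      ⋃ p ∈ P, {a : (Fin T → A) × B | (fun t => Q (a.1 t)) = p.1 ∧ Qs a.2 = p.2} := by
    ext a
    simp only [Set.mem_iUnion, Set.mem_ofPred_eq, hP, Finset.mem_filter, Finset.mem_univ, true_and,
      exists_prop]
    constructor
    · intro h
      exact ⟨(fun t => Q (a.1 t), Qs a.2), h, rfl, rfl⟩
    · rintro ⟨p, hp, h1, h2⟩
      rw [h1, h2]; exact hp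
  have hdisj : Set.PairwiseDisjoint (↑P : Set ((Fin T → Fin N) × Fin NS))
      fun p => {a : (Fin T → A) × B | (fun t => Q (a.1 t)) = p.1 ∧ Qs a.2 = p.2} := by
    intro p _ q _ hpq
    rw [Function.onFun, Set.disjoint_left]
    rintro a ⟨h1, h2⟩ ⟨h4, h5⟩
    exact hpq (Prod.ext (h1.symm.trans h4) (h2.symm.trans h5))
  rw [h3, measureReal_biUnion_finset hdisj fun p _ => hmeas p, hP, Finset.sum_filter,
    Fintype.sum_prod_type]
  refine Finset.sum_congr rfl fun x _ => Finset.sum_congr rfl fun s _ => ?_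
  by_cases h : R x s
  · rw [if_pos h, if_pos h, mul_one, hm, real_singleton γ μ Q Qs]
  · rw [if_neg h, if_neg h, mul_zero]

/-- marginal law of one sample and the signal -/
theorem real_marginal_le (γ : Measure A) [IsProbabilityMeasure γ] (μ : Measure B)
    [IsProbabilityMeasure μ] {T : ℕ} (t : Fin T) (D : Set (A × B)) :
    ((Measure.pi fun _ : Fin T => γ).prod μ).real {a | (a.1 t, a.2) ∈ D} ≤ (γ.prod μ).real D := by
  have h1 : MeasurePreserving (Prod.map (Function.eval t) id)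
      ((Measure.pi fun _ : Fin T => γ).prod μ) (γ.prod μ) :=
    (measurePreserving_eval (fun _ : Fin T => γ) t).prod (MeasurePreserving.id μ)
  rw [measureReal_def, measureReal_def]
  refine ENNReal.toReal_mono (measure_ne_top _ _) ?_
  exact h1.measure_preimage_le D

end law

section agree

variable {d : ℕ} {Z : Type}

/-- the two runs agree if all the single steps agree -/
theorem run_eq_dr (F : ℕ → Z → E d → ℝ → Z) (z0 : Z) {NX NS : ℕ} (Q : E d → Fin NX)
    (Y : Fin NX → Fin NS → ℤ) (Fq : ℕ → Z → Fin NX → ℤ → Z) (s : E d) (i : Fin NS) (T : ℕ)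
    (x : Fin T → E d) (h : ∀ t : Fin T, ∀ z, F t z (x t) ⟪x t, s⟫_ℝ = Fq t z (Q (x t)) (Y (Q (x t)) i)) :
    run F z0 T x s = dr Fq Y z0 T (fun t => Q (x t)) i := by
  induction T with
  | zero => rfl
  | succ T ih =>
    rw [run, dr, ih (Fin.init x) fun t z => ?_]
    · have h1 := h (Fin.last T) (dr Fq Y z0 T (fun t => Q (Fin.init x t)) i)
      rw [Fin.val_last] at h1
      exact h1
    · have h1 := h t.castSucc z
      rw [Fin.val_castSucc] at h1
      exact h1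

end agree

/-- the core of the transfer -/
theorem transfer_core {Z : Type} [Fintype Z] (d n r : ℕ) (μ : Measure (E d))
    [IsProbabilityMeasure μ] (F : ℕ → Z → E d → ℝ → Z) (z0 : Z) (o : Z → E d) (ε : ℝ)
    (hsucc : 3 / 5 ≤ ((Measure.pi fun _ : Fin (r * n) => stdGaussian (E d)).prod μ).real
      {a | ‖a.2 - o (run F z0 (r * n) a.1 a.2)‖ ≤ ε})
    {NX NS : ℕ} (vs : Fin NS → E d) (Qx : E d → Fin NX) (Qs : E d → Fin NS)
    (hQx : Measurable Qx) (hQs : Measurable Qs) (Y : Fin NX → Fin NS → ℤ)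
    (Fq : ℕ → Z → Fin NX → ℤ → Z) (hs : μ {s | ε < ‖vs (Qs s) - s‖} = 0)
    (hbad : ∀ t < r * n, ((stdGaussian (E d)).prod μ).real
      {a | ¬ ∀ z, F t z a.1 ⟪a.1, a.2⟫_ℝ = Fq t z (Qx a.1) (Y (Qx a.1) (Qs a.2))} ≤
      1 / (10 * (r * n : ℕ))) :
    1 / 2 ≤ ∑ z, ∑ s, μ.real (Qs ⁻¹' {s}) *
      ud (prw (fun i => (stdGaussian (E d)).real (Qx ⁻¹' {i})) (w := n)) (plab Y)
        (fun i z x l => wr Fq (i * n) z n x l) z0 r z s *
        (if ‖vs s - o z‖ ≤ 2 * ε then 1 else 0) := by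
  classical
  set γ := stdGaussian (E d) with hγ
  set m := (Measure.pi fun _ : Fin (r * n) => γ).prod μ with hm
  set gam : Fin NX → ℝ := fun i => γ.real (Qx ⁻¹' {i}) with hgam
  set R : (Fin (r * n) → Fin NX) → Fin NS → Prop := fun x s =>
    ‖vs s - o (dr Fq Y z0 (r * n) x s)‖ ≤ 2 * ε with hR
  have hsub : {a : (Fin (r * n) → E d) × E d | ‖a.2 - o (run F z0 (r * n) a.1 a.2)‖ ≤ ε} ⊆
      {a | R (fun t => Qx (a.1 t)) (Qs a.2)} ∪
        ((⋃ t : Fin (r * n), {a : (Fin (r * n) → E d) × E d | (a.1 t, a.2) ∈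
          {b : E d × E d | ¬ ∀ z, F t z b.1 ⟪b.1, b.2⟫_ℝ = Fq t z (Qx b.1) (Y (Qx b.1) (Qs b.2))}}) ∪
        (Set.univ ×ˢ {s | ε < ‖vs (Qs s) - s‖})) := by
    intro a ha
    by_cases h1 : ∀ t : Fin (r * n), ∀ z, F t z (a.1 t) ⟪a.1 t, a.2⟫_ℝ =
        Fq t z (Qx (a.1 t)) (Y (Qx (a.1 t)) (Qs a.2))
    · by_cases h2 : ε < ‖vs (Qs a.2) - a.2‖
      · right; right
        exact ⟨Set.mem_univ _, h2⟩
      · left
        have h3 := run_eq_dr F z0 Qx Y Fq a.2 (Qs a.2) (r * n) a.1 h1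
        have h4 : ‖a.2 - o (run F z0 (r * n) a.1 a.2)‖ ≤ ε := ha
        push Not at h2
        show ‖vs (Qs a.2) - o (dr Fq Y z0 (r * n) (fun t => Qx (a.1 t)) (Qs a.2))‖ ≤ 2 * ε
        rw [← h3]
        calc ‖vs (Qs a.2) - o (run F z0 (r * n) a.1 a.2)‖ =
              ‖(vs (Qs a.2) - a.2) + (a.2 - o (run F z0 (r * n) a.1 a.2))‖ := by
              rw [sub_add_sub_cancel]
          _ ≤ ‖vs (Qs a.2) - a.2‖ + ‖a.2 - o (run F z0 (r * n) a.1 a.2)‖ := norm_add_le _ _
          _ ≤ 2 * ε := by linarith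
    · right; left
      push Not at h1
      obtain ⟨t, z, htz⟩ := h1
      rw [Set.mem_iUnion]
      refine ⟨t, ?_⟩
      show ¬ ∀ z, F t z (a.1 t) ⟪a.1 t, a.2⟫_ℝ = Fq t z (Qx (a.1 t)) (Y (Qx (a.1 t)) (Qs a.2))
      push Not
      exact ⟨z, htz⟩
  have h5 : m.real (⋃ t : Fin (r * n), {a : (Fin (r * n) → E d) × E d | (a.1 t, a.2) ∈
      {b : E d × E d | ¬ ∀ z, F t z b.1 ⟪b.1, b.2⟫_ℝ = Fq t z (Qx b.1) (Y (Qx b.1) (Qs b.2))}}) ≤
      1 / 10 := by
    refine (measureReal_iUnion_fintype_le _).trans ?_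
    have h6 : ∀ t : Fin (r * n), m.real {a : (Fin (r * n) → E d) × E d | (a.1 t, a.2) ∈
        {b : E d × E d | ¬ ∀ z, F t z b.1 ⟪b.1, b.2⟫_ℝ = Fq t z (Qx b.1) (Y (Qx b.1) (Qs b.2))}} ≤
        1 / (10 * (r * n : ℕ)) := fun t =>
      (real_marginal_le γ μ t _).trans (hbad t t.isLt)
    refine (Finset.sum_le_sum fun t _ => h6 t).trans ?_
    rw [Finset.sum_const, Finset.card_univ, Fintype.card_fin, nsmul_eq_mul]
    rcases Nat.eq_zero_or_pos (r * n) with h0 | h0
    · rw [h0]; norm_num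
    · have h7 : (0 : ℝ) < (r * n : ℕ) := by exact_mod_cast h0
      field_simp
      exact le_refl _
  have h8 : m.real (Set.univ ×ˢ {s | ε < ‖vs (Qs s) - s‖}) = 0 := by
    rw [hm, measureReal_prod_prod, measureReal_def (μ := μ), hs]
    simp
  have h9 : m.real {a | R (fun t => Qx (a.1 t)) (Qs a.2)} ≥ 1 / 2 := by
    have h10 := measureReal_mono (μ := m) hsub
    have h11 := measureReal_union_le (μ := m) {a | R (fun t => Qx (a.1 t)) (Qs a.2)}
        ((⋃ t : Fin (r * n), {a : (Fin (r * n) → E d) × E d | (a.1 t, a.2) ∈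
          {b : E d × E d | ¬ ∀ z, F t z b.1 ⟪b.1, b.2⟫_ℝ = Fq t z (Qx b.1) (Y (Qx b.1) (Qs b.2))}}) ∪
        (Set.univ ×ˢ {s | ε < ‖vs (Qs s) - s‖}))
    have h12 := measureReal_union_le (μ := m)
        (⋃ t : Fin (r * n), {a : (Fin (r * n) → E d) × E d | (a.1 t, a.2) ∈
          {b : E d × E d | ¬ ∀ z, F t z b.1 ⟪b.1, b.2⟫_ℝ = Fq t z (Qx b.1) (Y (Qx b.1) (Qs b.2))}})
        (Set.univ ×ˢ {s | ε < ‖vs (Qs s) - s‖})
    linarith
  rw [hm, real_law γ μ Qx hQx Qs hQs (r * n) R] at h9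
  refine h9.le.trans (le_of_eq ?_)
  have h13 : ∀ (x : Fin (r * n) → Fin NX) (s : Fin NS),
      prw (fun i => γ.real (Qx ⁻¹' {i})) x * μ.real (Qs ⁻¹' {s}) * (if R x s then (1 : ℝ) else 0) =
      ∑ z, μ.real (Qs ⁻¹' {s}) * (prw gam x * (if dr Fq Y z0 (r * n) x s = z then 1 else 0)) *
        (if ‖vs s - o z‖ ≤ 2 * ε then 1 else 0) := by
    intro x s
    rw [Finset.sum_eq_single (dr Fq Y z0 (r * n) x s)]
    · rw [if_pos rfl, mul_one]
      change prw gam x * μ.real (Qs ⁻¹' {s}) *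
        (if ‖vs s - o (dr Fq Y z0 (r * n) x s)‖ ≤ 2 * ε then (1 : ℝ) else 0) = _
      ring
    · intro z _ hz
      rw [if_neg (Ne.symm hz)]; ring
    · intro h; exact absurd (Finset.mem_univ _) h
  simp only [h13]
  rw [Finset.sum_comm' (s := univ) (t := fun _ => univ) (t' := univ) (s' := fun _ => univ)
    (by simp)]
  have h14 : ∀ s : Fin NS, ∑ x : Fin (r * n) → Fin NX, ∑ z, μ.real (Qs ⁻¹' {s}) *
      (prw gam x * (if dr Fq Y z0 (r * n) x s = z then 1 else 0)) *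
        (if ‖vs s - o z‖ ≤ 2 * ε then 1 else 0) =
      ∑ z, μ.real (Qs ⁻¹' {s}) * ud (prw gam (w := n)) (plab Y)
        (fun i z x l => wr Fq (i * n) z n x l) z0 r z s *
        (if ‖vs s - o z‖ ≤ 2 * ε then 1 else 0) := by
    intro s
    rw [Finset.sum_comm]
    refine Finset.sum_congr rfl fun z _ => ?_
    rw [← Finset.sum_mul, ← Finset.mul_sum, ← UU_eq_ud]
    unfold UU
    congr!
  simp only [h14]
  rw [Finset.sum_comm]

end Vale.Agent.Mem
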