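import Vale.Agent.Mem.R4c

/-!
# P309, part R4, fourth file: the transfer theorem, given the quantised rows and signals
-/

namespace Vale.Agent.Mem

open Finset MeasureTheory ProbabilityTheory
open scoped InnerProductSpace

/-- the labels of the quantised model -/
noncomputable def labY {d NX NS : ℕ} (vx : Fin NX → E d) (vs : Fin NS → E d) (τ : ℝ) (x : Fin NX)
    (s : Fin NS) : ℤ := ⌊⟪vx x, vs s⟫_ℝ / τ⌋

theorem labY_eq {d NX NS : ℕ} (vx : Fin NX → E d) (vs : Fin NS → E d) {τ : ℝ} (hτ : 0 < τ)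
    (x : Fin NX) (s s' : Fin NS) (h : labY vx vs τ x s = labY vx vs τ x s') :
    |⟪vx x, vs s - vs s'⟫_ℝ| ≤ τ := by
  have h1 := Int.abs_sub_lt_one_of_floor_eq_floor h
  rw [← sub_div, ← inner_sub_right, abs_div, abs_of_pos hτ, div_lt_one hτ] at h1
  exact h1.le

theorem labY_near {d NX NS : ℕ} (vx : Fin NX → E d) (vs : Fin NS → E d) {τ : ℝ} (hτ : 0 < τ)
    (x : Fin NX) (s s' : Fin NS) :
    |((labY vx vs τ x s : ℝ) - labY vx vs τ x s')| ≤ |⟪vx x, vs s - vs s'⟫_ℝ| / τ + 1 := by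
  unfold labY
  have e1 : |⟪vx x, vs s - vs s'⟫_ℝ| / τ = |⟪vx x, vs s⟫_ℝ / τ - ⟪vx x, vs s'⟫_ℝ / τ| := by
    rw [← sub_div, ← inner_sub_right, abs_div, abs_of_pos hτ]
  rw [e1]
  generalize ⟪vx x, vs s⟫_ℝ / τ = a
  generalize ⟪vx x, vs s'⟫_ℝ / τ = b
  have h1 := Int.floor_le a
  have h2 := Int.lt_floor_add_one a
  have h3 := Int.floor_le b
  have h4 := Int.lt_floor_add_one b
  have h5 := le_abs_self (a - b)
  have h6 := neg_abs_le (a - b)
  rw [abs_le]
  constructor <;> linarith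

theorem transfer_of (hrows : ExistsRows) (hsig : ExistsSignals) :
    ∃ CL C1 : ℝ, 1 ≤ CL ∧ 1 ≤ C1 ∧ ∀ {Z : Type} [Fintype Z] [Nonempty Z]
    (d n : ℕ), 1 ≤ n → 16 * n ≤ d → d ≤ 32 * n → ∀ μ : Measure (E d), IsUniformSphere d μ →
    ∀ F : ℕ → Z → E d → ℝ → Z,
    (∀ t z z', MeasurableSet {a : E d × ℝ | F t z a.1 a.2 = z'}) →
    ∀ (z0 : Z) (r : ℕ) (o : Z → E d) (ε : ℝ), 0 < ε →
    3 / 5 ≤ ((Measure.pi fun _ : Fin (r * n) => stdGaussian (E d)).prod μ).real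
      {a | ‖a.2 - o (run F z0 (r * n) a.1 a.2)‖ ≤ ε} →
    ∀ τ0 : ℝ, 0 < τ0 → ∃ τ : ℝ, 0 < τ ∧ τ ≤ τ0 ∧ ∃ (NS NX : ℕ) (vs : Fin NS → E d)
      (vx : Fin NX → E d) (lam : Fin NS → ℝ) (gam gam' : Fin NX → ℝ) (Y : Fin NX → Fin NS → ℤ)
      (Fh : ℕ → Z → (Fin n → Fin NX) → (Fin n → ℤ) → Z),
      Model CL C1 d n τ vs vx lam gam gam' Y ∧
      1 / 2 ≤ ∑ z, ∑ s, lam s * ud (prw gam) (plab Y) Fh z0 r z s *
        (if ‖vs s - o z‖ ≤ 2 * ε then 1 else 0) := by
  obtain ⟨C1, hC1, hrows⟩ := hrows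
  obtain ⟨CL, hCL, hsig⟩ := hsig
  refine ⟨CL, C1, hCL, hC1, ?_⟩
  intro Z _ _ d n hn hd hd' μ hμ F hF z0 r o ε hε hsucc τ0 hτ0
  have hμp := hμ.prob
  set T := r * n with hT
  have hT1 : (0 : ℝ) < 40 * ((T : ℝ) + 1) := by positivity
  set δ1 : ℝ := 1 / (40 * ((T : ℝ) + 1)) with hδ1
  have hδ1p : 0 < δ1 := by positivity
  -- one step
  have hstep : ∀ t : Fin T, ∃ (η : ℝ) (fh : Z → E d × ℝ → Z), 0 < η ∧
      ∀ b : E d × E d → E d × ℝ, ((stdGaussian (E d)).prod μ).real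
        {a | ¬ ∀ z, F t z a.1 ⟪a.1, a.2⟫_ℝ = fh z (b a)} ≤
        δ1 + ((stdGaussian (E d)).prod μ).real {a | η < dist (a.1, ⟪a.1, a.2⟫_ℝ) (b a)} :=
    fun t => step_bad μ (fun z => F t z) (fun z z' => hF t z z') δ1 hδ1p
  choose η fh hη hfh using hstep
  obtain ⟨η0, hη0, hη0'⟩ := exists_pos_le η hη
  obtain ⟨R, hR0, hR⟩ := exists_radius (stdGaussian (E d)) δ1 hδ1p
  -- parameters
  set τ : ℝ := min (min τ0 1) (η0 / 4) with hτdef
  have hτ : 0 < τ := lt_min (lt_min hτ0 one_pos) (by positivity)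
  have hττ0 : τ ≤ τ0 := (min_le_left _ _).trans (min_le_left _ _)
  have hτ1 : τ ≤ 1 := (min_le_left _ _).trans (min_le_right _ _)
  have hτη : τ ≤ η0 / 4 := min_le_right _ _
  set δx : ℝ := min (η0 / 4) δ1 with hδx
  have hδxp : 0 < δx := lt_min (by positivity) hδ1p
  set δs : ℝ := min ε (η0 / (4 * (R + 1))) with hδs
  have hδsp : 0 < δs := lt_min hε (by positivity)
  have hRδs : R * δs ≤ η0 / 4 := by
    have h1 : δs ≤ η0 / (4 * (R + 1)) := min_le_right _ _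
    have h2 : R * δs ≤ (R + 1) * (η0 / (4 * (R + 1))) :=
      mul_le_mul (by linarith) h1 hδsp.le (by linarith)
    have h3 : (R + 1) * (η0 / (4 * (R + 1))) = η0 / 4 := by field_simp
    linarith
  obtain ⟨NX, vx, Qx, gam', hQx, hQxδ, hg'0, hg'1, hsmall, habs, habs', hsmall', hnorm⟩ :=
    hrows d n hn hd hd' τ hτ hτ1 δx hδxp
  obtain ⟨NS, vs, Qs, hQs, hvs, hQsδ, hlam, hball⟩ := hsig d n hn hd μ hμ τ hτ δs hδsp
  classical
  refine ⟨τ, hτ, hττ0, NS, NX, vs, vx, fun s => μ.real (Qs ⁻¹' {s}),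
    fun i => (stdGaussian (E d)).real (Qx ⁻¹' {i}), gam', labY vx vs τ,
    fun i z x l => wr (fun t z ix l => if h : t < T then fh ⟨t, h⟩ z (vx ix, τ * (l : ℝ)) else z)
      (i * n) z n x l, ?_, ?_⟩
  · exact
      { hCL := hCL
        hC1 := hC1
        hn := hn
        hd := hd
        hd' := hd'
        hτ := hτ
        hτ1 := hτ1
        vs_le := hvs
        lam_pos := hlam
        lam_sum := sum_law μ Qs hQs
        lam_ball := hball
        gam_nonneg := fun x => measureReal_nonneg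
        gam_sum := sum_law _ Qx hQx
        gam'_nonneg := hg'0
        gam'_sum := hg'1
        gam_small := hsmall
        gam_abs := habs
        gam'_abs := habs'
        gam'_small := hsmall'
        gam'_norm := hnorm
        lab_eq := labY_eq vx vs hτ
        lab_near := labY_near vx vs hτ }
  · refine transfer_core d n r μ F z0 o ε hsucc vs Qx Qs hQx hQs (labY vx vs τ) _ ?_ ?_
    · refine measure_mono_null ?_ hQsδ
      intro s hs
      have h1 : ε < ‖vs (Qs s) - s‖ := hs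
      exact lt_of_le_of_lt (min_le_left _ _) h1
    · intro t ht
      have h1 := hfh ⟨t, ht⟩ fun a => (vx (Qx a.1), τ * (labY vx vs τ (Qx a.1) (Qs a.2) : ℝ))
      have h2 : {a : E d × E d | ¬ ∀ z, F t z a.1 ⟪a.1, a.2⟫_ℝ =
          (if h : t < T then fh ⟨t, h⟩ z (vx (Qx a.1), τ * (labY vx vs τ (Qx a.1) (Qs a.2) : ℝ))
            else z)} = {a | ¬ ∀ z, F t z a.1 ⟪a.1, a.2⟫_ℝ =
          fh ⟨t, ht⟩ z (vx (Qx a.1), τ * (labY vx vs τ (Qx a.1) (Qs a.2) : ℝ))} := by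
        have h20 : ∀ (z : Z) (p : E d × ℝ), (if h : t < T then fh ⟨t, h⟩ z p else z) =
            fh ⟨t, ht⟩ z p := fun z p => dif_pos ht
        simp only [h20]
      have h3 : ((stdGaussian (E d)).prod μ).real {a | η ⟨t, ht⟩ < dist (a.1, ⟪a.1, a.2⟫_ℝ)
          (vx (Qx a.1), τ * (labY vx vs τ (Qx a.1) (Qs a.2) : ℝ))} ≤ 2 * δ1 := by
        have h4 : {a : E d × E d | η ⟨t, ht⟩ < dist (a.1, ⟪a.1, a.2⟫_ℝ)
            (vx (Qx a.1), τ * (labY vx vs τ (Qx a.1) (Qs a.2) : ℝ))} ⊆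
            ({x | R < ‖x‖} ×ˢ Set.univ) ∪ (({x | δx < ‖vx (Qx x) - x‖} ×ˢ Set.univ) ∪
              (Set.univ ×ˢ {s | δs < ‖vs (Qs s) - s‖})) := by
          intro a ha
          by_contra hcon
          simp only [Set.mem_union, Set.mem_prod, Set.mem_univ, and_true, true_and,
            Set.mem_ofPred_eq, not_or, not_lt] at hcon
          obtain ⟨c1, c2, c3⟩ := hcon
          have h5 : dist ((a.1, ⟪a.1, a.2⟫_ℝ) : E d × ℝ)
              (vx (Qx a.1), τ * (labY vx vs τ (Qx a.1) (Qs a.2) : ℝ)) ≤ η0 :=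
            data_close hτ hR0 c1 c2 c3 (hvs _) (min_le_left _ _) hRδs hτη
          have h6 : η ⟨t, ht⟩ < dist ((a.1, ⟪a.1, a.2⟫_ℝ) : E d × ℝ)
              (vx (Qx a.1), τ * (labY vx vs τ (Qx a.1) (Qs a.2) : ℝ)) := ha
          exact absurd (h5.trans (hη0' ⟨t, ht⟩)) (not_le.2 h6)
        refine (measureReal_mono h4).trans ((measureReal_union_le _ _).trans ?_)
        have h7 := measureReal_union_le (μ := (stdGaussian (E d)).prod μ)
          ({x | δx < ‖vx (Qx x) - x‖} ×ˢ Set.univ) (Set.univ ×ˢ {s | δs < ‖vs (Qs s) - s‖})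
        have h8 : ((stdGaussian (E d)).prod μ).real ({x | R < ‖x‖} ×ˢ Set.univ) ≤ δ1 := by
          rw [measureReal_prod_prod, probReal_univ, mul_one]; exact hR
        have h9 : ((stdGaussian (E d)).prod μ).real ({x | δx < ‖vx (Qx x) - x‖} ×ˢ Set.univ) ≤
            δ1 := by
          rw [measureReal_prod_prod, probReal_univ, mul_one]
          exact hQxδ.trans (min_le_right _ _)
        have h10 : ((stdGaussian (E d)).prod μ).real
            (Set.univ ×ˢ {s | δs < ‖vs (Qs s) - s‖}) = 0 := by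
          rw [measureReal_prod_prod, measureReal_def (μ := μ), hQsδ]
          simp
        linarith
      rw [h2]
      refine h1.trans ?_
      have hTp : (0 : ℝ) < T := by exact_mod_cast (Nat.zero_le t).trans_lt ht
      have h11 : δ1 + 2 * δ1 ≤ 1 / (10 * (T : ℝ)) := by
        rw [hδ1]
        have h12 : 1 / (40 * ((T : ℝ) + 1)) + 2 * (1 / (40 * ((T : ℝ) + 1))) =
            3 / (40 * ((T : ℝ) + 1)) := by ring
        rw [h12, div_le_div_iff₀ hT1 (by positivity)]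
        nlinarith
      linarith

end Vale.Agent.Mem
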